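import Mathlib

/-! The polynomial inequality behind the Calabi estimate, in an orthonormal frame. -/

namespace Vale.Agent.P227

open Matrix

variable {n : ℕ}

/-- sum over four indices -/
def mxs4 (F : Fin n → Fin n → Fin n → Fin n → ℝ) : ℝ := ∑ m, ∑ i, ∑ j, ∑ k, F m i j k

/-- sum over three indices -/
def mxs3 (F : Fin n → Fin n → Fin n → ℝ) : ℝ := ∑ i, ∑ j, ∑ k, F i j k

/-- contraction of two copies of a three-tensor -/
def mxP (a : Fin n → Fin n → Fin n → ℝ) (m i j k : Fin n) : ℝ := ∑ e, a m i e * a j k e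

theorem mxs4_12 (F : Fin n → Fin n → Fin n → Fin n → ℝ) :
    mxs4 F = mxs4 fun m i j k => F i m j k := Finset.sum_comm
theorem mxs4_23 (F : Fin n → Fin n → Fin n → Fin n → ℝ) :
    mxs4 F = mxs4 fun m i j k => F m j i k := Finset.sum_congr rfl fun _ _ => Finset.sum_comm
theorem mxs4_34 (F : Fin n → Fin n → Fin n → Fin n → ℝ) :
    mxs4 F = mxs4 fun m i j k => F m i k j :=
  Finset.sum_congr rfl fun _ _ => Finset.sum_congr rfl fun _ _ => Finset.sum_comm
theorem mxs3_12 (F : Fin n → Fin n → Fin n → ℝ) : mxs3 F = mxs3 fun i j k => F j i k :=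
  Finset.sum_comm
theorem mxs3_23 (F : Fin n → Fin n → Fin n → ℝ) : mxs3 F = mxs3 fun i j k => F i k j :=
  Finset.sum_congr rfl fun _ _ => Finset.sum_comm

theorem mxs4_congr {F G : Fin n → Fin n → Fin n → Fin n → ℝ} (h : ∀ m i j k, F m i j k = G m i j k) :
    mxs4 F = mxs4 G := by
  have : F = G := by funext m i j k; exact h m i j k
  rw [this]
theorem mxs3_congr {F G : Fin n → Fin n → Fin n → ℝ} (h : ∀ i j k, F i j k = G i j k) :
    mxs3 F = mxs3 G := by
  have : F = G := by funext i j k; exact h i j k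
  rw [this]

theorem mxs4_add (F G : Fin n → Fin n → Fin n → Fin n → ℝ) :
    mxs4 (fun m i j k => F m i j k + G m i j k) = mxs4 F + mxs4 G := by
  simp only [mxs4, Finset.sum_add_distrib]
theorem mxs4_sub (F G : Fin n → Fin n → Fin n → Fin n → ℝ) :
    mxs4 (fun m i j k => F m i j k - G m i j k) = mxs4 F - mxs4 G := by
  simp only [mxs4, Finset.sum_sub_distrib]
theorem mxs4_mul (t : ℝ) (F : Fin n → Fin n → Fin n → Fin n → ℝ) :
    mxs4 (fun m i j k => t * F m i j k) = t * mxs4 F := by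
  simp only [mxs4, Finset.mul_sum]
theorem mxs4_nonneg {F : Fin n → Fin n → Fin n → Fin n → ℝ} (h : ∀ m i j k, 0 ≤ F m i j k) :
    0 ≤ mxs4 F :=
  Finset.sum_nonneg fun _ _ => Finset.sum_nonneg fun _ _ => Finset.sum_nonneg fun _ _ =>
    Finset.sum_nonneg fun _ _ => h _ _ _ _
theorem mxs3_add (F G : Fin n → Fin n → Fin n → ℝ) :
    mxs3 (fun i j k => F i j k + G i j k) = mxs3 F + mxs3 G := by
  simp only [mxs3, Finset.sum_add_distrib]
theorem mxs3_sub (F G : Fin n → Fin n → Fin n → ℝ) :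
    mxs3 (fun i j k => F i j k - G i j k) = mxs3 F - mxs3 G := by
  simp only [mxs3, Finset.sum_sub_distrib]
theorem mxs3_mul (t : ℝ) (F : Fin n → Fin n → Fin n → ℝ) :
    mxs3 (fun i j k => t * F i j k) = t * mxs3 F := by
  simp only [mxs3, Finset.mul_sum]
theorem mxs3_nonneg {F : Fin n → Fin n → Fin n → ℝ} (h : ∀ i j k, 0 ≤ F i j k) :
    0 ≤ mxs3 F :=
  Finset.sum_nonneg fun _ _ => Finset.sum_nonneg fun _ _ => Finset.sum_nonneg fun _ _ => h _ _ _

theorem mxs3_sum (F : Fin n → Fin n → Fin n → Fin n → ℝ) :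
    mxs3 (fun i j k => ∑ m, F m i j k) = mxs4 F := by
  simp only [mxs3, mxs4]
  calc ∑ i, ∑ j, ∑ k, ∑ m, F m i j k = ∑ i, ∑ j, ∑ m, ∑ k, F m i j k :=
        Finset.sum_congr rfl fun _ _ => Finset.sum_congr rfl fun _ _ => Finset.sum_comm
    _ = ∑ i, ∑ m, ∑ j, ∑ k, F m i j k := Finset.sum_congr rfl fun _ _ => Finset.sum_comm
    _ = _ := Finset.sum_comm

/-- totally symmetric three-tensors -/
def mxSym3 (a : Fin n → Fin n → Fin n → ℝ) : Prop :=
  (∀ i j k, a i j k = a j i k) ∧ ∀ i j k, a i j k = a i k j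

/-- totally symmetric four-tensors -/
def mxSym4 (b : Fin n → Fin n → Fin n → Fin n → ℝ) : Prop :=
  (∀ m i j k, b m i j k = b i m j k) ∧ (∀ m i j k, b m i j k = b m j i k) ∧
    ∀ m i j k, b m i j k = b m i k j

variable {a : Fin n → Fin n → Fin n → ℝ} {b : Fin n → Fin n → Fin n → Fin n → ℝ}

theorem mxP_12 (ha : mxSym3 a) (m i j k : Fin n) : mxP a m i j k = mxP a i m j k := by
  simp only [mxP, ha.1 m i]
theorem mxP_34 (ha : mxSym3 a) (m i j k : Fin n) : mxP a m i j k = mxP a m i k j := by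
  simp only [mxP, ha.1 j k]
theorem mxP_swap (m i j k : Fin n) : mxP a m i j k = mxP a j k m i := by
  simp only [mxP, mul_comm]

theorem mx_red1 (ha : mxSym3 a) (W : Fin n → Fin n → Fin n → Fin n → ℝ) :
    mxs3 (fun i j k => a i j k * ∑ m, ∑ c, a m i c * W m c j k)
      = mxs4 fun m c j k => mxP a m c j k * W m c j k := by
  have h1 : mxs3 (fun i j k => a i j k * ∑ m, ∑ c, a m i c * W m c j k)
      = mxs4 fun m i j k => ∑ c, a i j k * (a m i c * W m c j k) := by
    rw [← mxs3_sum]; simp only [Finset.mul_sum]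
  rw [h1]
  simp only [mxs4]
  refine Finset.sum_congr rfl fun m _ => ?_
  have h2 := mxs3_sum fun c i j k => a i j k * (a m i c * W m c j k)
  simp only [mxs3] at h2
  rw [h2, mxs4_12]
  have h3 := mxs3_sum fun i c j k => a i j k * (a m i c * W m c j k)
  rw [← h3]
  simp only [mxs3, mxP, Finset.sum_mul]
  refine Finset.sum_congr rfl fun c _ => Finset.sum_congr rfl fun j _ =>
    Finset.sum_congr rfl fun k _ => Finset.sum_congr rfl fun i _ => ?_
  rw [ha.2 m i c, ha.1 i j k, ha.2 j i k]; ring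

theorem mx_red2 (ha : mxSym3 a) (W : Fin n → Fin n → Fin n → Fin n → ℝ) :
    mxs3 (fun i j k => a i j k * ∑ m, ∑ c, a m j c * W m c i k)
      = mxs4 fun m c j k => mxP a m c j k * W m c j k := by
  rw [← mx_red1 ha, mxs3_12]
  exact mxs3_congr fun i j k => by rw [ha.1 j i k]

theorem mx_red3 (ha : mxSym3 a) (W : Fin n → Fin n → Fin n → Fin n → ℝ) :
    mxs3 (fun i j k => a i j k * ∑ m, ∑ c, a m k c * W m c i j)
      = mxs4 fun m c j k => mxP a m c j k * W m c j k := by
  rw [← mx_red2 ha, mxs3_23]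
  exact mxs3_congr fun i j k => by rw [ha.2 i k j]

/-- the pairing of the four-tensor with the contraction -/
def mxBP (a : Fin n → Fin n → Fin n → ℝ) (b : Fin n → Fin n → Fin n → Fin n → ℝ) : ℝ :=
  mxs4 fun m i j k => mxP a m i j k * b m i j k
/-- squared norm of the contraction -/
def mxPP (a : Fin n → Fin n → Fin n → ℝ) : ℝ := mxs4 fun m i j k => mxP a m i j k * mxP a m i j k
/-- the tetrahedral contraction -/
def mxT (a : Fin n → Fin n → Fin n → ℝ) : ℝ := mxs4 fun m i j k => mxP a m i j k * mxP a m j i k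

theorem mx_bP2 (hb : mxSym4 b) : (mxs4 fun m i j k => mxP a m j i k * b m i j k) = mxBP a b := by
  rw [mxs4_23]; exact mxs4_congr fun m i j k => by rw [hb.2.1 m j i k]
theorem mx_bP3 (hb : mxSym4 b) : (mxs4 fun m i j k => mxP a m k i j * b m i j k) = mxBP a b := by
  rw [mxs4_34, ← mx_bP2 hb]; exact mxs4_congr fun m i j k => by rw [hb.2.2 m i k j]
theorem mx_P22 : (mxs4 fun m i j k => mxP a m j i k * mxP a m j i k) = mxPP a := by
  rw [mxs4_23]; rfl
theorem mx_P33 : (mxs4 fun m i j k => mxP a m k i j * mxP a m k i j) = mxPP a := by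
  rw [mxs4_34, mx_P22]
theorem mx_P13 (ha : mxSym3 a) : (mxs4 fun m i j k => mxP a m i j k * mxP a m k i j) = mxT a := by
  rw [mxs4_34]; exact mxs4_congr fun m i j k => by rw [mxP_34 ha m i k j]
theorem mx_P23 (ha : mxSym3 a) : (mxs4 fun m i j k => mxP a m j i k * mxP a m k i j) = mxT a := by
  rw [mxs4_23, ← mx_P13 ha]; exact mxs4_congr fun m i j k => by rw [mxP_34 ha m k j i]

theorem mx_squares (ha : mxSym3 a) (hb : mxSym4 b) :
    0 ≤ 3 * mxPP a + 2 * mxT a - 6 * mxBP a b + 2 * mxs4 fun m i j k => b m i j k * b m i j k := by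
  have h1 : 0 ≤ mxs4 fun m i j k => (b m i j k - mxP a m i j k) ^ 2 :=
    mxs4_nonneg fun _ _ _ _ => sq_nonneg _
  have h2 : 0 ≤ mxs4 fun m i j k => (b m i j k - mxP a m j i k - mxP a m k i j) ^ 2 :=
    mxs4_nonneg fun _ _ _ _ => sq_nonneg _
  have e1 : (mxs4 fun m i j k => (b m i j k - mxP a m i j k) ^ 2)
      = (mxs4 fun m i j k => b m i j k * b m i j k) - 2 * mxBP a b + mxPP a := by
    rw [mxBP, mxPP, ← mxs4_mul, ← mxs4_sub, ← mxs4_add]
    exact mxs4_congr fun m i j k => by ring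
  have e2 : (mxs4 fun m i j k => (b m i j k - mxP a m j i k - mxP a m k i j) ^ 2)
      = (mxs4 fun m i j k => b m i j k * b m i j k) - 2 * mxBP a b - 2 * mxBP a b + mxPP a
        + mxPP a + 2 * mxT a := by
    nth_rewrite 1 [← mx_bP2 hb, ← mx_P22]
    rw [← mx_bP3 hb, ← mx_P33, ← mx_P23 ha, ← mxs4_mul, ← mxs4_mul, ← mxs4_mul, ← mxs4_sub,
      ← mxs4_sub, ← mxs4_add, ← mxs4_add, ← mxs4_add]
    exact mxs4_congr fun m i j k => by ring
  linarith

theorem mx_ell (ha : mxSym3 a) {w : Matrix (Fin n) (Fin n) ℝ} (hw : w.PosSemidef)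
    {l : Fin n → Fin n → ℝ}
    (hl : ∀ i c, l i c = -(if i = c then 1 else 0) + (∑ p, ∑ q, a i p q * a c p q) + w i c) :
    mxPP a - mxs3 (fun i j k => a i j k * a i j k)
      ≤ mxs3 fun i j k => a i j k * ∑ c, l i c * a c j k := by
  have h1 : ∀ i j k, ∑ c, l i c * a c j k
      = -a i j k + (∑ m, ∑ p, a m i p * mxP a m p j k) + ∑ c, w i c * a c j k := by
    intro i j k
    simp only [hl, add_mul, Finset.sum_add_distrib, neg_mul, Finset.sum_neg_distrib, ite_mul,
      one_mul, zero_mul, Finset.sum_ite_eq, Finset.mem_univ, if_true, mxP, Finset.sum_mul,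
      Finset.mul_sum]
    have h2 := mxs3_12 fun c m p => a i m p * a c m p * a c j k
    rw [mxs3_23] at h2
    have h3 := mxs3_23 fun c m p => a i m p * a c m p * a c j k
    have h4 := mxs3_23 fun m c p => a i m p * a c m p * a c j k
    simp only [mxs3] at h2 h3 h4
    rw [h3, h2, h4, add_left_inj, add_right_inj]
    refine Finset.sum_congr rfl fun m _ => Finset.sum_congr rfl fun p _ =>
      Finset.sum_congr rfl fun c _ => ?_
    rw [ha.1 i m p, ha.1 c m p, ha.2 m c p, ha.1 c j k, ha.2 j c k]; ring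
  have h5 : 0 ≤ mxs3 fun i j k => a i j k * ∑ c, w i c * a c j k := by
    rw [mxs3_12, mxs3_23]
    exact Finset.sum_nonneg fun j _ => Finset.sum_nonneg fun k _ => by
      simpa [dotProduct, mulVec] using hw.dotProduct_mulVec_nonneg fun i => a i j k
  have h6 := mx_red1 ha (mxP a)
  simp only [h1, mul_add, mxs3_add, h6]
  have h7 : (mxs3 fun i j k => a i j k * -a i j k) = -mxs3 fun i j k => a i j k * a i j k := by
    rw [← neg_one_mul, ← mxs3_mul]; exact mxs3_congr fun i j k => by ring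
  rw [h7, mxPP]
  linarith

theorem mx_lam (ha : mxSym3 a) (hb : mxSym4 b) {u lam : Fin n → Fin n → Fin n → ℝ}
    (hlam : ∀ i j k, lam i j k = 2 * a i j k - u i j k
      + (∑ p, ∑ q, (b i j p q * a k p q + a j p q * (b i k p q - mxP a i q k p - mxP a i p k q)))
      + ∑ p, ∑ q, a i p q * b p q j k) :
    mxs3 (fun i j k => a i j k * lam i j k) = 2 * mxs3 (fun i j k => a i j k * a i j k)
      - mxs3 (fun i j k => a i j k * u i j k) + 3 * mxBP a b - 2 * mxT a := by
  have h1 := mx_red1 ha b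
  have h2 := mx_red2 ha fun p q i k => b p q i k - mxP a p k q i - mxP a p i q k
  have h3 := mx_red3 ha b
  have hb' : ∀ i j p q, b i j p q = b p q i j := fun i j p q => by
    rw [hb.2.1 i j p q, hb.1 i p j q, hb.2.2 p i j q, hb.2.1 p i q j]
  have e : ∀ i j k, a i j k * lam i j k = 2 * (a i j k * a i j k) - a i j k * u i j k
      + a i j k * (∑ m, ∑ c, a m k c * b m c i j)
      + a i j k * (∑ m, ∑ c, a m j c * (b m c i k - mxP a m k c i - mxP a m i c k))
      + a i j k * ∑ m, ∑ c, a m i c * b m c j k := by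
    intro i j k
    have e1 : ∑ p, ∑ q, (b i j p q * a k p q
          + a j p q * (b i k p q - mxP a i q k p - mxP a i p k q))
        = (∑ m, ∑ c, a m k c * b m c i j)
          + ∑ m, ∑ c, a m j c * (b m c i k - mxP a m k c i - mxP a m i c k) := by
      simp only [← Finset.sum_add_distrib]
      refine Finset.sum_congr rfl fun p _ => Finset.sum_congr rfl fun q _ => ?_
      rw [hb' i j p q, hb' i k p q, ha.1 k p q, ha.1 j p q, mxP_swap i q k p, mxP_12 ha k p i q,
        mxP_34 ha p k i q, mxP_12 ha i p k q, mxP_34 ha p i k q]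
      ring
    have e2 : ∑ p, ∑ q, a i p q * b p q j k = ∑ m, ∑ c, a m i c * b m c j k :=
      Finset.sum_congr rfl fun p _ => Finset.sum_congr rfl fun q _ => by rw [ha.1 i p q]
    rw [hlam, e1, e2]; ring
  simp only [e, mxs3_add, mxs3_sub, mxs3_mul]
  rw [h1, h2, h3]
  simp only [mul_sub, mxs4_sub]
  rw [mx_P13 ha]
  simp only [mxBP, mxT]
  ring

theorem mx_final (ha : mxSym3 a) (hb : mxSym4 b) {w : Matrix (Fin n) (Fin n) ℝ}
    (hw : w.PosSemidef) {l : Fin n → Fin n → ℝ} {u lam L3 : Fin n → Fin n → Fin n → ℝ}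
    (hl : ∀ i c, l i c = -(if i = c then 1 else 0) + (∑ p, ∑ q, a i p q * a c p q) + w i c)
    (hlam : ∀ i j k, lam i j k = 2 * a i j k - u i j k
      + (∑ p, ∑ q, (b i j p q * a k p q + a j p q * (b i k p q - mxP a i q k p - mxP a i p k q)))
      + ∑ p, ∑ q, a i p q * b p q j k)
    (hL : ∀ i j k, L3 i j k = (∑ c, l i c * a c j k) + ((∑ c, l j c * a i c k)
      + ((∑ c, l k c * a i j c) + lam i j k - 2 * ∑ m, ∑ c, a m k c * b m i j c)
        - 2 * ∑ m, ∑ c, a m j c * (b m i c k - mxP a m k i c))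
      - 2 * ∑ m, ∑ c, a m i c * (b m c j k - mxP a m k c j - mxP a m j c k)) :
    mxs3 (fun i j k => a i j k * a i j k) / 2 - 2 * mxs3 (fun i j k => u i j k * u i j k)
      ≤ mxs3 fun i j k => lam i j k * a i j k + a i j k * L3 i j k
        + 2 * ∑ m, b m i j k * (b m i j k - mxP a m k i j - mxP a m j i k - mxP a m i j k) := by
  have l1 := mx_ell ha hw hl
  have l2 : (mxs3 fun i j k => a i j k * ∑ c, l j c * a i c k)
      = mxs3 fun i j k => a i j k * ∑ c, l i c * a c j k := by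
    rw [mxs3_12]; exact mxs3_congr fun i j k => by simp only [ha.1 j]
  have l3 : (mxs3 fun i j k => a i j k * ∑ c, l k c * a i j c)
      = mxs3 fun i j k => a i j k * ∑ c, l i c * a c j k := by
    rw [mxs3_23, ← l2]; exact mxs3_congr fun i j k => by simp only [ha.2 i k]
  have r1 := mx_red1 ha fun m c j k => b m c j k - mxP a m k c j - mxP a m j c k
  have r2 := mx_red2 ha fun m c i k => b m i c k - mxP a m k i c
  have r3 := mx_red3 ha fun m c i j => b m i j c
  have r1' : (mxs4 fun m c j k => mxP a m c j k * (b m c j k - mxP a m k c j - mxP a m j c k))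
      = mxBP a b - 2 * mxT a := by
    simp only [mul_sub, mxs4_sub]
    rw [mx_P13 ha]; simp only [mxBP, mxT]; ring
  have r2' : (mxs4 fun m c i k => mxP a m c i k * (b m i c k - mxP a m k i c))
      = mxBP a b - mxT a := by
    rw [← mx_P13 ha, mxBP, ← mxs4_sub]
    exact mxs4_congr fun m c i k => by rw [hb.2.1 m i c k, mxP_34 ha m k i c]; ring
  have r3' : (mxs4 fun m c i j => mxP a m c i j * b m i j c) = mxBP a b :=
    mxs4_congr fun m c i j => by rw [hb.2.2 m i j c, hb.2.1 m i c j]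
  have r4 : (mxs3 fun i j k =>
      ∑ m, b m i j k * (b m i j k - mxP a m k i j - mxP a m j i k - mxP a m i j k))
      = (mxs4 fun m i j k => b m i j k * b m i j k) - mxBP a b - mxBP a b - mxBP a b := by
    rw [mxs3_sum]
    nth_rewrite 1 [← mx_bP3 hb]
    nth_rewrite 1 [← mx_bP2 hb]
    rw [mxBP, ← mxs4_sub, ← mxs4_sub, ← mxs4_sub]
    exact mxs4_congr fun m i j k => by ring
  have hla := mx_lam ha hb hlam
  have hsq := mx_squares ha hb
  have hau : 0 ≤ mxs3 (fun i j k => a i j k * a i j k) / 2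
      - 2 * mxs3 (fun i j k => a i j k * u i j k) + 2 * mxs3 (fun i j k => u i j k * u i j k) := by
    have h0 : 0 ≤ mxs3 fun i j k => 2 * (a i j k / 2 - u i j k) ^ 2 :=
      mxs3_nonneg fun i j k => by positivity
    have e0 : (mxs3 fun i j k => 2 * (a i j k / 2 - u i j k) ^ 2)
        = 1 / 2 * mxs3 (fun i j k => a i j k * a i j k)
          - 2 * mxs3 (fun i j k => a i j k * u i j k) + 2 * mxs3 (fun i j k => u i j k * u i j k) := by
      rw [← mxs3_mul, ← mxs3_mul, ← mxs3_mul, ← mxs3_sub, ← mxs3_add]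
      exact mxs3_congr fun i j k => by ring
    linarith
  have e : ∀ i j k, lam i j k * a i j k + a i j k * L3 i j k
      = 2 * (a i j k * lam i j k) + a i j k * (∑ c, l i c * a c j k)
        + a i j k * (∑ c, l j c * a i c k) + a i j k * (∑ c, l k c * a i j c)
        - 2 * (a i j k * ∑ m, ∑ c, a m k c * b m i j c)
        - 2 * (a i j k * ∑ m, ∑ c, a m j c * (b m i c k - mxP a m k i c))
        - 2 * (a i j k * ∑ m, ∑ c, a m i c * (b m c j k - mxP a m k c j - mxP a m j c k)) := by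
    intro i j k; rw [hL]; ring
  simp only [e, mxs3_add, mxs3_sub, mxs3_mul]
  rw [r1, r2, r3, r1', r2', r3', r4, hla, l2, l3]
  linarith

end Vale.Agent.P227
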