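import Vale.Agent.P227.AlgMax2
import Vale.Agent.P227.AlgMax3

namespace Vale.Agent.P227

open Matrix
open scoped Kronecker

variable {n : ℕ}

namespace Setup

variable {R : Type} [CommRing R] [Algebra ℝ R] {X : Type} (S : Setup n R X)

theorem mx_ev_q2 (p : X) (A B : Fin n → Fin n → R) :
    S.ev p (q2 S.H A B)
      = q2 (S.H.map (S.ev p)) (fun i j => S.ev p (A i j)) (fun i j => S.ev p (B i j)) := by
  simp only [q2, map_sum, map_mul, map_apply]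

theorem mx_Q_nonneg (p : X) (v : Fin n → ℝ) : 0 ≤ v ⬝ᵥ S.mxQ.map (S.ev p) *ᵥ v := by
  have hK := ((S.Hpos p).posSemidef.kronecker (S.Hpos p).posSemidef).dotProduct_mulVec_nonneg
    (∑ i, v i • fun x : Fin n × Fin n => S.ev p (S.D3 S.ψ i x.1 x.2))
  rw [star_trivial, sum_dotProduct, mulVec_sum] at hK
  refine hK.trans_eq ?_
  simp only [dotProduct_sum, smul_dotProduct, mulVec_smul, dotProduct_smul, smul_eq_mul]
  have : v ⬝ᵥ S.mxQ.map (S.ev p) *ᵥ v = ∑ i, v i * ∑ j, S.ev p (S.mxQ i j) * v j := rfl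
  rw [this]
  refine Finset.sum_congr rfl fun i _ => ?_
  rw [Finset.mul_sum]
  refine Finset.sum_congr rfl fun j _ => ?_
  rw [mxQ, of_apply, S.mx_ev_q2, mx_q2_kron]
  ring

theorem mx_ev_quad (p : X) (v : Fin n → ℝ) (T : Matrix (Fin n) (Fin n) R) :
    S.ev p (∑ i, ∑ j, (v i * v j) • T i j) = v ⬝ᵥ T.map (S.ev p) *ᵥ v := by
  simp only [map_sum, map_smul, smul_eq_mul, dotProduct, mulVec, map_apply, Finset.mul_sum]
  exact Finset.sum_congr rfl fun i _ => Finset.sum_congr rfl fun j _ => by ring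

theorem L_G (p : X) (v : Fin n → ℝ) :
    S.ev p (∑ i, ∑ j, (v i * v j) • S.D2 S.ψ i j) - S.ev p (∑ i, ∑ j, (v i * v j) • S.D2 S.U i j)
      ≤ S.ev p (S.L (∑ i, ∑ j, (v i * v j) • S.D2 S.ψ i j)) := by
  have h := S.mx_Q_nonneg p v
  rw [← S.mx_ev_quad] at h
  simp only [S.mx_L_sum, S.mx_L_smul, S.mx_L_G, smul_add, smul_sub, Finset.sum_add_distrib,
    Finset.sum_sub_distrib, map_add, map_sub]
  simp only [mxQ, of_apply] at h
  linarith

theorem L_H (p : X) (v : Fin n → ℝ) :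
    (S.H.map (S.ev p) *ᵥ v) ⬝ᵥ (Matrix.of fun i j => S.ev p (S.D2 S.U i j)) *ᵥ
        (S.H.map (S.ev p) *ᵥ v) - S.ev p (∑ i, ∑ j, (v i * v j) • S.H i j)
      ≤ S.ev p (S.L (∑ i, ∑ j, (v i * v j) • S.H i j)) := by
  have h := S.mx_Q_nonneg p (S.H.map (S.ev p) *ᵥ v)
  have h1 := S.mx_ev_quad p v (Matrix.of fun i j => S.L (S.H i j))
  have hs : (S.H.map (S.ev p))ᵀ = S.H.map (S.ev p) := by
    rw [← transpose_map, S.mx_H_transpose]
  have h2 : ∀ T : Matrix (Fin n) (Fin n) R, v ⬝ᵥ (S.H * T * S.H).map (S.ev p) *ᵥ v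
      = (S.H.map (S.ev p) *ᵥ v) ⬝ᵥ T.map (S.ev p) *ᵥ (S.H.map (S.ev p) *ᵥ v) := by
    intro T
    rw [Matrix.map_mul, Matrix.map_mul, ← mulVec_mulVec, ← mulVec_mulVec, dotProduct_mulVec,
      ← mulVec_transpose, hs]
  have h3 : v ⬝ᵥ (Matrix.of fun i j => S.L (S.H i j)).map (S.ev p) *ᵥ v
      = -(v ⬝ᵥ S.H.map (S.ev p) *ᵥ v) + v ⬝ᵥ (S.H * S.mxQ * S.H).map (S.ev p) *ᵥ v
        + v ⬝ᵥ (S.H * S.mxU * S.H).map (S.ev p) *ᵥ v := by
    rw [S.mx_L_H, Matrix.map_add _ (map_add _), Matrix.map_add _ (map_add _),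
      Matrix.map_neg _ (map_neg _), add_mulVec, add_mulVec, neg_mulVec, dotProduct_add,
      dotProduct_add, dotProduct_neg]
  have h4 : S.mxU.map (S.ev p) = Matrix.of fun i j => S.ev p (S.D2 S.U i j) := rfl
  rw [h3, h2, h2, h4] at h1
  simp only [of_apply] at h1
  rw [S.mx_ev_quad p v S.H]
  simp only [S.mx_L_sum, S.mx_L_smul]
  linarith

section frame

variable {p : X} (hH : ∀ i j, S.ev p (S.H i j) = if i = j then 1 else 0)
include hH

theorem mx_f0 (T : Fin n → R) (k : Fin n) : S.ev p (∑ c, S.H k c * T c) = S.ev p (T k) := by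
  simp [map_sum, map_mul, hH]

theorem mx_fdH (m k c : Fin n) : S.ev p (S.d m (S.H k c)) = -S.ev p (S.D3 S.ψ m k c) := by
  simp [S.mx_dH, map_sum, map_mul, hH]

theorem mx_f1 (T : Fin n → R) (m k : Fin n) : S.ev p (S.d m (∑ c, S.H k c * T c))
    = S.ev p (S.d m (T k)) - ∑ c, S.ev p (S.D3 S.ψ m k c) * S.ev p (T c) := by
  simp only [S.mx_d_sum, S.mx_d_mul, map_sum, map_add, map_mul, S.mx_fdH hH, hH,
    Finset.sum_add_distrib]
  simp [sub_eq_neg_add]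

theorem mx_fΓ (f g : R) : S.ev p (S.mxΓ f g) = ∑ m, S.ev p (S.d m f) * S.ev p (S.d m g) := by
  simp [mxΓ, map_sum, map_mul, hH]

theorem mx_f2 (T : Fin n → R) (k : Fin n) : S.ev p (S.L (∑ c, S.H k c * T c))
    = (∑ c, S.ev p (S.L (S.H k c)) * S.ev p (T c)) + S.ev p (S.L (T k))
      - 2 * ∑ m, ∑ c, S.ev p (S.D3 S.ψ m k c) * S.ev p (S.d m (T c)) := by
  rw [Finset.sum_comm]
  simp only [S.mx_L_sum, S.mx_L_mul, map_sum, map_add, map_mul, S.mx_fΓ hH, S.mx_fdH hH, hH,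
    Finset.sum_add_distrib, map_ofNat, ← Finset.mul_sum]
  simp [sub_eq_add_neg]

theorem mx_fl (i c : Fin n) : S.ev p (S.L (S.H i c)) = -(if i = c then 1 else 0)
    + (∑ r, ∑ q, S.ev p (S.D3 S.ψ i r q) * S.ev p (S.D3 S.ψ c r q))
    + (Matrix.of fun i j => S.ev p (S.D2 S.U i j)) i c := by
  have h := congrArg (S.ev p) (congrFun (congrFun S.mx_L_H i) c)
  rw [of_apply] at h
  rw [h]
  simp [Matrix.mul_apply, map_sum, map_mul, hH, mxQ, mxU, q2]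

end frame

/-- last index raised -/
def mxT1 (i j k : Fin n) : R := ∑ c, S.H k c * S.D3 S.ψ i j c
/-- last two indices raised -/
def mxT2 (i j k : Fin n) : R := ∑ c, S.H j c * S.mxT1 i c k
/-- all indices raised -/
def mxT3 (i j k : Fin n) : R := ∑ c, S.H i c * S.mxT2 c j k

theorem mx_q3_eq : q3 S.H (S.D3 S.ψ) (S.D3 S.ψ)
    = ∑ i, ∑ j, ∑ k, S.D3 S.ψ i j k * S.mxT3 i j k := by
  simp only [q3, mxT3, mxT2, mxT1, Finset.mul_sum]
  refine Finset.sum_congr rfl fun i _ => Finset.sum_congr rfl fun j _ =>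
    Finset.sum_congr rfl fun k _ => Finset.sum_congr rfl fun a _ =>
    Finset.sum_congr rfl fun b _ => Finset.sum_congr rfl fun c _ => by ring

theorem mx_q2_eq (j k : Fin n) : q2 S.H (S.D3 S.ψ j) (S.D3 S.ψ k)
    = ∑ r, ∑ q, S.D3 S.ψ j r q * S.mxT2 k r q := by
  simp only [q2, mxT2, mxT1, Finset.mul_sum]
  refine Finset.sum_congr rfl fun i _ => Finset.sum_congr rfl fun j _ =>
    Finset.sum_congr rfl fun a _ => Finset.sum_congr rfl fun b _ => by ring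

theorem mx_calabi_frame {p : X} (hH : ∀ i j, S.ev p (S.H i j) = if i = j then 1 else 0)
    (hU : (Matrix.of fun i j => S.ev p (S.D2 S.U i j)).PosSemidef) :
    S.ev p (q3 S.H (S.D3 S.ψ) (S.D3 S.ψ)) / 2 - 2 * S.ev p (q3 S.H (S.D3 S.U) (S.D3 S.U))
      ≤ S.ev p (S.L (q3 S.H (S.D3 S.ψ) (S.D3 S.ψ))) := by
  obtain ⟨a, ha⟩ : ∃ a : Fin n → Fin n → Fin n → ℝ, ∀ i j k, S.ev p (S.D3 S.ψ i j k) = a i j k :=
    ⟨_, fun _ _ _ => rfl⟩
  obtain ⟨b, hb⟩ : ∃ b : Fin n → Fin n → Fin n → Fin n → ℝ,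
      ∀ m i j k, S.ev p (S.d m (S.D3 S.ψ i j k)) = b m i j k := ⟨_, fun _ _ _ _ => rfl⟩
  have sa : mxSym3 a := ⟨fun i j k => by rw [← ha, ← ha, S.mx_D3_12],
    fun i j k => by rw [← ha, ← ha, S.mx_D3_23]⟩
  have sb : mxSym4 b := ⟨fun m i j k => by rw [← hb, ← hb]; simp only [D3, S.comm m i],
    fun m i j k => by rw [← hb, ← hb, S.mx_D3_12], fun m i j k => by rw [← hb, ← hb, S.mx_D3_23]⟩
  have t1 : ∀ i j k, S.ev p (S.mxT1 i j k) = a i j k := fun i j k => by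
    rw [mxT1, S.mx_f0 hH, ha]
  have t2 : ∀ i j k, S.ev p (S.mxT2 i j k) = a i j k := fun i j k => by
    rw [mxT2, S.mx_f0 hH (fun c => S.mxT1 i c k), t1]
  have t3 : ∀ i j k, S.ev p (S.mxT3 i j k) = a i j k := fun i j k => by
    rw [mxT3, S.mx_f0 hH (fun c => S.mxT2 c j k), t2]
  have d1 : ∀ m i j k, S.ev p (S.d m (S.mxT1 i j k)) = b m i j k - mxP a m k i j := by
    intro m i j k
    rw [mxT1, S.mx_f1 hH, hb]; simp only [ha, mxP]
  have d2 : ∀ m i j k, S.ev p (S.d m (S.mxT2 i j k))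
      = b m i j k - mxP a m k i j - mxP a m j i k := by
    intro m i j k
    rw [mxT2, S.mx_f1 hH (fun c => S.mxT1 i c k), d1]; simp only [ha, t1, mxP, sa.2 i k]
  have d3 : ∀ m i j k, S.ev p (S.d m (S.mxT3 i j k))
      = b m i j k - mxP a m k i j - mxP a m j i k - mxP a m i j k := by
    intro m i j k
    rw [mxT3, S.mx_f1 hH (fun c => S.mxT2 c j k), d2]
    simp only [ha, t2, mxP, sa.2 j k, sa.1 j _ k]
  have hl := S.mx_fl hH
  simp only [ha] at hl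
  have hlam : ∀ i j k, S.ev p (S.L (S.D3 S.ψ i j k)) = 2 * a i j k - S.ev p (S.D3 S.U i j k)
      + (∑ r, ∑ q, (b i j r q * a k r q + a j r q * (b i k r q - mxP a i q k r - mxP a i r k q)))
      + ∑ r, ∑ q, a i r q * b r q j k := by
    intro i j k
    have h := congrArg (S.ev p) (S.mx_d_L i (S.D2 S.ψ j k))
    have e1 : S.d i (S.D2 S.ψ j k) = S.D3 S.ψ i j k := rfl
    have e2 : S.d i (S.D2 S.U j k) = S.D3 S.U i j k := rfl
    have e3 : ∀ r q, S.D2 (S.D2 S.ψ j k) r q = S.d r (S.D3 S.ψ q j k) := fun _ _ => rfl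
    rw [S.mx_L_G, S.mx_q2_eq] at h
    simp only [map_sub, map_add, e1, e2, e3, S.mx_d_mul, map_sum, map_mul, ha, hb,
      t2, d2, S.mx_fdH hH, neg_mul, Finset.sum_neg_distrib] at h
    linarith
  have hL : ∀ i j k, S.ev p (S.L (S.mxT3 i j k))
      = (∑ c, S.ev p (S.L (S.H i c)) * a c j k) + ((∑ c, S.ev p (S.L (S.H j c)) * a i c k)
      + ((∑ c, S.ev p (S.L (S.H k c)) * a i j c) + S.ev p (S.L (S.D3 S.ψ i j k))
          - 2 * ∑ m, ∑ c, a m k c * b m i j c)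
        - 2 * ∑ m, ∑ c, a m j c * (b m i c k - mxP a m k i c))
      - 2 * ∑ m, ∑ c, a m i c * (b m c j k - mxP a m k c j - mxP a m j c k) := by
    intro i j k
    rw [mxT3, S.mx_f2 hH (fun c => S.mxT2 c j k)]
    simp only [t2, d2]
    rw [mxT2, S.mx_f2 hH (fun c => S.mxT1 i c k)]
    simp only [t1, d1]
    rw [mxT1, S.mx_f2 hH]
    simp only [ha, hb]
  have hf := mx_final sa sb hU hl hlam hL
  have q1 : ∀ f : R, S.ev p (q3 S.H (S.D3 f) (S.D3 f))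
      = mxs3 fun i j k => S.ev p (S.D3 f i j k) * S.ev p (S.D3 f i j k) := by
    intro f
    simp [q3, mxs3, map_sum, map_mul, hH]
  rw [q1, q1, S.mx_q3_eq]
  simp only [S.mx_L_sum, S.mx_L_mul, map_sum, map_add, map_mul, S.mx_fΓ hH, map_ofNat, ha, hb,
    t3, d3]
  exact hf

theorem calabi (p : X) (hU : (Matrix.of fun i j => S.ev p (S.D2 S.U i j)).PosSemidef) :
    S.ev p (q3 S.H (S.D3 S.ψ) (S.D3 S.ψ)) / 2 - 2 * S.ev p (q3 S.H (S.D3 S.U) (S.D3 S.U))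
      ≤ S.ev p (S.L (q3 S.H (S.D3 S.ψ) (S.D3 S.ψ))) := by
  obtain ⟨M, N, h, hH⟩ := S.mx_exists_frame p
  have := (S.mxtr h).mx_calabi_frame (p := p) hH (S.mxtr_psd h p S.U hU)
  rw [S.mxtr_q3, S.mxtr_q3, S.mxtr_L] at this
  exact this

end Setup

end Vale.Agent.P227
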