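import Vale.Agent.P227.Alg

/-! Kronecker forms of `q2`, `q3`, and the basic ring identities for `L`. -/

namespace Vale.Agent.P227

open Matrix
open scoped Kronecker

variable {n : ℕ}

theorem mx_q2_kron {R : Type} [CommRing R] (H : Matrix (Fin n) (Fin n) R)
    (A B : Fin n → Fin n → R) :
    q2 H A B = (fun x : Fin n × Fin n => A x.1 x.2) ⬝ᵥ (H ⊗ₖ H) *ᵥ
      (fun x : Fin n × Fin n => B x.1 x.2) := by
  simp only [q2, dotProduct, mulVec, Fintype.sum_prod_type, kroneckerMap_apply, Finset.mul_sum]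
  refine Finset.sum_congr rfl fun i _ => Finset.sum_congr rfl fun j _ =>
    Finset.sum_congr rfl fun a _ => Finset.sum_congr rfl fun b _ => by ring

theorem mx_q3_kron {R : Type} [CommRing R] (H : Matrix (Fin n) (Fin n) R)
    (A B : Fin n → Fin n → Fin n → R) :
    q3 H A B = (fun x : Fin n × Fin n × Fin n => A x.1 x.2.1 x.2.2) ⬝ᵥ (H ⊗ₖ (H ⊗ₖ H)) *ᵥ
      (fun x : Fin n × Fin n × Fin n => B x.1 x.2.1 x.2.2) := by
  simp only [q3, dotProduct, mulVec, Fintype.sum_prod_type, kroneckerMap_apply, Finset.mul_sum]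
  refine Finset.sum_congr rfl fun i _ => Finset.sum_congr rfl fun j _ =>
    Finset.sum_congr rfl fun k _ => Finset.sum_congr rfl fun a _ =>
    Finset.sum_congr rfl fun b _ => Finset.sum_congr rfl fun c _ => by ring

theorem mx_psd {ι : Type} [Fintype ι] [DecidableEq ι] {H : Matrix ι ι ℝ} (hH : H.IsSymm) {a : ℝ}
    (h : ∀ v : ι → ℝ, a * (v ⬝ᵥ v) ≤ v ⬝ᵥ H *ᵥ v) : (H - a • (1 : Matrix ι ι ℝ)).PosSemidef := by
  refine PosSemidef.of_dotProduct_mulVec_nonneg ?_ fun v => ?_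
  · refine IsHermitian.sub ?_ ?_
    · simpa [IsHermitian, conjTranspose_eq_transpose_of_trivial] using hH.eq
    · simp [IsHermitian]
  · have := h v
    simp only [star_trivial, sub_mulVec, dotProduct_sub, smul_mulVec, one_mulVec,
      dotProduct_smul, smul_eq_mul]
    linarith

theorem mx_kron_lower {ι κ : Type} [Fintype ι] [DecidableEq ι] [Fintype κ] [DecidableEq κ]
    {H : Matrix ι ι ℝ} {K : Matrix κ κ ℝ} {a b : ℝ} (ha : 0 ≤ a) (hb : 0 ≤ b)
    (hH : (H - a • (1 : Matrix ι ι ℝ)).PosSemidef) (hK : (K - b • (1 : Matrix κ κ ℝ)).PosSemidef) :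
    (H ⊗ₖ K - (a * b) • (1 : Matrix (ι × κ) (ι × κ) ℝ)).PosSemidef := by
  have h1 : (K : Matrix κ κ ℝ).PosSemidef := by
    have := hK.add (PosSemidef.one.smul hb)
    simpa using this
  have h2 := (hH.kronecker h1).add (((PosSemidef.one (n := ι) (R := ℝ)).smul ha).kronecker hK)
  have e : H ⊗ₖ K - (a * b) • (1 : Matrix (ι × κ) (ι × κ) ℝ)
      = (H - a • (1 : Matrix ι ι ℝ)) ⊗ₖ K + (a • (1 : Matrix ι ι ℝ)) ⊗ₖ (K - b • (1 : Matrix κ κ ℝ)) := by
    rw [← one_kronecker_one]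
    ext ⟨i, k⟩ ⟨j, l⟩
    simp only [Matrix.sub_apply, Matrix.add_apply, Matrix.smul_apply, kroneckerMap_apply,
      smul_eq_mul]
    ring
  rw [e]; exact h2

theorem mx_of_psd {ι : Type} [Fintype ι] [DecidableEq ι] {H : Matrix ι ι ℝ} {a : ℝ}
    (h : (H - a • (1 : Matrix ι ι ℝ)).PosSemidef) (v : ι → ℝ) : a * (v ⬝ᵥ v) ≤ v ⬝ᵥ H *ᵥ v := by
  have := h.dotProduct_mulVec_nonneg v
  simp only [star_trivial, sub_mulVec, dotProduct_sub, smul_mulVec, one_mulVec,
    dotProduct_smul, smul_eq_mul] at this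
  linarith

theorem q2_lower {H : Matrix (Fin n) (Fin n) ℝ} (hH : H.IsSymm) {a : ℝ} (ha : 0 ≤ a)
    (h : ∀ v : Fin n → ℝ, a * (v ⬝ᵥ v) ≤ v ⬝ᵥ H *ᵥ v) (A : Fin n → Fin n → ℝ) :
    a ^ 2 * ∑ i, ∑ j, A i j ^ 2 ≤ q2 H A A := by
  have h1 := mx_psd hH h
  have h2 := mx_of_psd (mx_kron_lower ha ha h1 h1) (fun x : Fin n × Fin n => A x.1 x.2)
  rw [mx_q2_kron]
  refine le_trans (le_of_eq ?_) h2
  simp only [dotProduct, Fintype.sum_prod_type, sq]

theorem q3_lower {H : Matrix (Fin n) (Fin n) ℝ} (hH : H.IsSymm) {a : ℝ} (ha : 0 ≤ a)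
    (h : ∀ v : Fin n → ℝ, a * (v ⬝ᵥ v) ≤ v ⬝ᵥ H *ᵥ v) (A : Fin n → Fin n → Fin n → ℝ) :
    a ^ 3 * ∑ i, ∑ j, ∑ k, A i j k ^ 2 ≤ q3 H A A := by
  have h1 := mx_psd hH h
  have h2 := mx_of_psd (mx_kron_lower ha (mul_nonneg ha ha) h1 (mx_kron_lower ha ha h1 h1))
    (fun x : Fin n × Fin n × Fin n => A x.1 x.2.1 x.2.2)
  rw [mx_q3_kron]
  refine le_trans (le_of_eq ?_) h2
  simp only [dotProduct, Fintype.sum_prod_type, sq]
  ring

theorem mx_sum4_swap {R : Type} [AddCommMonoid R] (F : Fin n → Fin n → Fin n → Fin n → R) :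
    ∑ i, ∑ j, ∑ p, ∑ q, F i j p q = ∑ p, ∑ q, ∑ i, ∑ j, F i j p q := by
  have h1 : ∑ i, ∑ j, ∑ p, ∑ q, F i j p q
      = ∑ x : Fin n × Fin n, ∑ y : Fin n × Fin n, F x.1 x.2 y.1 y.2 := by
    simp only [Fintype.sum_prod_type]
  rw [h1, Finset.sum_comm]
  simp only [Fintype.sum_prod_type]

namespace Setup

variable {R : Type} [CommRing R] [Algebra ℝ R] {X : Type} (S : Setup n R X)

/-- the Hessian matrix of the potential -/
def mxG : Matrix (Fin n) (Fin n) R := Matrix.of fun i j => S.d i (S.d j S.ψ)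

theorem mx_G_symm : S.mxGᵀ = S.mxG := by
  ext i j; simp [mxG, S.comm i j]

theorem mx_HG : S.H * S.mxG = 1 := S.HG

theorem mx_GH : S.mxG * S.H = 1 := mul_eq_one_comm.mp S.mx_HG

theorem mx_H_transpose : S.Hᵀ = S.H := by
  have h : S.Hᵀ * S.mxG = 1 := by
    rw [← S.mx_G_symm, ← transpose_mul, S.mx_GH, transpose_one]
  calc S.Hᵀ = S.Hᵀ * (S.mxG * S.H) := by rw [S.mx_GH, Matrix.mul_one]
    _ = S.H := by rw [← Matrix.mul_assoc, h, Matrix.one_mul]

theorem mx_H_symm (i j : Fin n) : S.H i j = S.H j i := by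
  have := congrFun (congrFun S.mx_H_transpose j) i
  simpa using this

theorem mx_D3_12 (f : R) (i j k : Fin n) : S.D3 f i j k = S.D3 f j i k := S.comm _ _ _
theorem mx_D3_23 (f : R) (i j k : Fin n) : S.D3 f i j k = S.D3 f i k j := by
  simp only [D3, S.comm j k]

theorem mx_d_sum {ι : Type} (s : Finset ι) (i : Fin n) (F : ι → R) :
    S.d i (∑ k ∈ s, F k) = ∑ k ∈ s, S.d i (F k) := map_sum (S.d i) F s

theorem mx_d_mul (i : Fin n) (f g : R) : S.d i (f * g) = S.d i f * g + f * S.d i g := by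
  rw [Derivation.leibniz]; simp only [smul_eq_mul]; ring

theorem mx_d_delta (a i j : Fin n) : S.d a ((1 : Matrix (Fin n) (Fin n) R) i j) = 0 := by
  rw [Matrix.one_apply]; split_ifs <;> simp

/-- derivative of the inverse Hessian -/
theorem mx_dH (a i j : Fin n) :
    S.d a (S.H i j) = -∑ p, ∑ q, S.H i p * S.D3 S.ψ a p q * S.H q j := by
  have h : (Matrix.of fun i j => S.d a (S.H i j)) * S.mxG
      + S.H * (Matrix.of fun p q => S.D3 S.ψ a p q) = 0 := by
    ext i j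
    have := S.mx_d_delta a i j
    rw [← S.mx_HG, Matrix.mul_apply, S.mx_d_sum] at this
    simp only [S.mx_d_mul, Finset.sum_add_distrib] at this
    simpa [Matrix.mul_apply, mxG, D3] using this
  have h2 : (Matrix.of fun i j => S.d a (S.H i j))
      = -(S.H * (Matrix.of fun p q => S.D3 S.ψ a p q) * S.H) := by
    have := congrArg (· * S.H) h
    simp only [Matrix.add_mul, Matrix.mul_assoc, S.mx_GH, Matrix.mul_one, Matrix.zero_mul] at this
    rw [Matrix.mul_assoc]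
    exact eq_neg_of_add_eq_zero_left this
  have h3 := congrFun (congrFun h2 i) j
  simp only [of_apply, Matrix.neg_apply, Matrix.mul_apply, Finset.sum_mul] at h3
  rw [h3, Finset.sum_comm]

/-- carre du champ -/
def mxΓ (f g : R) : R := ∑ i, ∑ j, S.H i j * S.d i f * S.d j g

theorem mx_L_add (f g : R) : S.L (f + g) = S.L f + S.L g := by
  simp only [L, D2, eul, map_add, mul_add, Finset.sum_add_distrib]; ring

theorem mx_L_zero : S.L 0 = 0 := by simp [L, D2, eul]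

theorem mx_L_smul (t : ℝ) (f : R) : S.L (t • f) = t • S.L f := by
  simp only [L, D2, eul, Derivation.map_smul, mul_smul_comm, smul_sub, Finset.smul_sum]

theorem mx_L_sum {ι : Type} (s : Finset ι) (F : ι → R) :
    S.L (∑ k ∈ s, F k) = ∑ k ∈ s, S.L (F k) := by
  classical
  induction s using Finset.induction_on with
  | empty => simp [S.mx_L_zero]
  | insert a s ha ih => rw [Finset.sum_insert ha, Finset.sum_insert ha, S.mx_L_add, ih]

theorem mx_L_mul (f g : R) : S.L (f * g) = S.L f * g + f * S.L g + 2 * S.mxΓ f g := by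
  have h : ∑ i, ∑ j, S.H i j * (S.d j f * S.d i g) = S.mxΓ f g := by
    rw [Finset.sum_comm]
    refine Finset.sum_congr rfl fun i _ => Finset.sum_congr rfl fun j _ => ?_
    rw [S.mx_H_symm j i]; ring
  have h' : ∑ i, ∑ j, S.H i j * (S.d i f * S.d j g) = S.mxΓ f g :=
    Finset.sum_congr rfl fun i _ => Finset.sum_congr rfl fun j _ => by ring
  have h1 : (∑ i, ∑ j, S.H i j * S.D2 f i j) * g = ∑ i, ∑ j, S.H i j * (S.d i (S.d j f) * g) := by
    simp only [Finset.sum_mul, D2, mul_assoc]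
  have h2 : f * (∑ i, ∑ j, S.H i j * S.D2 g i j) = ∑ i, ∑ j, S.H i j * (f * S.d i (S.d j g)) := by
    simp only [Finset.mul_sum, D2]
    exact Finset.sum_congr rfl fun i _ => Finset.sum_congr rfl fun j _ => by ring
  have h3 : S.eul (f * g) = S.eul f * g + f * S.eul g := by
    simp only [eul, S.mx_d_mul, Finset.sum_mul, Finset.mul_sum, ← Finset.sum_add_distrib]
    exact Finset.sum_congr rfl fun i _ => by ring
  have h4 : ∑ i, ∑ j, S.H i j * S.D2 (f * g) i j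
      = (∑ i, ∑ j, S.H i j * S.D2 f i j) * g + f * (∑ i, ∑ j, S.H i j * S.D2 g i j)
        + 2 * S.mxΓ f g := by
    rw [h1, h2, two_mul]
    nth_rewrite 1 [← h]
    rw [← h']
    simp only [D2, S.mx_d_mul, map_add, mul_add, Finset.sum_add_distrib]
    ring
  simp only [L, h3, h4]; ring

theorem mx_L_delta (i j : Fin n) : S.L ((1 : Matrix (Fin n) (Fin n) R) i j) = 0 := by
  simp [L, D2, eul, S.mx_d_delta]

theorem mx_d_L (b : Fin n) (f : R) :
    S.d b (S.L f) = S.L (S.d b f) + ∑ i, ∑ j, S.d b (S.H i j) * S.D2 f i j - S.d b f := by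
  have h1 : S.d b (S.eul f) = S.eul (S.d b f) + S.d b f := by
    simp only [eul, S.mx_d_sum, S.mx_d_mul, S.dx, Finset.sum_add_distrib, S.comm b]
    simp [add_comm]
  have h2 : ∀ i j, S.d b (S.D2 f i j) = S.D2 (S.d b f) i j := by
    intro i j; simp only [D2]; rw [S.comm b i, S.comm b j]
  simp only [L, map_sub, h1, S.mx_d_sum, S.mx_d_mul, h2, Finset.sum_add_distrib]
  ring

theorem mx_L_dψ (a : Fin n) : S.L (S.d a S.ψ) = -S.d a S.U := by
  rw [S.dU a]
  have : ∀ i j, S.D2 (S.d a S.ψ) i j = S.d a (S.d i (S.d j S.ψ)) := by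
    intro i j; simp only [D2]; rw [S.comm a i, S.comm a j]
  simp only [L, eul, this]; ring

theorem mx_dH_contract (c : Fin n) (T : Fin n → Fin n → R) :
    ∑ i, ∑ j, S.d c (S.H i j) * T i j = -q2 S.H (S.D3 S.ψ c) T := by
  simp only [S.mx_dH, neg_mul, Finset.sum_neg_distrib, Finset.sum_mul, q2]
  rw [mx_sum4_swap, neg_inj]
  refine Finset.sum_congr rfl fun p _ => Finset.sum_congr rfl fun q _ =>
    Finset.sum_congr rfl fun i _ => Finset.sum_congr rfl fun j _ => ?_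
  rw [S.mx_H_symm i p]; ring

theorem mx_L_G (c e : Fin n) :
    S.L (S.D2 S.ψ c e) = S.D2 S.ψ c e + q2 S.H (S.D3 S.ψ c) (S.D3 S.ψ e) - S.D2 S.U c e := by
  have h := S.mx_d_L c (S.d e S.ψ)
  rw [S.mx_L_dψ, S.mx_dH_contract] at h
  have h2 : S.D2 (S.d e S.ψ) = S.D3 S.ψ e := by
    funext i j
    rw [S.mx_D3_12 S.ψ e i j, S.mx_D3_23 S.ψ i e j]
    simp only [D2, D3]
  rw [h2, map_neg] at h
  simp only [D2]
  generalize q2 S.H (S.D3 S.ψ c) (S.D3 S.ψ e) = Q at h ⊢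
  generalize S.L (S.d c (S.d e S.ψ)) = a at h ⊢
  generalize S.d c (S.d e S.ψ) = b at h ⊢
  generalize S.d c (S.d e S.U) = u at h ⊢
  linear_combination -h

/-- the matrix `tr (H A_c H A_e)` -/
def mxQ : Matrix (Fin n) (Fin n) R := Matrix.of fun c e => q2 S.H (S.D3 S.ψ c) (S.D3 S.ψ e)

/-- the Hessian of `U` -/
def mxU : Matrix (Fin n) (Fin n) R := Matrix.of fun c e => S.D2 S.U c e

theorem mx_Γ_HG (i j : Fin n) : ∑ k, S.mxΓ (S.H i k) (S.mxG k j) = -(S.H * S.mxQ) i j := by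
  have h : ∀ m l, ∑ k, S.H m l * S.d m (S.H i k) * S.d l (S.mxG k j)
      = -∑ p, ∑ k, ∑ q, S.H i p * (S.H m l * S.H q k * S.D3 S.ψ p m q * S.D3 S.ψ j l k) := by
    intro m l
    rw [Finset.sum_comm, ← Finset.sum_neg_distrib]
    refine Finset.sum_congr rfl fun k _ => ?_
    rw [S.mx_dH]
    have : S.d l (S.mxG k j) = S.D3 S.ψ j l k := by
      rw [S.mx_D3_12 S.ψ j l k, S.mx_D3_23 S.ψ l j k]
      simp only [D3, mxG, of_apply]
    simp only [this, mul_neg, neg_mul, Finset.mul_sum, Finset.sum_mul]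
    congr 1
    refine Finset.sum_congr rfl fun p _ => Finset.sum_congr rfl fun q _ => ?_
    rw [S.mx_D3_12 S.ψ m p q]; ring
  have h2 : ∑ k, S.mxΓ (S.H i k) (S.mxG k j)
      = ∑ m, ∑ l, ∑ k, S.H m l * S.d m (S.H i k) * S.d l (S.mxG k j) := by
    simp only [mxΓ]
    rw [Finset.sum_comm]
    exact Finset.sum_congr rfl fun m _ => Finset.sum_comm
  rw [h2]
  simp only [h, Finset.sum_neg_distrib, Matrix.mul_apply, mxQ, of_apply, q2, Finset.mul_sum]
  rw [neg_inj]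
  have h3 : ∀ F : Fin n → Fin n → Fin n → Fin n → Fin n → R,
      ∑ m, ∑ l, ∑ p, ∑ k, ∑ q, F m l p k q = ∑ p, ∑ m, ∑ q, ∑ l, ∑ k, F m l p k q := by
    intro F
    calc ∑ m, ∑ l, ∑ p, ∑ k, ∑ q, F m l p k q = ∑ m, ∑ p, ∑ l, ∑ k, ∑ q, F m l p k q :=
          Finset.sum_congr rfl fun m _ => Finset.sum_comm
      _ = ∑ p, ∑ m, ∑ l, ∑ k, ∑ q, F m l p k q := Finset.sum_comm
      _ = ∑ p, ∑ m, ∑ l, ∑ q, ∑ k, F m l p k q :=
          Finset.sum_congr rfl fun p _ => Finset.sum_congr rfl fun m _ =>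
            Finset.sum_congr rfl fun l _ => Finset.sum_comm
      _ = _ := Finset.sum_congr rfl fun p _ => Finset.sum_congr rfl fun m _ => Finset.sum_comm
  exact h3 fun m l p k q =>
    S.H i p * (S.H m l * S.H q k * S.D3 S.ψ p m q * S.D3 S.ψ j l k)

theorem mx_L_H : (Matrix.of fun i j => S.L (S.H i j))
    = -S.H + S.H * S.mxQ * S.H + S.H * S.mxU * S.H := by
  have h : (Matrix.of fun i j => S.L (S.H i j)) * S.mxG
      + S.H * (S.mxG + S.mxQ - S.mxU) - 2 • (S.H * S.mxQ) = 0 := by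
    ext i j
    have h0 := S.mx_L_delta i j
    rw [← S.mx_HG, Matrix.mul_apply, S.mx_L_sum] at h0
    simp only [S.mx_L_mul, Finset.sum_add_distrib, ← Finset.mul_sum, S.mx_Γ_HG] at h0
    have h1 : ∀ k, S.L (S.mxG k j) = (S.mxG + S.mxQ - S.mxU) k j := fun k => S.mx_L_G k j
    simp only [h1] at h0
    rw [Matrix.sub_apply, Matrix.add_apply, Matrix.mul_apply, Matrix.mul_apply,
      Matrix.smul_apply, Matrix.zero_apply, ← h0]
    simp only [of_apply, nsmul_eq_mul, Nat.cast_ofNat]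
    ring
  have h2 := congrArg (· * S.H) h
  simp only [Matrix.add_mul, Matrix.sub_mul, Matrix.mul_add, Matrix.mul_sub, Matrix.zero_mul,
    two_smul, S.mx_HG, Matrix.one_mul] at h2
  rw [Matrix.mul_assoc _ S.mxG, S.mx_GH, Matrix.mul_one] at h2
  rw [← sub_eq_zero, ← h2]
  abel

end Setup

end Vale.Agent.P227
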