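import Vale.Agent.P227.AlgMax1

/-! Linear change of frame for a `Setup`. -/

namespace Vale.Agent.P227

open Matrix
open scoped Kronecker MatrixOrder

variable {n : ℕ}

theorem mx_contract_trace {R : Type} [CommRing R] (A B : Matrix (Fin n) (Fin n) R) :
    ∑ i, ∑ j, A i j * B i j = (A * Bᵀ).trace := by
  simp [Matrix.trace, Matrix.mul_apply]

theorem mx_q3_frame {R : Type} [CommRing R] (m K : Matrix (Fin n) (Fin n) R)
    (A B A' B' : Fin n → Fin n → Fin n → R)
    (hA : ∀ i j k, A' i j k = ∑ a, ∑ b, ∑ c, m a i * m b j * m c k * A a b c)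
    (hB : ∀ i j k, B' i j k = ∑ a, ∑ b, ∑ c, m a i * m b j * m c k * B a b c) :
    q3 K A' B' = q3 (m * K * mᵀ) A B := by
  have h : ∀ (T T' : Fin n → Fin n → Fin n → R),
      (∀ i j k, T' i j k = ∑ a, ∑ b, ∑ c, m a i * m b j * m c k * T a b c) →
      (fun x : Fin n × Fin n × Fin n => T' x.1 x.2.1 x.2.2)
        = (m ⊗ₖ (m ⊗ₖ m))ᵀ *ᵥ (fun x : Fin n × Fin n × Fin n => T x.1 x.2.1 x.2.2) := by
    intro T T' hT
    funext x
    simp only [hT, mulVec, dotProduct, Fintype.sum_prod_type, transpose_apply, kroneckerMap_apply,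
      mul_assoc]
  rw [mx_q3_kron, mx_q3_kron, h A A' hA, h B B' hB, mul_kronecker_mul, mul_kronecker_mul,
    mul_kronecker_mul, mul_kronecker_mul, mulVec_transpose, ← dotProduct_mulVec, mulVec_mulVec,
    mulVec_mulVec, ← kroneckerMap_transpose, ← kroneckerMap_transpose]

namespace Setup

variable {R : Type} [CommRing R] [Algebra ℝ R] {X : Type} (S : Setup n R X)

/-- the derivations in the new frame -/
noncomputable def mxd (M : Matrix (Fin n) (Fin n) ℝ) (i : Fin n) : Derivation ℝ R R :=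
  ∑ a, M a i • S.d a

theorem mxd_apply (M : Matrix (Fin n) (Fin n) ℝ) (i : Fin n) (f : R) :
    S.mxd M i f = ∑ a, algebraMap ℝ R (M a i) * S.d a f := by
  have h := congrFun (map_sum (Derivation.coeFnAddMonoidHom (R := ℝ) (A := R) (M := R))
    (fun a => M a i • S.d a) Finset.univ) f
  simp only [Derivation.coeFnAddMonoidHom_apply, Finset.sum_apply, Derivation.smul_apply] at h
  simp only [mxd, h, Algebra.smul_def]

theorem mx_d_alg (a : Fin n) (t : ℝ) (f : R) :
    S.d a (algebraMap ℝ R t * f) = algebraMap ℝ R t * S.d a f := by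
  rw [S.mx_d_mul, Derivation.map_algebraMap]; ring

theorem mxd_d (M : Matrix (Fin n) (Fin n) ℝ) (i a : Fin n) (f : R) :
    S.d a (S.mxd M i f) = S.mxd M i (S.d a f) := by
  simp only [mxd_apply, S.mx_d_sum, S.mx_d_alg, S.comm a]

theorem mxd_comm (M : Matrix (Fin n) (Fin n) ℝ) (i j : Fin n) (f : R) :
    S.mxd M i (S.mxd M j f) = S.mxd M j (S.mxd M i f) := by
  rw [S.mxd_apply M i (S.mxd M j f), S.mxd_apply M i f, map_sum]
  refine Finset.sum_congr rfl fun a _ => ?_
  rw [S.mxd_d, Derivation.leibniz, Derivation.map_algebraMap]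
  simp

theorem mxd_D2 (M : Matrix (Fin n) (Fin n) ℝ) (f : R) :
    (Matrix.of fun i j => S.mxd M i (S.mxd M j f))
      = (M.map (algebraMap ℝ R))ᵀ * (Matrix.of fun i j => S.d i (S.d j f))
        * M.map (algebraMap ℝ R) := by
  ext i j
  simp only [of_apply, mxd_apply, S.mx_d_sum, S.mx_d_alg, Matrix.mul_apply, transpose_apply,
    map_apply, Finset.mul_sum, Finset.sum_mul]
  rw [Finset.sum_comm]
  exact Finset.sum_congr rfl fun a _ => Finset.sum_congr rfl fun b _ => by ring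

theorem mxd_D3 (M : Matrix (Fin n) (Fin n) ℝ) (f : R) (i j k : Fin n) :
    S.mxd M i (S.mxd M j (S.mxd M k f)) = ∑ a, ∑ b, ∑ c, M.map (algebraMap ℝ R) a i *
      M.map (algebraMap ℝ R) b j * M.map (algebraMap ℝ R) c k * S.D3 f a b c := by
  simp only [mxd_apply, S.mx_d_sum, S.mx_d_alg, map_apply, Finset.mul_sum, D3, mul_assoc]

theorem mx_map_one {M N : Matrix (Fin n) (Fin n) ℝ} (h : M * N = 1) :
    M.map (algebraMap ℝ R) * N.map (algebraMap ℝ R) = 1 := by
  rw [← Matrix.map_mul, h, Matrix.map_one _ (map_zero _) (map_one _)]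

theorem mxd_hess {M N : Matrix (Fin n) (Fin n) ℝ} (h : M * N = 1) (f : R) :
    ∑ i, ∑ j, (N.map (algebraMap ℝ R) * S.H * (N.map (algebraMap ℝ R))ᵀ) i j *
      S.mxd M i (S.mxd M j f) = ∑ i, ∑ j, S.H i j * S.d i (S.d j f) := by
  have h1 := mx_contract_trace (N.map (algebraMap ℝ R) * S.H * (N.map (algebraMap ℝ R))ᵀ)
    (Matrix.of fun i j => S.mxd M i (S.mxd M j f))
  have h2 := mx_contract_trace S.H (Matrix.of fun i j => S.d i (S.d j f))
  simp only [of_apply] at h1 h2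
  rw [h1, h2, S.mxd_D2]
  have h3 := mx_map_one (R := R) h
  generalize M.map (algebraMap ℝ R) = m at h3 ⊢
  generalize N.map (algebraMap ℝ R) = k at h3 ⊢
  generalize (Matrix.of fun i j => S.d i (S.d j f)) = T
  have h4 : kᵀ * mᵀ = 1 := by rw [← transpose_mul, h3, transpose_one]
  have h5 : k * S.H * kᵀ * (mᵀ * T * m)ᵀ = k * (S.H * Tᵀ * m) := by
    simp only [transpose_mul, transpose_transpose, Matrix.mul_assoc]
    rw [← Matrix.mul_assoc kᵀ, h4, Matrix.one_mul]
  rw [h5, trace_mul_comm, Matrix.mul_assoc, h3, Matrix.mul_one]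

theorem mxd_eul {M N : Matrix (Fin n) (Fin n) ℝ} (h : M * N = 1) (f : R) :
    ∑ i, (N.map (algebraMap ℝ R) *ᵥ S.x) i * S.mxd M i f = ∑ i, S.x i * S.d i f := by
  have h1 : (fun i => S.mxd M i f) = (M.map (algebraMap ℝ R))ᵀ *ᵥ fun a => S.d a f := by
    funext i; simp [mxd_apply, mulVec, dotProduct]
  have h2 : ∑ i, (N.map (algebraMap ℝ R) *ᵥ S.x) i * S.mxd M i f
      = (N.map (algebraMap ℝ R) *ᵥ S.x) ⬝ᵥ fun i => S.mxd M i f := rfl
  rw [h2, h1, dotProduct_mulVec, vecMul_transpose, mulVec_mulVec, mx_map_one h, one_mulVec]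
  rfl

/-- the setup in a new linear frame -/
noncomputable def mxtr {M N : Matrix (Fin n) (Fin n) ℝ} (h : M * N = 1) : Setup n R X where
  d := S.mxd M
  comm := S.mxd_comm M
  x := N.map (algebraMap ℝ R) *ᵥ S.x
  dx := by
    intro i j
    have h' := congrFun (congrFun (mx_map_one (R := R) (mul_eq_one_comm.mp h)) j) i
    rw [Matrix.mul_apply, Matrix.one_apply] at h'
    simp only [mxd_apply, mulVec, dotProduct, S.mx_d_sum, map_apply, S.mx_d_alg, S.dx] at h' ⊢
    simp only [eq_comm (a := i), ← h']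
    simp [mul_comm]
  ψ := S.ψ
  U := S.U
  H := N.map (algebraMap ℝ R) * S.H * (N.map (algebraMap ℝ R))ᵀ
  HG := by
    rw [S.mxd_D2]
    have h3 := mx_map_one (R := R) h
    have h6 := S.HG
    generalize M.map (algebraMap ℝ R) = m at h3 ⊢
    generalize N.map (algebraMap ℝ R) = k at h3 ⊢
    generalize (Matrix.of fun i j => S.d i (S.d j S.ψ)) = T at h6 ⊢
    have h4 : kᵀ * mᵀ = 1 := by rw [← transpose_mul, h3, transpose_one]
    simp only [Matrix.mul_assoc]
    rw [← Matrix.mul_assoc kᵀ, h4, Matrix.one_mul, ← Matrix.mul_assoc S.H, h6, Matrix.one_mul]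
    exact mul_eq_one_comm.mp h3
  dU := by
    intro a
    have h1 : ∀ i j, S.mxd M a (S.mxd M i (S.mxd M j S.ψ))
        = S.mxd M i (S.mxd M j (S.mxd M a S.ψ)) := by
      intro i j; rw [S.mxd_comm M a i, S.mxd_comm M a j]
    simp only [h1]
    rw [S.mxd_hess h, S.mxd_eul h]
    have h2 : S.L (S.mxd M a S.ψ) = -S.mxd M a S.U := by
      simp only [mxd_apply, ← Algebra.smul_def, S.mx_L_sum, S.mx_L_smul, S.mx_L_dψ, smul_neg,
        Finset.sum_neg_distrib]
    simp only [L, eul, D2] at h2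
    rw [← neg_neg (S.mxd M a S.U), ← h2]
    ring
  ev := S.ev
  Hpos := by
    intro p
    have h1 : ((N.map (algebraMap ℝ R) * S.H * (N.map (algebraMap ℝ R))ᵀ).map (S.ev p))
        = N * S.H.map (S.ev p) * Nᴴ := by
      ext i j
      simp [Matrix.mul_apply, map_sum, map_mul]
    rw [h1]
    have hN : IsUnit N := (Matrix.isUnit_iff_isUnit_det N).mpr
      (Matrix.isUnit_det_of_left_inverse h)
    exact (S.Hpos p).mul_mul_conjTranspose_same (Matrix.vecMul_injective_iff_isUnit.mpr hN)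
  Ex := S.Ex
  ibp := by
    intro i f
    simp only [mxd_apply, ← Algebra.smul_def, map_sum, map_smul, S.ibp, Finset.sum_mul,
      smul_mul_assoc]
  pos := S.pos

variable {M N : Matrix (Fin n) (Fin n) ℝ} (h : M * N = 1)

theorem mxtr_L (f : R) : (S.mxtr h).L f = S.L f := by
  have h1 := S.mxd_hess h f
  have h2 := S.mxd_eul h f
  simp only [L, eul, D2]
  rw [← h1, ← h2]
  rfl

theorem mxtr_q3 (f : R) :
    q3 (S.mxtr h).H ((S.mxtr h).D3 f) ((S.mxtr h).D3 f) = q3 S.H (S.D3 f) (S.D3 f) := by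
  rw [mx_q3_frame (M.map (algebraMap ℝ R)) _ (S.D3 f) (S.D3 f) ((S.mxtr h).D3 f)
    ((S.mxtr h).D3 f) (S.mxd_D3 M f) (S.mxd_D3 M f)]
  have h3 := mx_map_one (R := R) h
  have : M.map (algebraMap ℝ R) * (S.mxtr h).H * (M.map (algebraMap ℝ R))ᵀ = S.H := by
    change M.map (algebraMap ℝ R) * (N.map (algebraMap ℝ R) * S.H * (N.map (algebraMap ℝ R))ᵀ)
      * (M.map (algebraMap ℝ R))ᵀ = S.H
    generalize M.map (algebraMap ℝ R) = m at h3 ⊢
    generalize N.map (algebraMap ℝ R) = k at h3 ⊢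
    have h4 : kᵀ * mᵀ = 1 := by rw [← transpose_mul, h3, transpose_one]
    simp only [Matrix.mul_assoc]
    rw [h4, Matrix.mul_one, ← Matrix.mul_assoc, h3, Matrix.one_mul]
  rw [this]

theorem mxtr_psd (p : X) (f : R) (hU : (Matrix.of fun i j => S.ev p (S.D2 f i j)).PosSemidef) :
    (Matrix.of fun i j => (S.mxtr h).ev p ((S.mxtr h).D2 f i j)).PosSemidef := by
  have h1 : (Matrix.of fun i j => (S.mxtr h).ev p ((S.mxtr h).D2 f i j))
      = Mᴴ * (Matrix.of fun i j => S.ev p (S.D2 f i j)) * M := by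
    ext i j
    have h2 := congrFun (congrFun (S.mxd_D2 M f) i) j
    change S.ev p ((Matrix.of fun i j => S.mxd M i (S.mxd M j f)) i j) = _
    rw [h2]
    simp [Matrix.mul_apply, map_sum, map_mul, D2]
  rw [h1]
  exact hU.conjTranspose_mul_mul_same M

theorem mx_exists_frame (p : X) : ∃ (M N : Matrix (Fin n) (Fin n) ℝ) (h : M * N = 1),
    ∀ i j, S.ev p ((S.mxtr h).H i j) = if i = j then 1 else 0 := by
  obtain ⟨M, hM⟩ := CStarAlgebra.nonneg_iff_eq_mul_star_self.mp (S.Hpos p).posSemidef.nonneg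
  have hu : IsUnit M.det := by
    have := (Matrix.isUnit_iff_isUnit_det _).mp (S.Hpos p).isUnit
    rw [hM, det_mul] at this
    exact isUnit_of_mul_isUnit_left this
  refine ⟨M, M⁻¹, mul_nonsing_inv M hu, fun i j => ?_⟩
  have h1 : ((M⁻¹.map (algebraMap ℝ R) * S.H * (M⁻¹.map (algebraMap ℝ R))ᵀ).map (S.ev p))
      = M⁻¹ * S.H.map (S.ev p) * M⁻¹ᵀ := by
    ext i j
    simp [Matrix.mul_apply, map_sum, map_mul]
  have h2 : M⁻¹ * S.H.map (S.ev p) * M⁻¹ᵀ = 1 := by
    rw [hM, star_eq_conjTranspose, conjTranspose_eq_transpose_of_trivial, ← Matrix.mul_assoc,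
      nonsing_inv_mul M hu, Matrix.one_mul, ← transpose_mul, nonsing_inv_mul M hu, transpose_one]
  have h3 := congrFun (congrFun (h1.trans h2) i) j
  rw [Matrix.one_apply] at h3
  exact h3

end Setup

end Vale.Agent.P227
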