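import Vale.Agent.P227.AlgVarAux

namespace Vale.Agent.P227.Setup

open Matrix

variable {n : ℕ} {R : Type} [CommRing R] [Algebra ℝ R] {X : Type} (S : Setup n R X)

/-- Hessian matrix -/
def avHs (f : R) : Matrix (Fin n) (Fin n) R := Matrix.of fun i j => S.d i (S.d j f)

/-- entrywise derivative of a matrix -/
def avM (a : Fin n) (M : Matrix (Fin n) (Fin n) R) : Matrix (Fin n) (Fin n) R := M.map (S.d a)

/-- the dual derivations -/
def avD (m : Fin n) : Derivation ℝ R R := ∑ j, S.H m j • S.d j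

theorem avHs_apply (f : R) (i j : Fin n) : S.avHs f i j = S.d i (S.d j f) := rfl

theorem avM_apply (a : Fin n) (M : Matrix (Fin n) (Fin n) R) (i j : Fin n) :
    S.avM a M i j = S.d a (M i j) := rfl

theorem avD_apply (m : Fin n) (f : R) : S.avD m f = ∑ j, S.H m j * S.d j f := by
  unfold avD
  induction (Finset.univ : Finset (Fin n)) using Finset.induction_on with
  | empty => simp
  | insert a s ha ih => simp [Finset.sum_insert ha, ih]

theorem avHs_T (f : R) : (S.avHs f)ᵀ = S.avHs f := by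
  ext i j; exact S.comm _ _ _

theorem av_HG : S.H * S.avHs S.ψ = 1 := S.HG

theorem av_GH : S.avHs S.ψ * S.H = 1 := mul_eq_one_comm.mp S.av_HG

theorem av_HT : S.Hᵀ = S.H := by
  calc S.Hᵀ = S.Hᵀ * (S.avHs S.ψ * S.H) := by rw [S.av_GH, Matrix.mul_one]
    _ = (S.avHs S.ψ * S.H)ᵀ * S.H := by rw [transpose_mul, avHs_T, Matrix.mul_assoc]
    _ = S.H := by rw [S.av_GH, transpose_one, Matrix.one_mul]

theorem av_Hsym (i j : Fin n) : S.H i j = S.H j i := by
  have := congrFun (congrFun S.av_HT j) i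
  simpa using this

theorem avM_mul (a : Fin n) (M N : Matrix (Fin n) (Fin n) R) :
    S.avM a (M * N) = S.avM a M * N + M * S.avM a N := by
  ext i j
  simp only [avM_apply, Matrix.mul_apply, map_sum, Matrix.add_apply, Derivation.leibniz,
    smul_eq_mul, ← Finset.sum_add_distrib]
  refine Finset.sum_congr rfl fun k _ => ?_
  ring

theorem avM_one (a : Fin n) : S.avM a (1 : Matrix (Fin n) (Fin n) R) = 0 := by
  ext i j
  simp only [avM_apply, Matrix.one_apply, Matrix.zero_apply]
  split_ifs <;> simp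

theorem avM_H (a : Fin n) : S.avM a S.H = -(S.H * S.avM a (S.avHs S.ψ) * S.H) := by
  have h := S.avM_mul a S.H (S.avHs S.ψ)
  rw [S.av_HG, avM_one] at h
  have h2 : S.avM a S.H * S.avHs S.ψ = -(S.H * S.avM a (S.avHs S.ψ)) :=
    eq_neg_of_add_eq_zero_left h.symm
  calc S.avM a S.H = S.avM a S.H * (S.avHs S.ψ * S.H) := by rw [S.av_GH, Matrix.mul_one]
    _ = _ := by rw [← Matrix.mul_assoc, h2, Matrix.neg_mul]

theorem av_dH (a i j : Fin n) :
    S.d a (S.H i j) = -∑ q, ∑ p, S.H i p * S.d a (S.d p (S.d q S.ψ)) * S.H q j := by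
  have := congrFun (congrFun (S.avM_H a) i) j
  simpa only [avM_apply, Matrix.neg_apply, Matrix.mul_apply, avHs_apply, Finset.sum_mul] using this

theorem av_I1 (b : Fin n) : ∑ a, (S.d a S.U * S.H b a - S.d a (S.H b a)) = S.x b := by
  have h1 : ∑ a, (∑ c, S.x c * S.d c (S.d a S.ψ)) * S.H b a = S.x b := by
    have h : ∀ c, ∑ a, S.d c (S.d a S.ψ) * S.H b a = if c = b then 1 else 0 := by
      intro c
      have := congrFun (congrFun S.av_GH c) b
      simpa only [Matrix.mul_apply, avHs_apply, Matrix.one_apply, S.av_Hsym b] using this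
    simp only [Finset.sum_mul]
    rw [Finset.sum_comm]
    simp only [mul_assoc, ← Finset.mul_sum, h]
    simp
  have h2 : ∑ a, (∑ i, ∑ j, S.H i j * S.d a (S.d i (S.d j S.ψ))) * S.H b a =
      ∑ a, ∑ q, ∑ p, S.H b p * S.d a (S.d p (S.d q S.ψ)) * S.H q a := by
    simp only [Finset.sum_mul]
    rw [Finset.sum_comm]
    refine Finset.sum_congr rfl fun i _ => ?_
    rw [Finset.sum_comm]
    refine Finset.sum_congr rfl fun j _ => Finset.sum_congr rfl fun a _ => ?_
    rw [S.comm a i, S.av_Hsym j i]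
    ring
  simp only [S.dU, av_dH, sub_mul, Finset.sum_sub_distrib, h1, h2, Finset.sum_neg_distrib]
  ring

theorem av_conv (M : Fin n → R) :
    dv S.d (fun a => S.d a S.U) (fun l => ∑ b, M b * S.H b l) = dv S.avD S.x M := by
  simp only [dv, avD_apply, ← S.av_I1, map_sum, Derivation.leibniz, smul_eq_mul, Finset.mul_sum,
    Finset.sum_mul, ← Finset.sum_sub_distrib]
  rw [Finset.sum_comm]
  refine Finset.sum_congr rfl fun b _ => Finset.sum_congr rfl fun l _ => ?_
  ring

theorem av_ibpD (m : Fin n) (f : R) : S.Ex (S.avD m f) = S.Ex (S.x m * f) := by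
  have h := dv_zero S.Ex S.d (fun a => S.d a S.U) S.ibp
    (fun l => ∑ b, (Pi.single m f : Fin n → R) b * S.H b l)
  rw [av_conv, dv, Finset.sum_eq_single m (fun b _ hb => by simp [Pi.single_eq_of_ne hb])
    (by simp), Pi.single_eq_same, map_sub] at h
  linarith

theorem avD_x (m k : Fin n) : S.avD m (S.x k) = S.H m k := by
  simp [avD_apply, S.dx]

theorem avD_H (k b j : Fin n) : S.avD k (S.H b j) = S.avD b (S.H k j) := by
  simp only [avD_apply, av_dH, mul_neg, Finset.mul_sum, Finset.sum_neg_distrib, neg_inj]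
  rw [Finset.sum_comm]
  conv_rhs => rw [Finset.sum_comm]
  refine Finset.sum_congr rfl fun q _ => ?_
  rw [Finset.sum_comm]
  refine Finset.sum_congr rfl fun p _ => Finset.sum_congr rfl fun a _ => ?_
  rw [S.comm a p]
  ring

theorem avD_comm (k b : Fin n) (f : R) : S.avD k (S.avD b f) = S.avD b (S.avD k f) := by
  have h : ∀ k b, S.avD k (S.avD b f) =
      ∑ j, ∑ a, S.H b j * (S.H k a * S.d a (S.d j f)) + ∑ j, S.d j f * S.avD k (S.H b j) := by
    intro k b
    rw [S.avD_apply b, map_sum, ← Finset.sum_add_distrib]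
    refine Finset.sum_congr rfl fun j _ => ?_
    rw [Derivation.leibniz, smul_eq_mul, smul_eq_mul, S.avD_apply k (S.d j f), Finset.mul_sum]
  rw [h, h, Finset.sum_comm]
  simp only [S.avD_H k b]
  refine congrArg (· + _) ?_
  refine Finset.sum_congr rfl fun p _ => Finset.sum_congr rfl fun a _ => ?_
  rw [S.comm a p]
  ring

theorem av_L (f : R) : S.L f = -dv S.avD S.x (fun b => S.d b f) := by
  simp only [L, eul, D2, dv, avD_apply, Finset.sum_sub_distrib, neg_sub]
  refine congrArg (· - _) ?_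
  refine Finset.sum_congr rfl fun i _ => Finset.sum_congr rfl fun j _ => ?_
  rw [S.comm]

theorem Ex_L (f : R) : S.Ex (S.L f) = 0 := by
  rw [av_L, map_neg, dv_zero S.Ex S.avD S.x S.av_ibpD, neg_zero]

/-- pointwise positive semidefinite -/
def AvPsd (M : Matrix (Fin n) (Fin n) R) : Prop := ∀ p, (M.map (S.ev p)).PosSemidef

theorem avPsd_H : S.AvPsd S.H := fun p => (S.Hpos p).posSemidef

theorem avPsd_G : S.AvPsd (S.avHs S.ψ) := by
  intro p
  have h : S.H.map (S.ev p) * (S.avHs S.ψ).map (S.ev p) = 1 := by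
    rw [← Matrix.map_mul, S.av_HG, Matrix.map_one _ (map_zero _) (map_one _)]
  rw [← Matrix.inv_eq_right_inv h]
  exact (S.avPsd_H p).inv

theorem AvPsd.conj {S : Setup n R X} {M : Matrix (Fin n) (Fin n) R} (h : S.AvPsd M)
    (B : Matrix (Fin n) (Fin n) R) : S.AvPsd (Bᵀ * M * B) := by
  intro p
  have := (h p).conjTranspose_mul_mul_same (B.map (S.ev p))
  rwa [Matrix.map_mul, Matrix.map_mul, transpose_map, ← conjTranspose_eq_transpose_of_trivial]

theorem AvPsd.trace {S : Setup n R X} {A B : Matrix (Fin n) (Fin n) R} (hA : S.AvPsd A)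
    (hB : S.AvPsd B) : 0 ≤ S.Ex (Matrix.trace (A * B)) := by
  refine S.pos _ fun p => ?_
  rw [AddMonoidHom.map_trace, Matrix.map_mul]
  exact av_trace_mul_nonneg (hA p) (hB p)

theorem AvPsd.form {S : Setup n R X} {A : Matrix (Fin n) (Fin n) R} (hA : S.AvPsd A)
    (v : Fin n → R) : 0 ≤ S.Ex (v ⬝ᵥ A *ᵥ v) := by
  refine S.pos _ fun p => ?_
  have := (hA p).dotProduct_mulVec_nonneg (fun i => S.ev p (v i))
  simpa only [dotProduct, mulVec, map_sum, map_mul, star_trivial, map_apply] using this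

theorem av_q3_Ex (A : Fin n → Fin n → Fin n → R) : 0 ≤ S.Ex (q3 S.H A A) := by
  refine S.pos _ fun p => ?_
  have := av_q3_nonneg (S.avPsd_H p) (fun i j k => S.ev p (A i j k))
  simpa only [q3, map_sum, map_mul, map_apply] using this

theorem kernel (h : R) {κ c : ℝ} (hκ : κ ≤ 1) (he : S.L h + κ • h = algebraMap ℝ R c) :
    S.Ex (q2 S.H (S.D2 h) (S.D2 h)) ≤ 0 := by
  set g : Fin n → R := fun b => S.d b h with hg
  have hL : dv S.avD S.x g = -S.L h := by rw [av_L, neg_neg]
  have hb := bochner S.Ex S.avD S.x S.av_ibpD S.avD_comm g g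
  have h1 : ∑ j, ∑ k, S.avD j (S.x k) * g k * g j = g ⬝ᵥ S.H *ᵥ g := by
    simp only [avD_x, dotProduct, mulVec, Finset.mul_sum]
    refine Finset.sum_congr rfl fun i _ => Finset.sum_congr rfl fun j _ => ?_
    ring
  have h2 : ∑ j, ∑ k, S.avD j (g k) * S.avD k (g j) = q2 S.H (S.D2 h) (S.D2 h) := by
    simp only [avD_apply, q2, D2, hg, Finset.sum_mul, Finset.mul_sum]
    refine Finset.sum_congr rfl fun j _ => ?_
    rw [Finset.sum_comm]
    refine Finset.sum_congr rfl fun b _ => ?_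
    rw [Finset.sum_comm]
    refine Finset.sum_congr rfl fun a _ => Finset.sum_congr rfl fun k _ => ?_
    rw [S.comm j b, S.av_Hsym b k]
    ring
  have h3 : S.Ex (dv S.avD S.x g * h) = S.Ex (g ⬝ᵥ S.H *ᵥ g) := by
    rw [dv_adj S.Ex S.avD S.x S.av_ibpD]
    simp only [avD_apply, dotProduct, mulVec, hg]
  have h4 : dv S.avD S.x g * dv S.avD S.x g =
      κ • (dv S.avD S.x g * h) - c • dv S.avD S.x g := by
    have : dv S.avD S.x g = κ • h - algebraMap ℝ R c := by rw [hL, ← he]; ring
    rw [Algebra.smul_def, Algebra.smul_def]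
    nth_rewrite 2 [this]
    rw [Algebra.smul_def]
    ring
  rw [h1, h2, h4, map_sub, map_smul, map_smul, h3, dv_zero S.Ex S.avD S.x S.av_ibpD] at hb
  have h5 := S.avPsd_H.form g
  simp only [smul_eq_mul] at hb
  nlinarith

theorem av_C_nonneg (w : R) :
    0 ≤ S.Ex (∑ k, ∑ j, ∑ l, S.d j ((S.H * S.avHs w * S.H) k l) * S.d l ((S.H * S.avHs w) j k)) +
      S.Ex (∑ k, ∑ a, ∑ b, S.avD a ((S.H * S.avHs w) k b) * S.avD b (S.avHs w a k)) := by
  set T := S.avHs w with hT
  set W : Fin n → Fin n → Fin n → R := fun j p q => S.avM j T p q with hW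
  set θ : Fin n → Fin n → Fin n → R :=
    fun j p q => (S.avM j (S.avHs S.ψ) * S.H * T) p q with hθ
  have hW23 : ∀ i j k, W i k j = W i j k := by
    intro i j k
    simp only [hW, hT, avM_apply, avHs_apply]
    rw [S.comm k j]
  have hW12 : ∀ i j k, W j i k = W i j k := by
    intro i j k
    simp only [hW, hT, avM_apply, avHs_apply]
    rw [S.comm j i]
  have hθ12 : ∀ i j k, θ j i k = θ i j k := by
    intro i j k
    simp only [hθ, Matrix.mul_apply, avM_apply, avHs_apply, S.comm j i]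
  have hAT : ∀ j, (S.avM j (S.avHs S.ψ))ᵀ = S.avM j (S.avHs S.ψ) := by
    intro j
    ext p q
    simp only [transpose_apply, avM_apply, avHs_apply]
    rw [S.comm q p]
  have hθT : ∀ j p q, (T * S.H * S.avM j (S.avHs S.ψ)) p q = θ j q p := by
    intro j p q
    have : (S.avM j (S.avHs S.ψ) * S.H * T)ᵀ = T * S.H * S.avM j (S.avHs S.ψ) := by
      rw [transpose_mul, transpose_mul, hAT, av_HT, hT, avHs_T, Matrix.mul_assoc]
    rw [← this, transpose_apply]
  have hHT : ∀ j, S.avM j (S.H * T) =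
      S.H * (S.avM j T - S.avM j (S.avHs S.ψ) * S.H * T) := by
    intro j
    simp only [avM_mul, avM_H, Matrix.mul_sub, Matrix.mul_assoc, Matrix.neg_mul]
    abel
  have hN : ∀ j, S.avM j (S.H * T * S.H) =
      S.H * (S.avM j T - S.avM j (S.avHs S.ψ) * S.H * T - T * S.H * S.avM j (S.avHs S.ψ)) *
        S.H := by
    intro j
    simp only [avM_mul, avM_H, Matrix.mul_sub, Matrix.sub_mul, Matrix.mul_assoc, Matrix.neg_mul,
      Matrix.mul_neg, Matrix.mul_add]
    abel
  have h1 : ∑ k, ∑ j, ∑ l, S.d j ((S.H * T * S.H) k l) * S.d l ((S.H * T) j k) =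
      q3 S.H (W - θ - fun i j k => θ i k j) (W - fun i j k => θ i k j) := by
    simp only [← avM_apply, hN, hHT]
    rw [av_q3_A S.H S.av_Hsym]
    refine congrArg₂ (q3 S.H) ?_ ?_
    · funext j p q
      simp only [Matrix.sub_apply, Pi.sub_apply, hθT]
      rfl
    · funext r k l
      simp only [Matrix.sub_apply, Pi.sub_apply]
      rw [hW23 r l k, hW12 l r k, hθ12 l r k]
  have h2 : ∑ k, ∑ a, ∑ b, S.avD a ((S.H * T) k b) * S.avD b (T a k) = q3 S.H (W - θ) W := by
    simp only [avD_apply, ← avM_apply, hHT]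
    rw [av_q3_B S.H S.av_Hsym]
    refine congrArg₂ (q3 S.H) ?_ ?_
    · funext j p q
      rfl
    · funext a k e
      rw [hW23 a e k, hW12 e a k]
  have h3 := S.av_q3_Ex (W + W - θ - fun i j k => θ i k j)
  rw [← av_q3_square S.H S.av_Hsym W θ hW23, two_mul, map_add, map_add] at h3
  rw [h1, h2]
  linarith

theorem av_N (w : R) (k : Fin n) :
    dv S.avD S.x ((S.H * S.avHs w) k) = -S.avD k (S.L w + w) := by
  have h1 : (S.H * S.avHs w) k = fun b => S.avD k (S.d b w) := by
    funext b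
    simp only [Matrix.mul_apply, avHs_apply, avD_apply]
  have h2 := dv_comm S.avD S.x S.avD_comm (fun b => S.d b w) k
  simp only [avD_x] at h2
  rw [h1, map_add, av_L, map_neg, h2, S.avD_apply k w]
  ring

theorem av_key (u w : R) (c2 : ℝ) (hw : S.L w + w = u + algebraMap ℝ R c2) :
    S.Ex ((fun k => S.avD k u) ⬝ᵥ S.avHs S.U *ᵥ fun k => S.avD k u) +
      S.Ex (trace (S.avHs S.U * (S.H * S.avHs w * S.H * S.avHs w * S.H))) ≤
      S.Ex (S.L u * S.L u) := by
  set T := S.avHs w with hT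
  set ξ : Fin n → R := fun k => S.avD k u with hξ
  set E : Matrix (Fin n) (Fin n) R := Matrix.of fun k j => S.d j (ξ k) with hE
  have hTT : Tᵀ = T := S.avHs_T w
  have hTs : ∀ i j, T i j = T j i := fun i j => S.comm _ _ _
  have hZ : ∀ k, dv S.avD S.x ((S.H * T) k) = -ξ k := by
    intro k
    rw [av_N, hw, map_add, Derivation.map_algebraMap, add_zero]
  have hZ' : ∀ k, dv S.d (fun a => S.d a S.U) ((S.H * T * S.H) k) = -ξ k := by
    intro k
    rw [← hZ, ← av_conv]
    rfl
  have hY : ∀ k, dv S.d (fun a => S.d a S.U) (fun j => (S.H * T) j k) =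
      dv S.avD S.x (fun a => T a k) := by
    intro k
    rw [← av_conv]
    refine congrArg _ ?_
    funext j
    simp only [Matrix.mul_apply]
    refine Finset.sum_congr rfl fun a _ => ?_
    rw [S.av_Hsym j a, mul_comm]
  have hg : dv S.d (fun a => S.d a S.U) ξ = -S.L u := by
    rw [av_L, neg_neg, ← av_conv]
    refine congrArg _ ?_
    funext j
    simp only [hξ, avD_apply]
    refine Finset.sum_congr rfl fun a _ => ?_
    rw [S.av_Hsym j a, mul_comm]
  have e1 : S.Ex (S.L u * S.L u) = S.Ex (ξ ⬝ᵥ S.avHs S.U *ᵥ ξ) + S.Ex (trace (E * E)) := by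
    have hb := bochner S.Ex S.d (fun a => S.d a S.U) S.ibp S.comm ξ ξ
    rw [hg, neg_mul_neg] at hb
    rw [hb]
    refine congrArg₂ (· + ·) (congrArg _ ?_) (congrArg _ ?_)
    · simp only [dotProduct, mulVec, Finset.mul_sum, avHs_apply]
      refine Finset.sum_congr rfl fun i _ => Finset.sum_congr rfl fun j _ => ?_
      ring
    · simp only [trace, diag_apply, Matrix.mul_apply, hE, of_apply]
      refine Finset.sum_congr rfl fun i _ => Finset.sum_congr rfl fun j _ => ?_
      ring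
  have e0 : ∑ k, S.Ex (-ξ k * dv S.avD S.x (fun a => T a k)) = -S.Ex (trace (S.H * T * E)) := by
    rw [trace_mul_comm, trace, map_sum, ← Finset.sum_neg_distrib]
    refine Finset.sum_congr rfl fun k _ => ?_
    rw [neg_mul, map_neg, mul_comm, ← hY, dv_adj S.Ex S.d _ S.ibp]
    refine congrArg (fun t => -S.Ex t) ?_
    exact Finset.sum_congr rfl fun j _ => mul_comm _ _
  have e2 : ∑ k, S.Ex (-ξ k * dv S.avD S.x (fun a => T a k)) =
      S.Ex (trace (S.avHs S.U * (S.H * T * S.H * T * S.H))) +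
      S.Ex (∑ k, ∑ j, ∑ l, S.d j ((S.H * T * S.H) k l) * S.d l ((S.H * T) j k)) := by
    have h : trace (S.avHs S.U * (S.H * T * S.H * T * S.H)) =
        ∑ k, ∑ j, ∑ l, S.d j (S.d l S.U) * (S.H * T * S.H) k l * (S.H * T) j k := by
      have : S.avHs S.U * (S.H * T * S.H * T * S.H) =
          (S.avHs S.U)ᵀ * (S.H * T) * (S.H * T * S.H) := by
        simp only [avHs_T, Matrix.mul_assoc]
      rw [this, trace_mul_comm]
      generalize S.H * T * S.H = N
      generalize S.H * T = M
      simp only [trace, diag_apply, Matrix.mul_apply, transpose_apply, avHs_apply, Finset.mul_sum]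
      refine Finset.sum_congr rfl fun k _ => ?_
      rw [Finset.sum_comm]
      refine Finset.sum_congr rfl fun j _ => Finset.sum_congr rfl fun l _ => ?_
      ring
    rw [h, map_sum, map_sum, ← Finset.sum_add_distrib]
    refine Finset.sum_congr rfl fun k _ => ?_
    rw [← hZ', ← hY, bochner S.Ex S.d _ S.ibp S.comm]
  have e3 : ∑ k, S.Ex (-ξ k * dv S.avD S.x (fun a => T a k)) =
      S.Ex (trace (S.H * T * (S.H * T))) +
      S.Ex (∑ k, ∑ a, ∑ b, S.avD a ((S.H * T) k b) * S.avD b (T a k)) := by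
    have h : trace (S.H * T * (S.H * T)) =
        ∑ k, ∑ a, ∑ b, S.avD a (S.x b) * (S.H * T) k b * T a k := by
      rw [← Matrix.mul_assoc]
      generalize S.H * T = M
      simp only [trace, diag_apply, Matrix.mul_apply, avD_x, Finset.sum_mul]
      refine Finset.sum_congr rfl fun k _ => Finset.sum_congr rfl fun a _ =>
        Finset.sum_congr rfl fun b _ => ?_
      rw [S.av_Hsym a b]
      ring
    rw [h, map_sum, map_sum, ← Finset.sum_add_distrib]
    refine Finset.sum_congr rfl fun k _ => ?_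
    rw [← hZ, bochner S.Ex S.avD _ S.av_ibpD S.avD_comm]
  have e4 : 0 ≤ S.Ex (trace (E * E)) + 2 * S.Ex (trace (S.H * T * E)) +
      S.Ex (trace (S.H * T * (S.H * T))) := by
    have hEH : ∀ k m, (E * S.H) k m = S.avD m (S.avD k u) := by
      intro k m
      simp only [Matrix.mul_apply, hE, of_apply, hξ, S.avD_apply m]
      refine Finset.sum_congr rfl fun a _ => ?_
      rw [S.av_Hsym m a, mul_comm]
    have hs1 : (E * S.H)ᵀ = E * S.H := by
      ext k m
      rw [transpose_apply, hEH, hEH, avD_comm]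
    have hs2 : ((E + S.H * T) * S.H)ᵀ = (E + S.H * T) * S.H := by
      rw [Matrix.add_mul, transpose_add, hs1, transpose_mul, transpose_mul, hTT, av_HT,
        Matrix.mul_assoc]
    have h := (S.avPsd_G.conj ((E + S.H * T) * S.H)).trace S.avPsd_G
    have h2 : (E + S.H * T) * S.H * S.avHs S.ψ = E + S.H * T := by
      rw [Matrix.mul_assoc, av_HG, Matrix.mul_one]
    rw [hs2, h2, Matrix.mul_assoc (E + S.H * T) _ (S.avHs S.ψ), h2] at h
    simp only [Matrix.add_mul, Matrix.mul_add, trace_add, map_add, trace_mul_comm E (S.H * T)] at h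
    linarith
  have e5 := S.av_C_nonneg w
  rw [← hT] at e5
  linarith

theorem av_step (V u w : R) (a c2 : ℝ) (hV : S.AvPsd (S.avHs V))
    (hw : S.L w + w = u + algebraMap ℝ R c2) :
    2 * a * S.Ex (-S.L u * S.eul V) ≤
      a ^ 2 * S.Ex (∑ i, ∑ j, S.x i * S.D2 V i j * S.x j + S.eul V) +
      S.Ex ((fun k => S.avD k u) ⬝ᵥ S.avHs V *ᵥ fun k => S.avD k u) +
      S.Ex (trace (S.avHs V * (S.H * S.avHs w * S.H * S.avHs w * S.H))) := by
  set T := S.avHs w with hT
  set B := S.avHs V with hB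
  set ξ : Fin n → R := fun k => S.avD k u with hξ
  have hTT : Tᵀ = T := S.avHs_T w
  have hBT : Bᵀ = B := S.avHs_T V
  have hZ' : ∀ k, dv S.d (fun a => S.d a S.U) ((S.H * T * S.H) k) = -ξ k := by
    intro k
    have := S.av_N w k
    rw [hw, map_add, Derivation.map_algebraMap, add_zero, ← av_conv] at this
    exact this
  have hg : dv S.d (fun a => S.d a S.U) ξ = -S.L u := by
    rw [av_L, neg_neg, ← av_conv]
    refine congrArg _ ?_
    funext j
    simp only [hξ, avD_apply]
    refine Finset.sum_congr rfl fun a _ => ?_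
    rw [S.av_Hsym j a, mul_comm]
  have e1 : S.Ex (∑ k, ξ k * S.d k V) = -S.Ex (trace (B * (S.H * T * S.H))) := by
    rw [trace_mul_comm, trace, map_sum, map_sum, ← Finset.sum_neg_distrib]
    refine Finset.sum_congr rfl fun k _ => ?_
    rw [← neg_neg (ξ k), ← hZ', neg_mul, map_neg, dv_adj S.Ex S.d _ S.ibp]
    rfl
  have e2 : S.Ex (-S.L u * S.eul V) =
      S.Ex (ξ ⬝ᵥ B *ᵥ S.x) - S.Ex (trace (B * (S.H * T * S.H))) := by
    rw [← hg, dv_adj S.Ex S.d _ S.ibp, sub_eq_add_neg, ← e1, ← map_add]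
    refine congrArg _ ?_
    simp only [dotProduct, mulVec, ← Finset.sum_add_distrib, ← mul_add]
    refine Finset.sum_congr rfl fun k _ => congrArg _ ?_
    simp only [eul, map_sum, Derivation.leibniz, smul_eq_mul, S.dx, Finset.sum_add_distrib, hB,
      avHs_apply, mul_ite, mul_one, mul_zero, Finset.sum_ite_eq, Finset.mem_univ, if_true]
    refine congrArg (· + _) (Finset.sum_congr rfl fun j _ => mul_comm _ _)
  have e3 : S.Ex (S.eul V) = S.Ex (trace (B * S.H)) := by
    have h := S.Ex_L V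
    rw [L, map_sub, sub_eq_zero] at h
    rw [← h, trace_mul_comm]
    refine congrArg _ ?_
    simp only [trace, diag_apply, Matrix.mul_apply, D2, hB, avHs_apply]
    refine Finset.sum_congr rfl fun i _ => Finset.sum_congr rfl fun j _ => ?_
    rw [S.comm]
  have e4 : ∑ i, ∑ j, S.x i * S.D2 V i j * S.x j = S.x ⬝ᵥ B *ᵥ S.x := by
    simp only [dotProduct, mulVec, Finset.mul_sum, D2, hB, avHs_apply, mul_assoc]
  have e5 : S.x ⬝ᵥ B *ᵥ ξ = ξ ⬝ᵥ B *ᵥ S.x := by
    rw [dotProduct_mulVec, ← mulVec_transpose, hBT, dotProduct_comm]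
  have p1 := hV.form (a • S.x - ξ)
  simp only [mulVec_sub, mulVec_smul, dotProduct_sub, sub_dotProduct, dotProduct_smul,
    smul_dotProduct, map_sub, map_smul, smul_eq_mul, e5] at p1
  have p2 := hV.trace (S.avPsd_H.conj (a • (1 : Matrix (Fin n) (Fin n) R) + T * S.H))
  simp only [transpose_add, transpose_smul, transpose_one, transpose_mul, hTT, av_HT,
    Matrix.add_mul, Matrix.mul_add, Matrix.smul_mul, Matrix.mul_smul, Matrix.one_mul,
    Matrix.mul_one, trace_add, trace_smul, map_add, map_smul, smul_eq_mul, smul_add,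
    Matrix.mul_assoc] at p2
  simp only [Matrix.mul_assoc] at e2 ⊢
  rw [e2, e4, map_add, e3]
  nlinarith

theorem var_ineq {ι : Type} [Fintype ι] (V : ι → R) (a : ι → ℝ)
    (hU : ∀ i, S.d i S.U = ∑ k, S.d i (V k))
    (hV : ∀ k p, (Matrix.of fun i j => S.ev p (S.D2 (V k) i j)).PosSemidef)
    (f u w : R) (c1 c2 : ℝ) (hf : f = ∑ k, a k • S.eul (V k))
    (hu : S.L u = algebraMap ℝ R c1 - f) (hw : S.L w + w = u + algebraMap ℝ R c2) :
    S.Ex ((f - algebraMap ℝ R c1) ^ 2) ≤
      S.Ex (∑ k, a k ^ 2 • (∑ i, ∑ j, S.x i * S.D2 (V k) i j * S.x j + S.eul (V k))) := by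
  have hk := S.av_key u w c2 hw
  have hs := Finset.sum_le_sum fun k (_ : k ∈ (Finset.univ : Finset ι)) =>
    S.av_step (V k) u w (a k) c2 (hV k) hw
  have hUV : S.avHs S.U = ∑ k, S.avHs (V k) := by
    ext i j
    simp only [avHs_apply, hU, map_sum, Matrix.sum_apply]
  rw [hUV, Matrix.sum_mulVec, dotProduct_sum, Matrix.sum_mul, trace_sum, map_sum, map_sum] at hk
  have h1 : (f - algebraMap ℝ R c1) ^ 2 = S.L u * S.L u := by rw [hu]; ring
  have h2 : S.L u * S.L u = ∑ k, a k • (-S.L u * S.eul (V k)) + c1 • S.L u := by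
    have : ∑ k, a k • (-S.L u * S.eul (V k)) = -S.L u * f := by
      rw [hf, Finset.mul_sum]
      exact Finset.sum_congr rfl fun k _ => (mul_smul_comm _ _ _).symm
    rw [this, Algebra.smul_def]
    nth_rewrite 2 [hu]
    ring
  have h3 : S.Ex (S.L u * S.L u) = ∑ k, a k * S.Ex (-S.L u * S.eul (V k)) := by
    rw [h2, map_add, map_smul, Ex_L, smul_zero, add_zero, map_sum]
    simp only [map_smul, smul_eq_mul]
  rw [h1, map_sum]
  simp only [map_smul, smul_eq_mul, Finset.sum_add_distrib, mul_assoc, ← Finset.mul_sum] at hs hk ⊢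
  linarith

end Vale.Agent.P227.Setup
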