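import Vale.Agent.P227.Alg

/-! Generic Bochner formula for commuting derivations and positivity helpers. -/

namespace Vale.Agent.P227

open Matrix

section Real

variable {n : ℕ}

theorem av_trace_mul_nonneg {A B : Matrix (Fin n) (Fin n) ℝ} (hA : A.PosSemidef)
    (hB : B.PosSemidef) : 0 ≤ trace (A * B) := by
  open scoped MatrixOrder in
  obtain ⟨C, rfl⟩ := CStarAlgebra.nonneg_iff_eq_star_mul_self.mp hB.nonneg
  have h := (hA.mul_mul_conjTranspose_same C).trace_nonneg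
  rw [star_eq_conjTranspose, ← Matrix.mul_assoc, trace_mul_comm, ← Matrix.mul_assoc]
  exact h

theorem av_q3_nonneg {H : Matrix (Fin n) (Fin n) ℝ} (hH : H.PosSemidef)
    (A : Fin n → Fin n → Fin n → ℝ) : 0 ≤ q3 H A A := by
  have h := (hH.kronecker (hH.kronecker hH)).dotProduct_mulVec_nonneg
    (fun v : Fin n × Fin n × Fin n => A v.1 v.2.1 v.2.2)
  refine h.trans_eq ?_
  simp only [q3, dotProduct, mulVec, Fintype.sum_prod_type, star_trivial, Finset.mul_sum,
    kroneckerMap_apply]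
  refine Finset.sum_congr rfl fun i _ => Finset.sum_congr rfl fun j _ =>
    Finset.sum_congr rfl fun k _ => Finset.sum_congr rfl fun a _ =>
    Finset.sum_congr rfl fun b _ => Finset.sum_congr rfl fun c _ => ?_
  ring

end Real

section Q3

variable {n : ℕ} {R : Type} [CommRing R] (H : Matrix (Fin n) (Fin n) R)

theorem av_q3_sub_left (A B C : Fin n → Fin n → Fin n → R) :
    q3 H (A - B) C = q3 H A C - q3 H B C := by
  simp only [q3, Pi.sub_apply, mul_sub, sub_mul, Finset.sum_sub_distrib]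

theorem av_q3_sub_right (A B C : Fin n → Fin n → Fin n → R) :
    q3 H A (B - C) = q3 H A B - q3 H A C := by
  simp only [q3, Pi.sub_apply, mul_sub, Finset.sum_sub_distrib]

theorem av_q3_add_left (A B C : Fin n → Fin n → Fin n → R) :
    q3 H (A + B) C = q3 H A C + q3 H B C := by
  simp only [q3, Pi.add_apply, mul_add, add_mul, Finset.sum_add_distrib]

theorem av_q3_add_right (A B C : Fin n → Fin n → Fin n → R) :
    q3 H A (B + C) = q3 H A B + q3 H A C := by
  simp only [q3, Pi.add_apply, mul_add, Finset.sum_add_distrib]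

theorem av_q3_prod (A B : Fin n → Fin n → Fin n → R) :
    q3 H A B = ∑ v : Fin n × Fin n × Fin n × Fin n × Fin n × Fin n,
      H v.1 v.2.2.2.1 * H v.2.1 v.2.2.2.2.1 * H v.2.2.1 v.2.2.2.2.2 * A v.1 v.2.1 v.2.2.1 *
        B v.2.2.2.1 v.2.2.2.2.1 v.2.2.2.2.2 := by
  simp only [q3, Fintype.sum_prod_type]

theorem av_q3_symm (hH : ∀ i j, H i j = H j i) (A B : Fin n → Fin n → Fin n → R) :
    q3 H A B = q3 H B A := by
  rw [av_q3_prod, av_q3_prod]
  refine Fintype.sum_equiv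
    ⟨fun v => (v.2.2.2.1, v.2.2.2.2.1, v.2.2.2.2.2, v.1, v.2.1, v.2.2.1),
      fun v => (v.2.2.2.1, v.2.2.2.2.1, v.2.2.2.2.2, v.1, v.2.1, v.2.2.1),
      fun _ => rfl, fun _ => rfl⟩ _ _ fun v => ?_
  simp only [Equiv.coe_fn_mk]
  rw [hH v.1, hH v.2.1, hH v.2.2.1]
  ring

theorem av_q3_swap (A B : Fin n → Fin n → Fin n → R) :
    q3 H (fun i j k => A i k j) (fun i j k => B i k j) = q3 H A B := by
  rw [av_q3_prod, av_q3_prod]
  refine Fintype.sum_equiv
    ⟨fun v => (v.1, v.2.2.1, v.2.1, v.2.2.2.1, v.2.2.2.2.2, v.2.2.2.2.1),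
      fun v => (v.1, v.2.2.1, v.2.1, v.2.2.2.1, v.2.2.2.2.2, v.2.2.2.2.1),
      fun _ => rfl, fun _ => rfl⟩ _ _ fun v => ?_
  simp only [Equiv.coe_fn_mk]
  ring

theorem av_q3_square (hH : ∀ i j, H i j = H j i) (W θ : Fin n → Fin n → Fin n → R)
    (hW : ∀ i j k, W i k j = W i j k) :
    2 * (q3 H (W - θ - fun i j k => θ i k j) (W - fun i j k => θ i k j) + q3 H (W - θ) W) =
      q3 H (W + W - θ - fun i j k => θ i k j) (W + W - θ - fun i j k => θ i k j) := by
  set η : Fin n → Fin n → Fin n → R := fun i j k => θ i k j with hη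
  have hW' : (fun i j k => W i k j) = W := by
    funext i j k; exact hW i j k
  have h1 : q3 H η η = q3 H θ θ := av_q3_swap H θ θ
  have h2 : q3 H W η = q3 H W θ := by
    have := av_q3_swap H W θ
    rwa [hW'] at this
  have h3 : q3 H η W = q3 H W θ := by rw [av_q3_symm H hH, h2]
  have h4 : q3 H θ W = q3 H W θ := av_q3_symm H hH _ _
  have h5 : q3 H η θ = q3 H θ η := av_q3_symm H hH _ _
  simp only [av_q3_sub_left, av_q3_sub_right, av_q3_add_left, av_q3_add_right, h1, h2, h3, h4, h5]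
  ring

theorem av_q3_A (hH : ∀ i j, H i j = H j i) (A B : Fin n → Matrix (Fin n) (Fin n) R) :
    ∑ k, ∑ j, ∑ l, (H * A j * H) k l * (H * B l) j k =
      q3 H (fun j p q => A j p q) (fun r k l => B l r k) := by
  have h : ∑ k, ∑ j, ∑ l, (H * A j * H) k l * (H * B l) j k =
      ∑ v : Fin n × Fin n × Fin n × Fin n × Fin n × Fin n,
        H v.1 v.2.2.2.2.2 * A v.2.1 v.2.2.2.2.2 v.2.2.2.2.1 * H v.2.2.2.2.1 v.2.2.1 *
          (H v.2.1 v.2.2.2.1 * B v.2.2.1 v.2.2.2.1 v.1) := by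
    simp only [Fintype.sum_prod_type, Matrix.mul_apply, Finset.sum_mul, Finset.mul_sum]
  rw [h, av_q3_prod]
  refine Fintype.sum_equiv
    ⟨fun v => (v.2.1, v.2.2.2.2.2, v.2.2.2.2.1, v.2.2.2.1, v.1, v.2.2.1),
      fun v => (v.2.2.2.2.1, v.1, v.2.2.2.2.2, v.2.2.2.1, v.2.2.1, v.2.1),
      fun _ => rfl, fun _ => rfl⟩ _ _ fun v => ?_
  simp only [Equiv.coe_fn_mk]
  rw [hH v.1]
  ring

theorem av_q3_B (hH : ∀ i j, H i j = H j i) (A B : Fin n → Matrix (Fin n) (Fin n) R) :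
    ∑ k, ∑ a, ∑ b, (∑ c, H a c * (H * A c) k b) * (∑ e, H b e * B e a k) =
      q3 H (fun j p q => A j p q) (fun a k e => B e a k) := by
  have h : ∑ k, ∑ a, ∑ b, (∑ c, H a c * (H * A c) k b) * (∑ e, H b e * B e a k) =
      ∑ v : Fin n × Fin n × Fin n × Fin n × Fin n × Fin n,
        H v.2.1 v.2.2.2.2.1 * (H v.1 v.2.2.2.2.2 * A v.2.2.2.2.1 v.2.2.2.2.2 v.2.2.1) *
          (H v.2.2.1 v.2.2.2.1 * B v.2.2.2.1 v.2.1 v.1) := by
    simp only [Fintype.sum_prod_type, Matrix.mul_apply, Finset.sum_mul, Finset.mul_sum]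
  rw [h, av_q3_prod]
  refine Fintype.sum_equiv
    ⟨fun v => (v.2.2.2.2.1, v.2.2.2.2.2, v.2.2.1, v.2.1, v.1, v.2.2.2.1),
      fun v => (v.2.2.2.2.1, v.2.2.2.1, v.2.2.1, v.2.2.2.2.2, v.1, v.2.1),
      fun _ => rfl, fun _ => rfl⟩ _ _ fun v => ?_
  simp only [Equiv.coe_fn_mk]
  rw [hH v.1, hH v.2.1]
  ring

end Q3

section Boch

variable {n : ℕ} {R : Type} [CommRing R] [Algebra ℝ R]

/-- the adjoint divergence of a family of derivations -/
def dv (D : Fin n → Derivation ℝ R R) (W A : Fin n → R) : R := ∑ k, (W k * A k - D k (A k))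

variable (Ex : R →ₗ[ℝ] ℝ) (D : Fin n → Derivation ℝ R R) (W : Fin n → R)

theorem dv_zero (h : ∀ i f, Ex (D i f) = Ex (W i * f)) (A : Fin n → R) : Ex (dv D W A) = 0 := by
  simp only [dv, map_sum, map_sub, h, sub_self, Finset.sum_const_zero]

theorem dv_mul (A : Fin n → R) (g : R) :
    dv D W A * g = dv D W (fun k => A k * g) + ∑ k, A k * D k g := by
  simp only [dv, Finset.sum_mul, ← Finset.sum_add_distrib, Derivation.leibniz, smul_eq_mul]
  refine Finset.sum_congr rfl fun k _ => ?_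
  ring

theorem dv_adj (h : ∀ i f, Ex (D i f) = Ex (W i * f)) (A : Fin n → R) (g : R) :
    Ex (dv D W A * g) = Ex (∑ k, A k * D k g) := by
  rw [dv_mul, map_add, dv_zero Ex D W h, zero_add]

theorem dv_comm (hc : ∀ i j f, D i (D j f) = D j (D i f)) (A : Fin n → R) (j : Fin n) :
    D j (dv D W A) = dv D W (fun k => D j (A k)) + ∑ k, D j (W k) * A k := by
  simp only [dv, map_sum, map_sub, ← Finset.sum_add_distrib, Derivation.leibniz, smul_eq_mul]
  refine Finset.sum_congr rfl fun k _ => ?_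
  rw [hc j k]
  ring

theorem bochner (h : ∀ i f, Ex (D i f) = Ex (W i * f))
    (hc : ∀ i j f, D i (D j f) = D j (D i f)) (A B : Fin n → R) :
    Ex (dv D W A * dv D W B) =
      Ex (∑ j, ∑ k, D j (W k) * A k * B j) + Ex (∑ j, ∑ k, D j (A k) * D k (B j)) := by
  rw [mul_comm, dv_adj Ex D W h, map_sum, map_sum, map_sum, ← Finset.sum_add_distrib]
  refine Finset.sum_congr rfl fun j _ => ?_
  rw [dv_comm D W hc, mul_add, map_add, mul_comm (B j) (dv D W _), dv_adj Ex D W h, add_comm,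
    mul_comm (B j), Finset.sum_mul]

end Boch

end Vale.Agent.P227
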