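import Mathlib

namespace Vale.Agent.P227

open scoped RealInnerProductSpace

/-- The support function `h_K(u) = max_{x ∈ K} ⟨x, u⟩`. -/
noncomputable def suppFn {n : ℕ} (K : Set (EuclideanSpace ℝ (Fin n)))
    (u : EuclideanSpace ℝ (Fin n)) : ℝ :=
  sSup ((fun x => ⟪x, u⟫) '' K)

/-- The Wulff body of `f`: all `x` with `⟨x, u⟩ ≤ f u` for every unit vector `u`. -/
def wulff {n : ℕ} (f : EuclideanSpace ℝ (Fin n) → ℝ) : Set (EuclideanSpace ℝ (Fin n)) :=
  {x | ∀ u : EuclideanSpace ℝ (Fin n), ‖u‖ = 1 → ⟪x, u⟫ ≤ f u}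

/-- An origin-symmetric convex body: compact, convex, nonempty interior, `K = -K`. -/
def SymmBody {n : ℕ} (K : Set (EuclideanSpace ℝ (Fin n))) : Prop :=
  IsCompact K ∧ Convex ℝ K ∧ (interior K).Nonempty ∧ K = -K

end Vale.Agent.P227
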