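import Vale.Agent.P227.Final2

/-! Passing to the limit: intersections of ellipsoids. -/

namespace Vale.Agent.P227

open Matrix MeasureTheory Filter Topology Set

variable {n : ℕ}

theorem fn_limit {ι : Type} [Fintype ι] (k0 : ι) {r : ι → E n → ℝ} (hr : ∀ k, Continuous (r k))
    (h0 : ∀ k x, 0 ≤ r k x) {c : ℝ} (hc : 0 < c) (hl : ∀ x, c * ‖x‖ ^ 2 ≤ r k0 x) :
    Tendsto (fun m : ℕ => ∫ x, Real.exp (-∑ k, (((m : ℝ) + 1) * fnv (r k x) + r k x / (m + 1))))
      atTop (𝓝 (volume.real {x | ∀ k, r k x ≤ 1})) := by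
  have hv : Continuous fnv := continuous_iff_continuousAt.mpr fun r => (fnv_deriv r).continuousAt
  have hS : MeasurableSet {x | ∀ k, r k x ≤ 1} := by
    rw [ofPred_forall]
    exact (isClosed_iInter fun k => isClosed_le (hr k) continuous_const).measurableSet
  have hterm : ∀ (m : ℕ) k x, 0 ≤ ((m : ℝ) + 1) * fnv (r k x) + r k x / (m + 1) := fun m k x => by
    have := fnv_nonneg (h0 k x)
    have := h0 k x
    positivity
  have hlow : ∀ (m : ℕ) k x, ((m : ℝ) + 1) * fnv (r k x)
      ≤ ∑ k, (((m : ℝ) + 1) * fnv (r k x) + r k x / (m + 1)) := fun m k x => by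
    refine le_trans ?_ (Finset.single_le_sum (fun k _ => hterm m k x) (Finset.mem_univ k))
    have := h0 k x
    exact le_add_of_nonneg_right (by positivity)
  rw [← integral_indicator_one hS]
  refine tendsto_integral_of_dominated_convergence
    (fun x => Real.exp 2 * (1 + ‖x‖) ^ 0 * Real.exp (-(c * ‖x‖ ^ 2)))
    (fun m => Continuous.aestronglyMeasurable (by fun_prop)) (fn_gauss hc _ 0)
    (fun m => Eventually.of_forall fun x => ?_) (Eventually.of_forall fun x => ?_)
  · rw [Real.norm_of_nonneg (Real.exp_pos _).le, pow_zero, mul_one, ← Real.exp_add]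
    refine Real.exp_le_exp.mpr ?_
    have h1 := hlow m k0 x
    have h2 := fnv_lower (h0 k0 x)
    have h3 := fnv_nonneg (h0 k0 x)
    have h4 : 0 ≤ (m : ℝ) * fnv (r k0 x) := by positivity
    linarith [hl x]
  · by_cases hx : x ∈ {x | ∀ k, r k x ≤ 1}
    · rw [indicator_of_mem hx]
      have h1 : ∀ k, fnv (r k x) = 0 := fun k => fnv_zero (h0 k x) (hx k)
      have h2 : Tendsto (fun m : ℕ => -∑ k, r k x / ((m : ℝ) + 1)) atTop (𝓝 (-∑ _k : ι, 0)) :=
        (tendsto_finsetSum _ fun k _ => tendsto_const_nhds.div_atTop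
          (tendsto_atTop_add_const_right _ 1 tendsto_natCast_atTop_atTop)).neg
      have h3 := (Real.continuous_exp.tendsto _).comp h2
      simpa [h1, Function.comp_def] using h3
    · rw [indicator_of_notMem hx]
      obtain ⟨k, hk⟩ : ∃ k, 1 < r k x := by simpa using hx
      have h1 : Tendsto (fun m : ℕ => ((m : ℝ) + 1) * fnv (r k x)) atTop atTop :=
        (tendsto_atTop_add_const_right _ 1 tendsto_natCast_atTop_atTop).atTop_mul_const (fnv_pos hk)
      exact Real.tendsto_exp_neg_atTop_nhds_zero.comp (tendsto_atTop_mono (fun m => hlow m k x) h1)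

theorem fn_ellipsoids {ι : Type} [Fintype ι] (k0 : ι) {Q : ι → Mat n} {l : ℝ}
    (hQ : ∀ k, PD (Q k) l) (hl : 0 < l) (a : ι → ℝ) {t : ℝ} (h0 : 0 ≤ t) (h1 : t ≤ 1) :
    volume {x | ∀ k, Real.exp (2 * a k * 0) * qf (Q k) x ≤ 1} ^ (1 - t)
      * volume {x | ∀ k, Real.exp (2 * a k * 1) * qf (Q k) x ≤ 1} ^ t
      ≤ volume {x | ∀ k, Real.exp (2 * a k * t) * qf (Q k) x ≤ 1} := by
  have hlow : ∀ s k x, Real.exp (2 * a k * s) * l * ‖x‖ ^ 2 ≤ Real.exp (2 * a k * s) * qf (Q k) x :=
    fun s k x => by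
      rw [mul_assoc]
      exact mul_le_mul_of_nonneg_left ((hQ k).lower x) (Real.exp_pos _).le
  have hlim := fun s : ℝ => fn_limit k0 (r := fun k x => Real.exp (2 * a k * s) * qf (Q k) x)
    (fun k => continuous_const.mul (qf_continuous _))
    (fun k x => le_trans (by positivity) (hlow s k x)) (by positivity) (hlow s k0)
  have hfin : ∀ s : ℝ, volume {x | ∀ k, Real.exp (2 * a k * s) * qf (Q k) x ≤ 1} ≠ ⊤ := by
    intro s
    refine ne_top_of_le_ne_top (measure_closedBall_lt_top (x := (0 : E n))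
      (r := √(1 / (Real.exp (2 * a k0 * s) * l)))).ne (measure_mono fun x hx => ?_)
    rw [mem_closedBall_zero_iff]
    refine Real.le_sqrt_of_sq_le ?_
    rw [le_div_iff₀ (by positivity)]
    linarith [hlow s k0 x, hx k0]
  have hreal := le_of_tendsto_of_tendsto'
    (((hlim 0).rpow_const (p := 1 - t) (Or.inr (by linarith))).mul
      ((hlim 1).rpow_const (p := t) (Or.inr h0))) (hlim t) fun m => by
      obtain ⟨θ1, θ2, C, P⟩ := fn_prof (m := (m : ℝ) + 1) (by positivity)
      exact P.logconc k0 hQ hl a h0 h1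
  rw [← ofReal_measureReal (hfin 0), ← ofReal_measureReal (hfin 1), ← ofReal_measureReal (hfin t),
    ENNReal.ofReal_rpow_of_nonneg measureReal_nonneg (by linarith),
    ENNReal.ofReal_rpow_of_nonneg measureReal_nonneg h0,
    ← ENNReal.ofReal_mul (Real.rpow_nonneg measureReal_nonneg _)]
  exact ENNReal.ofReal_le_ofReal hreal

end Vale.Agent.P227
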