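import Vale.Agent.P227.Defs
import Vale.Agent.P227.Final3

namespace Vale.Agent.P227

open Matrix MeasureTheory Filter Topology Set
open scoped RealInnerProductSpace Pointwise

variable {n : ℕ} {K L : Set (E n)}

theorem SymmBody.le_supp (hK : SymmBody K) {x : E n} (hx : x ∈ K) (u : E n) :
    ⟪x, u⟫ ≤ suppFn K u :=
  le_csSup (hK.1.bddAbove_image (by fun_prop)) (mem_image_of_mem (fun x => ⟪x, u⟫) hx)

theorem SymmBody.neg_mem (hK : SymmBody K) {x : E n} (hx : x ∈ K) : -x ∈ K := by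
  rw [hK.2.2.2]; simpa using hx

theorem SymmBody.abs_le_supp (hK : SymmBody K) {x : E n} (hx : x ∈ K) (u : E n) :
    |⟪x, u⟫| ≤ suppFn K u := by
  have h := hK.le_supp (hK.neg_mem hx) u
  rw [inner_neg_left] at h
  exact abs_le.mpr ⟨by linarith, hK.le_supp hx u⟩

theorem SymmBody.supp_lower (hK : SymmBody K) : ∃ r, 0 < r ∧ ∀ u : E n, ‖u‖ = 1 → r ≤ suppFn K u := by
  obtain ⟨p, hp⟩ := hK.2.2.1
  obtain ⟨ρ, hρ, hb⟩ := Metric.mem_nhds_iff.mp (mem_interior_iff_mem_nhds.mp hp)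
  refine ⟨ρ / 2, by positivity, fun u hu => ?_⟩
  have hn : ‖(ρ / 2) • u‖ < ρ := by
    rw [norm_smul, hu, Real.norm_of_nonneg (by positivity)]; linarith
  have h1 : p + (ρ / 2) • u ∈ K := hb (by simpa using hn)
  have h2 : p - (ρ / 2) • u ∈ K := hb (by simpa using hn)
  have h3 := hK.le_supp h1 u
  have h4 := hK.le_supp (hK.neg_mem h2) u
  simp only [inner_add_left, inner_neg_left, inner_sub_left, real_inner_smul_left,
    real_inner_self_eq_norm_sq, hu] at h3 h4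
  linarith

theorem SymmBody.supp_continuous (hK : SymmBody K) : Continuous (suppFn K) :=
  hK.1.continuous_sSup (f := fun (u : E n) (x : E n) => ⟪x, u⟫) (by fun_prop)

theorem fn_cond {p q : ℝ} (hp : 0 < p) (hq : 0 < q) (s y : ℝ) :
    Real.exp (2 * (Real.log p - Real.log q) * s) * (1 / p ^ 2 * y) ≤ 1
      ↔ y ≤ (p ^ (1 - s) * q ^ s) ^ 2 := by
  have h : Real.exp (2 * (Real.log p - Real.log q) * s) * (1 / p ^ 2)
      = 1 / (p ^ (1 - s) * q ^ s) ^ 2 := by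
    have h2 : p ^ 2 = Real.exp (2 * Real.log p) := by
      rw [two_mul, Real.exp_add, Real.exp_log hp, pow_two]
    rw [Real.rpow_def_of_pos hp, Real.rpow_def_of_pos hq, h2, ← Real.exp_add, pow_two, ← Real.exp_add,
      one_div, one_div, ← Real.exp_neg, ← Real.exp_neg, ← Real.exp_add]
    congr 1; ring
  rw [← mul_assoc, h, one_div, inv_mul_le_iff₀ (by positivity), mul_one]

theorem qf_one (x : E n) : qf 1 x = ‖x‖ ^ 2 := by rw [qf, one_mulVec, fn_dot_self]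

theorem PD_one : PD (1 : Mat n) 1 := ⟨isSymm_one, fun v => by simp⟩

theorem fn_slab_form (u v : Fin n → ℝ) (δ : ℝ) :
    v ⬝ᵥ (vecMulVec u u + δ • (1 : Mat n)) *ᵥ v = (v ⬝ᵥ u) ^ 2 + δ * (v ⬝ᵥ v) := by
  rw [add_mulVec, smul_mulVec, dotProduct_add, dotProduct_smul, vecMulVec_mulVec, dotProduct_smul,
    dotProduct_comm u v, one_mulVec]
  simp only [smul_eq_mul, MulOpposite.smul_eq_mul_unop, MulOpposite.unop_op]
  ring

theorem qf_slab (u x : E n) (δ : ℝ) :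
    qf (vecMulVec u.ofLp u.ofLp + δ • (1 : Mat n)) x = ⟪x, u⟫ ^ 2 + δ * ‖x‖ ^ 2 := by
  rw [qf, fn_slab_form, fn_dot_self, EuclideanSpace.inner_eq_star_dotProduct, star_trivial,
    dotProduct_comm u.ofLp]

theorem PD_slab (u : Fin n → ℝ) (δ : ℝ) : PD (vecMulVec u u + δ • (1 : Mat n)) δ := by
  refine ⟨IsSymm.add ?_ (isSymm_one.smul δ), fun v => ?_⟩
  · ext i j; simp [vecMulVec_apply, mul_comm]
  · rw [fn_slab_form]; nlinarith [sq_nonneg (v ⬝ᵥ u)]

theorem fn_finite (hK : SymmBody K) (hL : SymmBody L) {t : ℝ} (h0 : 0 ≤ t) (h1 : t ≤ 1)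
    {R : ℝ} (hR : 0 < R) (hKR : K ⊆ Metric.closedBall 0 R) (hLR : L ⊆ Metric.closedBall 0 R)
    {ρ : ℝ} (hρ0 : 0 < ρ) (hρ : ρ < 1) {ι : Type} [Fintype ι] (u : ι → E n) (hu : ∀ i, ‖u i‖ = 1) :
    volume (ρ • K) ^ (1 - t) * volume (ρ • L) ^ t ≤ volume (Metric.closedBall (0 : E n) R ∩
      ⋂ i, {x | ⟪x, u i⟫ ≤ suppFn K (u i) ^ (1 - t) * suppFn L (u i) ^ t}) := by
  obtain ⟨rK, hrK, hK1⟩ := hK.supp_lower
  obtain ⟨rL, hrL, hL1⟩ := hL.supp_lower
  have hr : 0 < min rK rL := lt_min hrK hrL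
  have hρ2 : 0 < 1 - ρ ^ 2 := by nlinarith
  obtain ⟨δ, hδ, hδR⟩ : ∃ δ : ℝ, 0 < δ ∧ δ * R ^ 2 = (1 - ρ ^ 2) * min rK rL ^ 2 :=
    ⟨(1 - ρ ^ 2) * min rK rL ^ 2 / R ^ 2, by positivity, by field_simp⟩
  have pK : ∀ i, 0 < suppFn K (u i) := fun i => hrK.trans_le (hK1 _ (hu i))
  have pL : ∀ i, 0 < suppFn L (u i) := fun i => hrL.trans_le (hL1 _ (hu i))
  obtain ⟨Q, hQ0, hQ1⟩ : ∃ Q : Option ι → Mat n, Q none = (1 / R ^ 2) • (1 : Mat n) ∧
      ∀ i, Q (some i) = (1 / suppFn K (u i) ^ 2) •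
        (vecMulVec (u i).ofLp (u i).ofLp + δ • (1 : Mat n)) :=
    ⟨fun k => k.elim _ fun i => (1 / suppFn K (u i) ^ 2) •
      (vecMulVec (u i).ofLp (u i).ofLp + δ • (1 : Mat n)), rfl, fun _ => rfl⟩
  obtain ⟨a, ha0, ha1⟩ : ∃ a : Option ι → ℝ, a none = 0 ∧
      ∀ i, a (some i) = Real.log (suppFn K (u i)) - Real.log (suppFn L (u i)) :=
    ⟨fun k => k.elim _ fun i => Real.log (suppFn K (u i)) - Real.log (suppFn L (u i)), rfl,
      fun _ => rfl⟩
  obtain ⟨l, hl, hQ⟩ : ∃ l, 0 < l ∧ ∀ k, PD (Q k) l := by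
    have : ∀ k, ∃ l, 0 < l ∧ PD (Q k) l := by
      rintro (_ | i)
      · exact ⟨_, by positivity, hQ0 ▸ PD_one.smul (c := 1 / R ^ 2) (by positivity)⟩
      · have := pK i
        exact ⟨_, by positivity, hQ1 i ▸ (PD_slab (u i).ofLp δ).smul
          (c := 1 / suppFn K (u i) ^ 2) (by positivity)⟩
    choose l hl hP using this
    obtain ⟨k0, hk0⟩ := Finite.exists_min l
    refine ⟨l k0, hl k0, fun k => ⟨(hP k).1, fun v => le_trans ?_ ((hP k).2 v)⟩⟩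
    exact mul_le_mul_of_nonneg_right (hk0 k) (by simpa using dotProduct_star_self_nonneg v)
  have hmem : ∀ s x, (∀ k, Real.exp (2 * a k * s) * qf (Q k) x ≤ 1) ↔ ‖x‖ ≤ R ∧
      ∀ i, ⟪x, u i⟫ ^ 2 + δ * ‖x‖ ^ 2 ≤ (suppFn K (u i) ^ (1 - s) * suppFn L (u i) ^ s) ^ 2 := by
    intro s x
    rw [Option.forall, ha0, hQ0, qf_smul, qf_one]
    refine and_congr ?_ (forall_congr' fun i => ?_)
    · rw [mul_zero, zero_mul, Real.exp_zero, one_mul, one_div, inv_mul_le_iff₀ (by positivity),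
        mul_one, sq_le_sq₀ (norm_nonneg _) hR.le]
    · rw [ha1, hQ1, qf_smul, qf_slab, fn_cond (pK i) (pL i)]
  have hin : ∀ {M : Set (E n)}, SymmBody M → M ⊆ Metric.closedBall 0 R → ∀ x ∈ ρ • M, ‖x‖ ≤ R ∧
      ∀ i, min rK rL ≤ suppFn M (u i) → ⟪x, u i⟫ ^ 2 + δ * ‖x‖ ^ 2 ≤ suppFn M (u i) ^ 2 := by
    rintro M hM hMR _ ⟨y, hy, rfl⟩
    have hy1 : ‖y‖ ≤ R := mem_closedBall_zero_iff.mp (hMR hy)
    have hy2 : ‖ρ • y‖ ≤ R := by
      rw [norm_smul, Real.norm_of_nonneg hρ0.le]; nlinarith [norm_nonneg y]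
    refine ⟨hy2, fun i hi => ?_⟩
    have h2 : ⟪y, u i⟫ ^ 2 ≤ suppFn M (u i) ^ 2 :=
      sq_le_sq' (abs_le.mp (hM.abs_le_supp hy (u i))).1 (abs_le.mp (hM.abs_le_supp hy (u i))).2
    have h3 : δ * ‖ρ • y‖ ^ 2 ≤ δ * R ^ 2 :=
      mul_le_mul_of_nonneg_left (pow_le_pow_left₀ (norm_nonneg _) hy2 2) hδ.le
    have h4 := mul_le_mul_of_nonneg_left (pow_le_pow_left₀ hr.le hi 2) hρ2.le
    have h5 := mul_le_mul_of_nonneg_left h2 (sq_nonneg ρ)
    simp only [real_inner_smul_left, mul_pow]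
    linarith
  refine le_trans ?_ ((fn_ellipsoids none hQ hl a h0 h1).trans (measure_mono fun x hx => ?_))
  · refine mul_le_mul' (ENNReal.rpow_le_rpow (measure_mono fun x hx => ?_) (by linarith))
      (ENNReal.rpow_le_rpow (measure_mono fun x hx => ?_) h0)
    · refine (hmem 0 x).mpr ⟨(hin hK hKR x hx).1, fun i => ?_⟩
      simpa using (hin hK hKR x hx).2 i ((min_le_left _ _).trans (hK1 _ (hu i)))
    · refine (hmem 1 x).mpr ⟨(hin hL hLR x hx).1, fun i => ?_⟩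
      simpa using (hin hL hLR x hx).2 i ((min_le_right _ _).trans (hL1 _ (hu i)))
  · obtain ⟨h2, h3⟩ := (hmem t x).mp hx
    refine ⟨mem_closedBall_zero_iff.mpr h2, mem_iInter.mpr fun i => ?_⟩
    have := pK i
    have := pL i
    have h4 : 0 ≤ suppFn K (u i) ^ (1 - t) * suppFn L (u i) ^ t := by positivity
    refine (le_abs_self _).trans (abs_le_of_sq_le_sq ?_ h4)
    nlinarith [h3 i, sq_nonneg ‖x‖]

theorem logBM (n : ℕ) (K L : Set (EuclideanSpace ℝ (Fin n))) (hK : SymmBody K) (hL : SymmBody L)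
    (t : ℝ) (h0 : 0 ≤ t) (h1 : t ≤ 1) :
    volume K ^ (1 - t) * volume L ^ t ≤
      volume (wulff fun u => suppFn K u ^ (1 - t) * suppFn L u ^ t) := by
  obtain ⟨R, hR, hKL⟩ := (hK.1.union hL.1).isBounded.subset_closedBall_lt 0 (0 : E n)
  obtain ⟨D, hDc, hD⟩ := TopologicalSpace.exists_countable_dense (Metric.sphere (0 : E n) 1)
  have : Countable D := hDc.to_subtype
  obtain ⟨f, hf⟩ : ∃ f : E n → ℝ, f = fun u => suppFn K u ^ (1 - t) * suppFn L u ^ t := ⟨_, rfl⟩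
  have hfc : Continuous f := hf ▸
    (hK.supp_continuous.rpow_const fun _ => Or.inr (by linarith)).mul
      (hL.supp_continuous.rpow_const fun _ => Or.inr h0)
  obtain ⟨W, hW⟩ : ∃ W : Finset D → Set (E n), ∀ S, W S = Metric.closedBall (0 : E n) R ∩
      ⋂ i : S, {x | ⟪x, i.1.1.1⟫ ≤ f i.1.1.1} := ⟨_, fun _ => rfl⟩
  have hanti : Antitone W := by
    intro S T hST x hx
    rw [hW] at hx ⊢
    exact ⟨hx.1, mem_iInter.mpr fun i => mem_iInter.mp hx.2 ⟨i.1, hST i.2⟩⟩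
  have hmeas : ∀ S, NullMeasurableSet (W S) volume := fun S => by
    rw [hW]
    exact (Metric.isClosed_closedBall.inter (isClosed_iInter fun i =>
      isClosed_le (by fun_prop) continuous_const)).measurableSet.nullMeasurableSet
  have hsub : ⋂ S, W S ⊆ wulff f := by
    intro x hx u hu
    have h2 : ∀ v ∈ D, ⟪x, v.1⟫ ≤ f v.1 := fun v hv => by
      have := mem_iInter.mp hx {⟨v, hv⟩}
      rw [hW] at this
      exact mem_iInter.mp this.2 ⟨⟨v, hv⟩, Finset.mem_singleton_self _⟩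
    exact hD.induction (P := fun v => ⟪x, v.1⟫ ≤ f v.1) h2
      (isClosed_le (by fun_prop) (hfc.comp continuous_subtype_val)) ⟨u, by simpa using hu⟩
  have hmain : ∀ ρ ∈ Ioo (0 : ℝ) 1, ENNReal.ofReal (ρ ^ n) * (volume K ^ (1 - t) * volume L ^ t)
      ≤ volume (wulff f) := by
    intro ρ hρ
    refine le_trans ?_ (measure_mono hsub)
    rw [hanti.measure_iInter hmeas ⟨∅, ne_top_of_le_ne_top
      (measure_closedBall_lt_top (x := (0 : E n)) (r := R)).ne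
      (measure_mono (hW ∅ ▸ inter_subset_left))⟩]
    refine le_iInf fun S => ?_
    have h2 := fn_finite hK hL h0 h1 hR (subset_union_left.trans hKL)
      (subset_union_right.trans hKL) hρ.1 hρ.2 (fun i : S => i.1.1.1) fun i => by simp
    rw [Measure.addHaar_smul_of_nonneg _ hρ.1.le, Measure.addHaar_smul_of_nonneg _ hρ.1.le,
      ENNReal.mul_rpow_of_nonneg _ _ (by linarith : 0 ≤ 1 - t), ENNReal.mul_rpow_of_nonneg _ _ h0,
      mul_mul_mul_comm, ← ENNReal.rpow_add_of_nonneg _ _ (by linarith) h0, sub_add_cancel,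
      ENNReal.rpow_one, finrank_euclideanSpace_fin] at h2
    rw [hW, hf]
    exact h2
  have hlim : Tendsto (fun ρ : ℝ => ENNReal.ofReal (ρ ^ n)) (𝓝[<] 1) (𝓝 1) := by
    have : Continuous fun ρ : ℝ => ENNReal.ofReal (ρ ^ n) :=
      ENNReal.continuous_ofReal.comp (continuous_pow n)
    simpa using (this.tendsto 1).mono_left nhdsWithin_le_nhds
  have h3 := le_of_tendsto (ENNReal.Tendsto.mul_const hlim (Or.inl one_ne_zero))
    (mem_of_superset (Ioo_mem_nhdsLT zero_lt_one) hmain)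
  rw [one_mul, hf] at h3
  exact h3

end Vale.Agent.P227
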