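import Vale.Agent.P227.Smooth

/-! Log-concavity of a parametric integral from the variance inequality, and the profile. -/

namespace Vale.Agent.P227

open Matrix MeasureTheory Filter Topology Set

variable {n : ℕ}

theorem fn_gauss {c : ℝ} (hc : 0 < c) (C : ℝ) (k : ℕ) :
    Integrable fun x : E n => C * (1 + ‖x‖) ^ k * Real.exp (-(c * ‖x‖ ^ 2)) := by
  refine PG.integrable (U := fun x : E n => c * ‖x‖ ^ 2) (b := 0) hc (by fun_prop)
    (fun x => by simp) (by fun_prop) ⟨|C|, k, fun x => ?_⟩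
  rw [abs_mul, abs_of_nonneg (by positivity : (0 : ℝ) ≤ (1 + ‖x‖) ^ k)]

theorem fn_deriv {F F' : ℝ → E n → ℝ} {c C : ℝ} {k : ℕ} (hc : 0 < c)
    (hF : ∀ s, Continuous (F s)) (hF' : ∀ s, Continuous (F' s))
    (hd : ∀ s x, HasDerivAt (fun s => F s x) (F' s x) s)
    (hb : ∀ s ∈ Ioo (-2 : ℝ) 2, ∀ x, |F s x| ≤ C * (1 + ‖x‖) ^ k * Real.exp (-(c * ‖x‖ ^ 2)))
    (hb' : ∀ s ∈ Ioo (-2 : ℝ) 2, ∀ x, |F' s x| ≤ C * (1 + ‖x‖) ^ k * Real.exp (-(c * ‖x‖ ^ 2)))
    {s : ℝ} (hs : s ∈ Ioo (-2 : ℝ) 2) :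
    HasDerivAt (fun s => ∫ x, F s x) (∫ x, F' s x) s := by
  refine (hasDerivAt_integral_of_dominated_loc_of_deriv_le (isOpen_Ioo.mem_nhds hs)
    (Eventually.of_forall fun s => (hF s).aestronglyMeasurable) ?_ (hF' s).aestronglyMeasurable
    (Eventually.of_forall fun x s hs => hb' s hs x) (fn_gauss hc C k)
    (Eventually.of_forall fun x s _ => hd s x)).2
  exact (fn_gauss hc C k).mono' (hF s).aestronglyMeasurable
    (Eventually.of_forall fun x => hb s hs x)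

theorem fn_logconc {g g1 g2 : ℝ → E n → ℝ} {c C : ℝ} (hc : 0 < c) (hC : 1 ≤ C)
    (hg : ∀ s, Continuous (g s)) (hg1 : ∀ s, Continuous (g1 s)) (hg2 : ∀ s, Continuous (g2 s))
    (hd : ∀ s x, HasDerivAt (fun s => g s x) (g1 s x) s)
    (hd1 : ∀ s x, HasDerivAt (fun s => g1 s x) (g2 s x) s)
    (hb : ∀ s ∈ Ioo (-2 : ℝ) 2, ∀ x, c * ‖x‖ ^ 2 ≤ g s x)
    (hb1 : ∀ s ∈ Ioo (-2 : ℝ) 2, ∀ x, |g1 s x| ≤ C * (1 + ‖x‖) ^ 2)
    (hb2 : ∀ s ∈ Ioo (-2 : ℝ) 2, ∀ x, |g2 s x| ≤ C * (1 + ‖x‖) ^ 4)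
    (hvar : ∀ s, (∫ x, g1 s x ^ 2 * Real.exp (-g s x)) * (∫ x, Real.exp (-g s x))
      - (∫ x, g1 s x * Real.exp (-g s x)) ^ 2
        ≤ (∫ x, Real.exp (-g s x)) * ∫ x, g2 s x * Real.exp (-g s x))
    {t : ℝ} (h0 : 0 ≤ t) (h1 : t ≤ 1) :
    (∫ x, Real.exp (-g 0 x)) ^ (1 - t) * (∫ x, Real.exp (-g 1 x)) ^ t
      ≤ ∫ x, Real.exp (-g t x) := by
  have key : ∀ (p : ℝ → E n → ℝ), (∀ s ∈ Ioo (-2 : ℝ) 2, ∀ x, |p s x| ≤ 2 * C ^ 2 * (1 + ‖x‖) ^ 4) →
      ∀ s ∈ Ioo (-2 : ℝ) 2, ∀ x, |p s x * Real.exp (-g s x)|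
        ≤ 2 * C ^ 2 * (1 + ‖x‖) ^ 4 * Real.exp (-(c * ‖x‖ ^ 2)) := by
    intro p hp s hs x
    rw [abs_mul, abs_of_pos (Real.exp_pos _)]
    exact mul_le_mul (hp s hs x) (Real.exp_le_exp.mpr (neg_le_neg (hb s hs x)))
      (Real.exp_pos _).le (by positivity)
  have hC2 : C ≤ C ^ 2 := by nlinarith
  have hy : ∀ x : E n, 1 ≤ (1 + ‖x‖) ^ 2 := fun x => one_le_pow₀ (by simp)
  have hy4 : ∀ x : E n, (1 + ‖x‖) ^ 4 = (1 + ‖x‖) ^ 2 * (1 + ‖x‖) ^ 2 := fun x => by ring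
  have b0 := key (fun _ _ => 1) fun s hs x => by
    have := hy x
    rw [abs_one, hy4]; nlinarith [mul_le_mul (hy x) (hy x) zero_le_one (by positivity)]
  have b1 := key (fun s x => -g1 s x) fun s hs x => by
    have := hy x
    have h2 := hb1 s hs x
    have h3 : (1 + ‖x‖) ^ 2 ≤ (1 + ‖x‖) ^ 4 := by rw [hy4]; nlinarith
    have h4 : C * (1 + ‖x‖) ^ 2 ≤ C ^ 2 * (1 + ‖x‖) ^ 4 :=
      mul_le_mul hC2 h3 (by positivity) (by positivity)
    have h5 : 0 ≤ C ^ 2 * (1 + ‖x‖) ^ 4 := by positivity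
    rw [abs_neg]; linarith
  have bsq : ∀ s ∈ Ioo (-2 : ℝ) 2, ∀ x, |g1 s x ^ 2| ≤ C ^ 2 * (1 + ‖x‖) ^ 4 := by
    intro s hs x
    rw [abs_pow]
    calc |g1 s x| ^ 2 ≤ (C * (1 + ‖x‖) ^ 2) ^ 2 := pow_le_pow_left₀ (abs_nonneg _) (hb1 s hs x) 2
      _ = _ := by ring
  have bg2 : ∀ s ∈ Ioo (-2 : ℝ) 2, ∀ x, |g2 s x| ≤ C ^ 2 * (1 + ‖x‖) ^ 4 := fun s hs x =>
    (hb2 s hs x).trans (mul_le_mul_of_nonneg_right hC2 (by positivity))
  have b2 := key (fun s x => g1 s x ^ 2 - g2 s x) fun s hs x => by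
    have := abs_sub (g1 s x ^ 2) (g2 s x)
    linarith [bsq s hs x, bg2 s hs x]
  have b3 := key (fun s x => g1 s x ^ 2) fun s hs x => by
    have h5 : 0 ≤ C ^ 2 * (1 + ‖x‖) ^ 4 := by positivity
    linarith [bsq s hs x]
  have b4 := key g2 fun s hs x => by
    have h5 : 0 ≤ C ^ 2 * (1 + ‖x‖) ^ 4 := by positivity
    linarith [bg2 s hs x]
  simp only [one_mul] at b0
  have ce : ∀ s, Continuous fun x => Real.exp (-g s x) := fun s => by
    have := hg s; fun_prop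
  have D0 : ∀ s ∈ Ioo (-2 : ℝ) 2, HasDerivAt (fun s => ∫ x, Real.exp (-g s x))
      (∫ x, -g1 s x * Real.exp (-g s x)) s := fun s hs =>
    fn_deriv hc ce (fun s => (hg1 s).neg.mul (ce s))
      (fun s x => by simpa [mul_comm] using (hd s x).neg.exp) b0 b1 hs
  have D1 : ∀ s ∈ Ioo (-2 : ℝ) 2, HasDerivAt (fun s => ∫ x, -g1 s x * Real.exp (-g s x))
      (∫ x, (g1 s x ^ 2 - g2 s x) * Real.exp (-g s x)) s := fun s hs =>
    fn_deriv hc (fun s => (hg1 s).neg.mul (ce s))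
      (fun s => (((hg1 s).pow 2).sub (hg2 s)).mul (ce s))
      (fun s x => ((hd1 s x).neg.mul (hd s x).neg.exp).congr_deriv (by simp; ring)) b1 b2 hs
  have P0 : ∀ s ∈ Ioo (-2 : ℝ) 2, 0 < ∫ x, Real.exp (-g s x) := fun s hs =>
    integral_exp_pos ((fn_gauss hc _ 4).mono' (ce s).aestronglyMeasurable
      (Eventually.of_forall fun x => b0 s hs x))
  have V : ∀ s ∈ Ioo (-2 : ℝ) 2, (∫ x, (g1 s x ^ 2 - g2 s x) * Real.exp (-g s x))
      * (∫ x, Real.exp (-g s x)) - (∫ x, -g1 s x * Real.exp (-g s x))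
        * (∫ x, -g1 s x * Real.exp (-g s x)) ≤ 0 := by
    intro s hs
    have i3 : Integrable fun x => g1 s x ^ 2 * Real.exp (-g s x) :=
      (fn_gauss hc _ 4).mono' (((hg1 s).pow 2).mul (ce s)).aestronglyMeasurable
        (Eventually.of_forall fun x => b3 s hs x)
    have i4 : Integrable fun x => g2 s x * Real.exp (-g s x) :=
      (fn_gauss hc _ 4).mono' ((hg2 s).mul (ce s)).aestronglyMeasurable
        (Eventually.of_forall fun x => b4 s hs x)
    simp only [sub_mul, neg_mul, integral_neg]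
    rw [integral_sub i3 i4]
    nlinarith [hvar s]
  have hio : interior (Ioo (-2 : ℝ) 2) = Ioo (-2) 2 := interior_Ioo
  have hcon : ConcaveOn ℝ (Ioo (-2 : ℝ) 2) fun s => Real.log (∫ x, Real.exp (-g s x)) := by
    refine concaveOn_of_hasDerivWithinAt2_nonpos (convex_Ioo _ _)
      (f' := fun s => (∫ x, -g1 s x * Real.exp (-g s x)) / ∫ x, Real.exp (-g s x))
      (f'' := fun s => ((∫ x, (g1 s x ^ 2 - g2 s x) * Real.exp (-g s x))
        * (∫ x, Real.exp (-g s x)) - (∫ x, -g1 s x * Real.exp (-g s x))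
        * (∫ x, -g1 s x * Real.exp (-g s x))) / (∫ x, Real.exp (-g s x)) ^ 2)
      (fun s hs => ((D0 s hs).log (P0 s hs).ne').continuousAt.continuousWithinAt) ?_ ?_ ?_
    · rw [hio]; exact fun s hs => ((D0 s hs).log (P0 s hs).ne').hasDerivWithinAt
    · rw [hio]; exact fun s hs => ((D1 s hs).div (D0 s hs) (P0 s hs).ne').hasDerivWithinAt
    · rw [hio]; exact fun s hs => div_nonpos_of_nonpos_of_nonneg (V s hs) (sq_nonneg _)
  have m0 : (0 : ℝ) ∈ Ioo (-2 : ℝ) 2 := by constructor <;> norm_num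
  have m1 : (1 : ℝ) ∈ Ioo (-2 : ℝ) 2 := by constructor <;> norm_num
  have mt : t ∈ Ioo (-2 : ℝ) 2 := by constructor <;> linarith
  have h := hcon.2 m0 m1 (by linarith : 0 ≤ 1 - t) h0 (by ring)
  simp only [smul_eq_mul, mul_zero, mul_one, zero_add] at h
  rw [Real.rpow_def_of_pos (P0 0 m0), Real.rpow_def_of_pos (P0 1 m1), ← Real.exp_add,
    ← Real.exp_log (P0 t mt)]
  exact Real.exp_le_exp.mpr (by linarith)

/-- the convex profile -/
noncomputable def fnv (r : ℝ) : ℝ := ∫ s in (0 : ℝ)..r, Real.smoothTransition (s - 1)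

theorem fnv_deriv (r : ℝ) : HasDerivAt fnv (Real.smoothTransition (r - 1)) r :=
  ((Real.smoothTransition.continuous.comp (continuous_id.sub continuous_const)).integral_hasStrictDerivAt
    0 r).hasDerivAt

theorem fnv_zero {r : ℝ} (h0 : 0 ≤ r) (h : r ≤ 1) : fnv r = 0 := by
  rw [fnv, intervalIntegral.integral_congr (g := fun _ => (0 : ℝ))]
  · simp
  · intro s hs
    rw [uIcc_of_le h0] at hs
    exact Real.smoothTransition.zero_of_nonpos (by linarith [hs.2])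

theorem fnv_mono : Monotone fnv :=
  monotone_of_hasDerivAt_nonneg fnv_deriv fun _ => Real.smoothTransition.nonneg _

theorem fnv_nonneg {r : ℝ} (h : 0 ≤ r) : 0 ≤ fnv r := by
  have := fnv_mono h
  rwa [fnv_zero le_rfl zero_le_one] at this

theorem fnv_pos {r : ℝ} (h : 1 < r) : 0 < fnv r := by
  obtain ⟨c, hc, he⟩ := exists_hasDerivAt_eq_slope fnv _ h
    (fun x _ => (fnv_deriv x).continuousAt.continuousWithinAt) fun x _ => fnv_deriv x
  have h2 := Real.smoothTransition.pos_of_pos (x := c - 1) (by linarith [hc.1])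
  rw [he, fnv_zero zero_le_one le_rfl, sub_zero] at h2
  exact (div_pos_iff_of_pos_right (by linarith)).mp h2

theorem fnv_lower {r : ℝ} (h : 0 ≤ r) : r - 2 ≤ fnv r := by
  rcases le_or_gt r 2 with h2 | h2
  · linarith [fnv_nonneg h]
  · obtain ⟨c, hc, he⟩ := exists_hasDerivAt_eq_slope fnv _ h2
      (fun x _ => (fnv_deriv x).continuousAt.continuousWithinAt) fun x _ => fnv_deriv x
    rw [Real.smoothTransition.one_of_one_le (by linarith [hc.1]), eq_div_iff (by linarith)] at he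
    linarith [fnv_nonneg (by norm_num : (0 : ℝ) ≤ 2)]

/-- admissible profiles with their first two derivatives -/
structure Prof (θ θ1 θ2 : ℝ → ℝ) (ε C : ℝ) : Prop where
  smooth : ContDiff ℝ ((⊤ : ℕ∞) : WithTop ℕ∞) θ
  d1 : ∀ r, HasDerivAt θ (θ1 r) r
  d2 : ∀ r, HasDerivAt θ1 (θ2 r) r
  c2 : Continuous θ2
  pos : 0 < ε
  low : ∀ r, ε ≤ θ1 r
  up : ∀ r, θ1 r ≤ C
  nn : ∀ r, 0 ≤ θ2 r
  up2 : ∀ r, θ2 r ≤ C
  far : ∀ r, 3 ≤ r → θ1 r = θ1 3 ∧ θ2 r = 0
  grow : ∀ r, 0 ≤ r → ε * r ≤ θ r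

theorem fn_prof {m : ℝ} (hm : 0 < m) : ∃ θ1 θ2 C, Prof (fun r => m * fnv r + r / m) θ1 θ2 (1 / m) C := by
  have hsm : ContDiff ℝ ((⊤ : ℕ∞) : WithTop ℕ∞) Real.smoothTransition :=
    Real.smoothTransition.contDiff
  have hdf : Differentiable ℝ Real.smoothTransition := hsm.differentiable (by simp)
  have hcd : Continuous (deriv Real.smoothTransition) := hsm.continuous_deriv (by simp)
  have hfar : ∀ r : ℝ, 1 < r → deriv Real.smoothTransition r = 0 := by
    intro r hr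
    have : Real.smoothTransition =ᶠ[𝓝 r] fun _ => 1 := by
      filter_upwards [Ioi_mem_nhds hr] with s hs using Real.smoothTransition.one_of_one_le hs.le
    rw [this.deriv_eq, deriv_const]
  have hneg : ∀ r : ℝ, r < 0 → deriv Real.smoothTransition r = 0 := by
    intro r hr
    have : Real.smoothTransition =ᶠ[𝓝 r] fun _ => 0 := by
      filter_upwards [Iio_mem_nhds hr] with s hs using Real.smoothTransition.zero_of_nonpos hs.le
    rw [this.deriv_eq, deriv_const]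
  obtain ⟨B, hB⟩ := (isCompact_Icc (a := (0 : ℝ)) (b := 1)).bddAbove_image hcd.continuousOn
  have hB' : ∀ r, deriv Real.smoothTransition r ≤ |B| := by
    intro r
    rcases lt_or_ge r 0 with h | h
    · rw [hneg r h]; exact abs_nonneg B
    rcases le_or_gt r 1 with h' | h'
    · exact (hB (mem_image_of_mem _ ⟨h, h'⟩)).trans (le_abs_self B)
    · rw [hfar r h']; exact abs_nonneg B
  have hv : ContDiff ℝ ((⊤ : ℕ∞) : WithTop ℕ∞) fnv := by
    refine contDiff_infty_iff_deriv.mpr ⟨fun r => (fnv_deriv r).differentiableAt, ?_⟩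
    have : deriv fnv = fun r => Real.smoothTransition (r - 1) := funext fun r => (fnv_deriv r).deriv
    rw [this]
    exact hsm.comp (contDiff_id.sub contDiff_const)
  refine ⟨fun r => m * Real.smoothTransition (r - 1) + 1 / m,
    fun r => m * deriv Real.smoothTransition (r - 1), m + 1 / m + m * |B|, ?_, ?_, ?_, ?_, ?_, ?_,
    ?_, ?_, ?_, ?_, ?_⟩
  · exact (contDiff_const.mul hv).add (contDiff_id.div_const m)
  · exact fun r => ((fnv_deriv r).const_mul m).add ((hasDerivAt_id r).div_const m)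
  · intro r
    have := (((hdf (r - 1)).hasDerivAt.comp_sub_const r 1).const_mul m).add_const (1 / m)
    exact this
  · fun_prop
  · positivity
  · intro r
    have := mul_nonneg hm.le (Real.smoothTransition.nonneg (r - 1))
    linarith
  · intro r
    have := mul_le_mul_of_nonneg_left (Real.smoothTransition.le_one (r - 1)) hm.le
    have h2 : 0 ≤ m * |B| := by positivity
    linarith
  · exact fun r => mul_nonneg hm.le Real.smoothTransition.monotone.deriv_nonneg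
  · intro r
    have := mul_le_mul_of_nonneg_left (hB' (r - 1)) hm.le
    have h2 : 0 ≤ 1 / m := by positivity
    linarith
  · intro r hr
    rw [Real.smoothTransition.one_of_one_le (by linarith), Real.smoothTransition.one_of_one_le
      (by norm_num), hfar _ (by linarith), mul_zero]
    exact ⟨rfl, rfl⟩
  · intro r hr
    have := mul_nonneg hm.le (fnv_nonneg hr)
    have h2 : 1 / m * r = r / m := by ring
    linarith

end Vale.Agent.P227
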