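import Vale.Agent.P227.Nonlin

namespace Vale.Agent.P227

open Matrix MeasureTheory

variable {n : ℕ}

/-- twice differentiable with smooth bounded Hessian -/
def Reg (w : E n → ℝ) : Prop := C2 w ∧ ∀ k i j, Hk k fun x => hs w x i j

theorem Reg.add {w u : E n → ℝ} (hw : Reg w) (hu : Reg u) : Reg fun x => w x + u x :=
  ⟨hw.1.add hu.1, fun k i j => by rw [hs_add hw.1 hu.1]; exact (hw.2 k i j).add (hu.2 k i j)⟩

theorem Reg.const_mul {w : E n → ℝ} (hw : Reg w) (a : ℝ) : Reg fun x => a * w x :=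
  ⟨hw.1.const_mul a, fun k i j => by rw [hs_const_mul]; exact (hw.2 k i j).const_mul a⟩

theorem Reg.const (a : ℝ) : Reg fun _ : E n => a :=
  ⟨C2.const a, fun k i j => by rw [hs_const]; exact Hk.const k _⟩

theorem Reg.sum {ι : Type} (s : Finset ι) {F : ι → E n → ℝ} (h : ∀ i ∈ s, Reg (F i)) :
    Reg fun x => ∑ i ∈ s, F i x := by
  classical
  induction s using Finset.induction_on with
  | empty => simpa using Reg.const 0
  | insert a s ha ih =>
    simp only [Finset.sum_insert ha]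
    exact (h a (Finset.mem_insert_self _ _)).add
      (ih fun i hi => h i (Finset.mem_insert_of_mem hi))

theorem Reg.yn {w : E n → ℝ} (hw : Reg w) : ∃ N, Yn w N := by
  obtain ⟨K, hK0, hK⟩ := exists_HM fun i j => (hw.2 0 i j).hn
  exact ⟨_, hw.1.yn hK0 fun x i j => (hK i j).1 x⟩

theorem Reg.solve {A : E n → Mat n} {c κ : ℝ} {g : E n → ℝ} (hc : 0 < c) (hA : Ell A c)
    (hk : ∀ k i j, Hk k fun x => A x i j) (hS : Solv A κ) (hg : Reg g) (eg : Ev g) :
    ∃ w b, Reg w ∧ Ev w ∧ ∀ x, Lop A κ w x = g x + b := by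
  obtain ⟨N, hN⟩ := hg.yn
  obtain ⟨w, M, b, hX, he⟩ := hS g N hN eg
  have h1 := hg.add (Reg.const b)
  exact ⟨w, b, ⟨hX.1, fun k => reg_lin k hc hA (hk k) (Mk.of_hs h1.1 h1.2 k) hX.1
    ⟨M, hX.2.2.2⟩ he⟩, hX.2.1, he⟩

theorem hs_sum {ι : Type} [Fintype ι] {V : ι → E n → ℝ} (hV : ∀ k, C2 (V k)) (x : E n) :
    hs (fun x => ∑ k, V k x) x = ∑ k, hs (V k) x := by
  ext i j
  simp only [hs, of_apply, Matrix.sum_apply]
  rw [pd_sum _ fun k _ => (hV k).1, pd_sum _ fun k _ => (hV k).2 j]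

theorem var_ineq {ι : Type} [Fintype ι] (V : ι → E n → ℝ) (a : ι → ℝ) (hV : ∀ k, Good (V k))
    {c : ℝ} (hc : 0 < c)
    (hU : ∀ x (v : Fin n → ℝ), c * (v ⬝ᵥ v) ≤ ∑ k, v ⬝ᵥ hs (V k) x *ᵥ v) :
    (∫ x, (∑ k, a k * eu (V k) x) ^ 2 * Real.exp (-∑ k, V k x)) * (∫ x, Real.exp (-∑ k, V k x))
        - (∫ x, (∑ k, a k * eu (V k) x) * Real.exp (-∑ k, V k x)) ^ 2
      ≤ (∫ x, Real.exp (-∑ k, V k x)) *
        ∫ x, (∑ k, a k ^ 2 * (x.ofLp ⬝ᵥ hs (V k) x *ᵥ x.ofLp + eu (V k) x))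
          * Real.exp (-∑ k, V k x) := by
  have hG : Good fun x => ∑ k, V k x := Good.sum _ fun k _ => hV k
  have hE : Ell (hs fun x => ∑ k, V k x) c := fun x => ⟨hG.c2.hs_symm x, fun v => by
    rw [hs_sum fun k => (hV k).c2, Matrix.sum_mulVec, dotProduct_sum]
    exact hU x v⟩
  obtain ⟨ψ, hψ⟩ := exists_sol hG hc hE
  obtain ⟨hS0, hS1, -⟩ := hψ.solv hG hc hE
  obtain ⟨S, hd, hx, -, hUe, -, hev, hEx, hL⟩ := hψ.setup hG hc hE
  have hreg := reg_sol hG hψ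
  obtain ⟨⟨M, hX⟩, ⟨c0, hc0, hE0⟩, -⟩ := hψ
  obtain ⟨c1, K, hc1, hE1, -⟩ := hE0.inv hc0 hX.2.2.2
  have hk := fun k => Hk.inv (k := k) hE0 hc0 (hreg k)
  have hf : Reg fun x => ∑ k, a k * eu (V k) x :=
    Reg.sum _ fun k _ => Reg.const_mul (hV k).eu (a k)
  obtain ⟨u, b1, hu, eu', he1⟩ := (hf.const_mul (-1)).solve hc1 hE1 hk hS0 fun x => by
    simp only [fun k => (hV k).2.1.eu_even x]
  obtain ⟨w, b2, hw, -, he2⟩ := hu.solve hc1 hE1 hk hS1 eu'
  have ext' : ∀ F G : Sc n, (∀ p, S.ev p F = S.ev p G) → F = G := fun F G h =>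
    Subtype.ext (funext fun p => by rw [← hev, ← hev]; exact h p)
  let Vs : ι → Sc n := fun k => ⟨V k, (hV k).sm⟩
  let us : Sc n := ⟨u, Sm.of_hs hu.1 hu.2⟩
  let ws : Sc n := ⟨w, Sm.of_hs hw.1 hw.2⟩
  have eD2 : ∀ p k i j, S.ev p (S.D2 (Vs k) i j) = hs (V k) p i j := fun p k i j => by
    rw [hev, Setup.D2, hd, hd]; rfl
  have ex : ∀ p i, S.ev p (S.x i) = p i := fun p i => by rw [hev, hx]
  have eeu : ∀ p k, S.ev p (S.eul (Vs k)) = eu (V k) p := fun p k => by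
    simp only [Setup.eul, map_sum, map_mul, ex, eu]
    simp only [hev, hd, Vs]
  set f : Sc n := ∑ k, a k • S.eul (Vs k) with hfd
  have ef : ∀ p, S.ev p f = ∑ k, a k * eu (V k) p := fun p => by
    simp only [hfd, map_sum, map_smul, smul_eq_mul, eeu]
  have hu' : S.L us = algebraMap ℝ (Sc n) b1 - f := ext' _ _ fun p => by
    rw [map_sub, ef, AlgHom.commutes, hev, hL, he1]
    simp only [Algebra.algebraMap_self, RingHom.id_apply]
    ring
  have hw' : S.L ws + ws = us + algebraMap ℝ (Sc n) b2 := ext' _ _ fun p => by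
    rw [map_add, map_add, AlgHom.commutes, hev, hev, hev, hL]
    have := he2 p
    simp only [Lop, Algebra.algebraMap_self, RingHom.id_apply, ws, us] at this ⊢
    linarith
  have h1 := S.var_ineq Vs a (fun i => ext' _ _ fun p => by
      rw [map_sum]
      simp only [hev, hd, hUe, Vs]
      rw [pd_sum _ fun k _ => (hV k).c2.1])
    (fun k p => by
      have e : (Matrix.of fun i j => S.ev p (S.D2 (Vs k) i j)) = hs (V k) p := by
        ext i j; exact eD2 p k i j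
      rw [e]
      exact PosSemidef.of_dotProduct_mulVec_nonneg
        (by simpa [Matrix.IsHermitian] using ((hV k).c2.hs_symm p).eq)
        fun v => by simpa using (hV k).2.2.1 p v)
    f us ws b1 b2 hfd hu' hw'
  have h2 := S.Ex_L us
  have e0 : S.Ex 1 = ∫ x, Real.exp (-∑ k, V k x) := by
    rw [hEx]
    exact integral_congr_ae (ae_of_all _ fun x => one_mul _)
  have e1 : S.Ex f = ∫ x, (∑ k, a k * eu (V k) x) * Real.exp (-∑ k, V k x) := by
    rw [hEx]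
    exact integral_congr_ae (ae_of_all _ fun x => by simp only [← hev, ef])
  have e2 : S.Ex (f ^ 2) = ∫ x, (∑ k, a k * eu (V k) x) ^ 2 * Real.exp (-∑ k, V k x) := by
    rw [hEx]
    exact integral_congr_ae (ae_of_all _ fun x => by simp only [← hev, map_pow, ef])
  have e3 : S.Ex (∑ k, a k ^ 2 • (∑ i, ∑ j, S.x i * S.D2 (Vs k) i j * S.x j + S.eul (Vs k))) =
      ∫ x, (∑ k, a k ^ 2 * (x.ofLp ⬝ᵥ hs (V k) x *ᵥ x.ofLp + eu (V k) x))
          * Real.exp (-∑ k, V k x) := by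
    rw [hEx]
    refine integral_congr_ae (ae_of_all _ fun x => ?_)
    simp only [← hev, map_sum, map_smul, map_add, map_mul, smul_eq_mul, ex, eD2, eeu, dotProduct,
      mulVec, Finset.mul_sum, mul_assoc]
  have hZ : 0 ≤ S.Ex 1 := S.pos 1 fun p => by simp
  have e4 : (f - algebraMap ℝ (Sc n) b1) ^ 2 = f ^ 2 - (2 * b1) • f + (b1 ^ 2) • (1 : Sc n) := by
    simp only [Algebra.smul_def, map_mul, map_pow, map_ofNat]
    ring
  rw [hu', Algebra.algebraMap_eq_smul_one, map_sub, map_smul, smul_eq_mul] at h2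
  rw [e4, map_add, map_sub, map_smul, map_smul, smul_eq_mul, smul_eq_mul] at h1
  rw [← e0, ← e1, ← e2, ← e3]
  have h3 : S.Ex f = b1 * S.Ex 1 := by linarith
  have h4 := mul_le_mul_of_nonneg_left h1 hZ
  rw [h3] at h4 ⊢
  linarith

end Vale.Agent.P227
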