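import Vale.Agent.P227.Final1
import Vale.Agent.P227.VarIneq

/-! Log-concavity of the volume of intersections of dilated ellipsoids. -/

namespace Vale.Agent.P227

open Matrix MeasureTheory Filter Topology Set

variable {n : ℕ}

/-- the quadratic form of a matrix -/
def qf (Q : Mat n) (x : E n) : ℝ := x.ofLp ⬝ᵥ Q *ᵥ x.ofLp

/-- symmetric and bounded below -/
def PD (Q : Mat n) (l : ℝ) : Prop := Q.IsSymm ∧ ∀ v : Fin n → ℝ, l * (v ⬝ᵥ v) ≤ v ⬝ᵥ Q *ᵥ v

variable {Q : Mat n} {l : ℝ} {θ θ1 θ2 : ℝ → ℝ} {ε C : ℝ}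

theorem fn_dot_self (x : E n) : x.ofLp ⬝ᵥ x.ofLp = ‖x‖ ^ 2 := by
  rw [EuclideanSpace.real_norm_sq_eq]; simp [dotProduct, pow_two]

theorem qf_smul (c : ℝ) (Q : Mat n) (x : E n) : qf (c • Q) x = c * qf Q x := by
  simp [qf, smul_mulVec]

theorem PD.smul (h : PD Q l) {c : ℝ} (hc : 0 ≤ c) : PD (c • Q) (c * l) :=
  ⟨h.1.smul c, fun v => by
    rw [smul_mulVec, dotProduct_smul, smul_eq_mul, mul_assoc]
    exact mul_le_mul_of_nonneg_left (h.2 v) hc⟩

theorem PD.lower (h : PD Q l) (x : E n) : l * ‖x‖ ^ 2 ≤ qf Q x := by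
  rw [← fn_dot_self]; exact h.2 _

theorem qf_eq (Q : Mat n) : qf Q = fun x => ∑ i, x i * ∑ j, Q i j * x j := rfl

theorem qf_contDiff (Q : Mat n) : ContDiff ℝ ((⊤ : ℕ∞) : WithTop ℕ∞) (qf Q) := by
  rw [qf_eq]; fun_prop

theorem qf_continuous (Q : Mat n) : Continuous (qf Q) := (qf_contDiff Q).continuous

theorem qf_upper (Q : Mat n) : ∃ A, 0 ≤ A ∧ ∀ x, qf Q x ≤ A * ‖x‖ ^ 2 := by
  refine ⟨∑ i, ∑ j, |Q i j|, by positivity, fun x => ?_⟩
  simp only [qf_eq, Finset.mul_sum, Finset.sum_mul]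
  refine Finset.sum_le_sum fun i _ => Finset.sum_le_sum fun j _ => (le_abs_self _).trans ?_
  rw [abs_mul, abs_mul]
  have := mul_le_mul (abs_coord_le x i) (abs_coord_le x j) (abs_nonneg _) (norm_nonneg _)
  nlinarith [abs_nonneg (Q i j)]

theorem fn_diff_lin (Q : Mat n) (i : Fin n) : Differentiable ℝ fun x : E n => (Q *ᵥ x.ofLp) i := by
  have : (fun x : E n => (Q *ᵥ x.ofLp) i) = fun x => ∑ j, Q i j * x j := rfl
  rw [this]; fun_prop

theorem pd_lin (Q : Mat n) (i j : Fin n) :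
    pd i (fun x : E n => (Q *ᵥ x.ofLp) j) = fun _ => Q j i := by
  have : (fun x : E n => (Q *ᵥ x.ofLp) j) = fun x => ∑ k, Q j k * x k := rfl
  rw [this, pd_sum _ (fun k _ => by fun_prop)]
  simp [pd_const_mul, pd_coord]

theorem pd_qf (h : Q.IsSymm) (i : Fin n) : pd i (qf Q) = fun x => 2 * (Q *ᵥ x.ofLp) i := by
  have : qf Q = fun x => ∑ k, x k * (Q *ᵥ x.ofLp) k := rfl
  rw [this, pd_sum _ (fun k _ => (differentiable_coord k).fun_mul (fn_diff_lin Q k))]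
  funext x
  simp only [pd_mul (differentiable_coord _) (fn_diff_lin Q _), pd_coord, pd_lin,
    Finset.sum_add_distrib, ite_mul, one_mul, zero_mul, Finset.sum_ite_eq, Finset.mem_univ, if_true]
  have : ∑ k, x k * Q k i = (Q *ᵥ x.ofLp) i :=
    Finset.sum_congr rfl fun k _ => by rw [h.apply i k, mul_comm]
  rw [this]; ring

theorem qf_diff (Q : Mat n) : Differentiable ℝ (qf Q) := (qf_contDiff Q).differentiable (by simp)

theorem Prof.pd_eq (P : Prof θ θ1 θ2 ε C) (h : Q.IsSymm) (i : Fin n) :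
    pd i (fun x => θ (qf Q x)) = fun x => θ1 (qf Q x) * (2 * (Q *ᵥ x.ofLp) i) := by
  rw [pd_comp (qf_diff Q) (fun x => P.d1 _), pd_qf h]

theorem Prof.hs_eq (P : Prof θ θ1 θ2 ε C) (h : Q.IsSymm) (x : E n) :
    hs (fun x => θ (qf Q x)) x = (4 * θ2 (qf Q x)) • vecMulVec (Q *ᵥ x.ofLp) (Q *ᵥ x.ofLp)
      + (2 * θ1 (qf Q x)) • Q := by
  ext i j
  have h1 : Differentiable ℝ fun x => θ1 (qf Q x) :=
    fun x => (P.d2 _).differentiableAt.comp x (qf_diff Q x)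
  simp only [hs, of_apply, P.pd_eq h]
  rw [pd_mul h1 ((fn_diff_lin Q j).const_mul 2), pd_comp (qf_diff Q) (fun x => P.d2 _), pd_qf h,
    pd_const_mul, pd_lin]
  simp only [Matrix.add_apply, Matrix.smul_apply, vecMulVec_apply, smul_eq_mul, h.apply i j]
  ring

theorem Prof.hs_form (P : Prof θ θ1 θ2 ε C) (h : Q.IsSymm) (x : E n) (v : Fin n → ℝ) :
    v ⬝ᵥ hs (fun x => θ (qf Q x)) x *ᵥ v
      = 4 * θ2 (qf Q x) * (v ⬝ᵥ Q *ᵥ x.ofLp) ^ 2 + 2 * θ1 (qf Q x) * (v ⬝ᵥ Q *ᵥ v) := by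
  rw [P.hs_eq h, add_mulVec, smul_mulVec, smul_mulVec, dotProduct_add, dotProduct_smul,
    dotProduct_smul, vecMulVec_mulVec, dotProduct_smul, dotProduct_comm (Q *ᵥ x.ofLp) v]
  simp only [smul_eq_mul, MulOpposite.smul_eq_mul_unop, MulOpposite.unop_op]
  ring

theorem Prof.eu_eq (P : Prof θ θ1 θ2 ε C) (h : Q.IsSymm) (x : E n) :
    eu (fun x => θ (qf Q x)) x = 2 * qf Q x * θ1 (qf Q x) := by
  have : qf Q x = ∑ k, x k * (Q *ᵥ x.ofLp) k := rfl
  simp only [eu, P.pd_eq h]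
  nth_rewrite 2 [this]
  simp only [Finset.mul_sum, Finset.sum_mul]
  exact Finset.sum_congr rfl fun k _ => by ring

theorem Prof.hs_lower (P : Prof θ θ1 θ2 ε C) (h : PD Q l) (hl : 0 ≤ l) (x : E n) (v : Fin n → ℝ) :
    2 * ε * l * (v ⬝ᵥ v) ≤ v ⬝ᵥ hs (fun x => θ (qf Q x)) x *ᵥ v := by
  rw [P.hs_form h.1]
  have h1 : 0 ≤ v ⬝ᵥ v := by simpa using dotProduct_star_self_nonneg v
  have h2 : ε * (l * (v ⬝ᵥ v)) ≤ θ1 (qf Q x) * (v ⬝ᵥ Q *ᵥ v) :=
    mul_le_mul (P.low _) (h.2 v) (by positivity) (P.pos.le.trans (P.low _))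
  have h3 : 0 ≤ θ2 (qf Q x) * (v ⬝ᵥ Q *ᵥ x.ofLp) ^ 2 := mul_nonneg (P.nn _) (sq_nonneg _)
  linarith

theorem Prof.good (P : Prof θ θ1 θ2 ε C) (h : PD Q l) (hl : 0 < l) :
    Good fun x => θ (qf Q x) := by
  refine ⟨P.smooth.comp (qf_contDiff Q), fun x => by simp [qf, mulVec_neg], fun x v => ?_,
    √(3 / l), (2 * θ1 3) • Q, fun x hx => ?_⟩
  · have h1 : 0 ≤ v ⬝ᵥ v := by simpa using dotProduct_star_self_nonneg v
    have := P.pos
    exact le_trans (by positivity) (P.hs_lower h hl.le x v)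
  · have h1 : 3 / l ≤ ‖x‖ ^ 2 := by
      rw [← Real.sq_sqrt (by positivity : 0 ≤ 3 / l)]
      exact pow_le_pow_left₀ (Real.sqrt_nonneg _) hx 2
    have h2 : 3 ≤ qf Q x := by
      rw [div_le_iff₀ hl] at h1
      linarith [h.lower x]
    rw [P.hs_eq h.1, (P.far _ h2).1, (P.far _ h2).2]
    simp

theorem fn_exp_bd {a s : ℝ} (hs : s ∈ Ioo (-2 : ℝ) 2) :
    Real.exp (-(4 * |a|)) ≤ Real.exp (2 * a * s) ∧ Real.exp (2 * a * s) ≤ Real.exp (4 * |a|) := by
  have h1 : |s| ≤ 2 := abs_le.mpr ⟨hs.1.le, hs.2.le⟩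
  have h2 : |2 * a * s| ≤ 4 * |a| := by
    rw [abs_mul, abs_mul, abs_two]; nlinarith [abs_nonneg a]
  exact ⟨Real.exp_le_exp.mpr (abs_le.mp h2).1, Real.exp_le_exp.mpr (abs_le.mp h2).2⟩

theorem Prof.logconc (P : Prof θ θ1 θ2 ε C) {ι : Type} [Fintype ι] (k0 : ι) {Q : ι → Mat n}
    (hQ : ∀ k, PD (Q k) l) (hl : 0 < l) (a : ι → ℝ) {t : ℝ} (h0 : 0 ≤ t) (h1 : t ≤ 1) :
    (∫ x, Real.exp (-∑ k, θ (Real.exp (2 * a k * 0) * qf (Q k) x))) ^ (1 - t)
      * (∫ x, Real.exp (-∑ k, θ (Real.exp (2 * a k * 1) * qf (Q k) x))) ^ t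
      ≤ ∫ x, Real.exp (-∑ k, θ (Real.exp (2 * a k * t) * qf (Q k) x)) := by
  choose A hA0 hA using fun k => qf_upper (Q k)
  have hε := P.pos
  have hC : 0 ≤ C := (P.nn 0).trans (P.up2 0)
  have hθ : Continuous θ := P.smooth.continuous
  have hθ1 : Continuous θ1 := continuous_iff_continuousAt.mpr fun r => (P.d2 r).continuousAt
  have hθ2 := P.c2
  have hq : ∀ k, Continuous (qf (Q k)) := fun k => qf_continuous _
  have hq0 : ∀ k x, 0 ≤ qf (Q k) x := fun k x => le_trans (by positivity) ((hQ k).lower x)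
  obtain ⟨r, hr⟩ : ∃ r : ι → ℝ → E n → ℝ, ∀ k s x, r k s x = Real.exp (2 * a k * s) * qf (Q k) x :=
    ⟨_, fun _ _ _ => rfl⟩
  have hrc : ∀ k s, Continuous (r k s) := fun k s => by
    have : r k s = fun x => Real.exp (2 * a k * s) * qf (Q k) x := funext (hr k s)
    rw [this]; exact continuous_const.mul (hq k)
  have hrd : ∀ k s x, HasDerivAt (fun s => r k s x) (2 * a k * r k s x) s := fun k s x => by
    simp only [hr]
    exact ((((hasDerivAt_id s).const_mul (2 * a k)).exp).mul_const _).congr_deriv (by simp; ring)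
  have hr0 : ∀ k s x, 0 ≤ r k s x := fun k s x => by
    rw [hr]; exact mul_nonneg (Real.exp_pos _).le (hq0 k x)
  obtain ⟨B, hB0, hB⟩ : ∃ B : ι → ℝ, (∀ k, 0 ≤ B k) ∧
      ∀ k, ∀ s ∈ Ioo (-2 : ℝ) 2, ∀ x, r k s x ≤ B k * (1 + ‖x‖) ^ 2 := by
    refine ⟨fun k => Real.exp (4 * |a k|) * A k, fun k => by have := hA0 k; positivity,
      fun k s hs x => ?_⟩
    beta_reduce
    rw [hr, mul_assoc (Real.exp (4 * |a k|))]
    refine mul_le_mul (fn_exp_bd hs).2 ((hA k x).trans ?_) (hq0 k x) (Real.exp_pos _).le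
    exact mul_le_mul_of_nonneg_left (pow_le_pow_left₀ (norm_nonneg _) (by simp) 2) (hA0 k)
  have S1 : 0 ≤ ∑ k, |a k| * (2 * B k * C) := Finset.sum_nonneg fun k _ => by
    have := hB0 k; positivity
  have S2 : 0 ≤ ∑ k, a k ^ 2 * (4 * B k ^ 2 * C + 4 * B k * C) := Finset.sum_nonneg fun k _ => by
    have := hB0 k; positivity
  simp only [← hr]
  refine fn_logconc (g := fun s x => ∑ k, θ (r k s x))
    (g1 := fun s x => ∑ k, a k * (2 * r k s x * θ1 (r k s x)))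
    (g2 := fun s x => ∑ k, a k ^ 2 * (4 * θ2 (r k s x) * r k s x ^ 2 + 2 * θ1 (r k s x) * r k s x
      + 2 * r k s x * θ1 (r k s x)))
    (c := ε * (Real.exp (-(4 * |a k0|)) * l))
    (C := 1 + ∑ k, |a k| * (2 * B k * C) + ∑ k, a k ^ 2 * (4 * B k ^ 2 * C + 4 * B k * C))
    (by positivity) (by linarith) (fun s => by fun_prop) (fun s => by fun_prop)
    (fun s => by fun_prop) (fun s x => ?_) (fun s x => ?_) (fun s hs x => ?_) (fun s hs x => ?_)
    (fun s hs x => ?_) (fun s => ?_) h0 h1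
  · exact HasDerivAt.fun_sum fun k _ =>
      ((P.d1 _).comp s (hrd k s x)).congr_deriv (by ring)
  · exact HasDerivAt.fun_sum fun k _ =>
      ((((hrd k s x).const_mul 2).mul ((P.d2 _).comp s (hrd k s x))).const_mul (a k)).congr_deriv
        (by simp only [Function.comp_apply]; ring)
  · refine le_trans ?_ (Finset.single_le_sum (f := fun k => θ (r k s x))
      (fun k _ => le_trans (mul_nonneg hε.le (hr0 k s x)) (P.grow _ (hr0 k s x)))
      (Finset.mem_univ k0))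
    refine le_trans ?_ (P.grow _ (hr0 k0 s x))
    rw [mul_assoc, mul_assoc, hr]
    exact mul_le_mul_of_nonneg_left (mul_le_mul (fn_exp_bd hs).1 ((hQ k0).lower x)
      (by positivity) (Real.exp_pos _).le) hε.le
  · refine le_trans (Finset.abs_sum_le_sum_abs _ _) (le_trans ?_ (mul_le_mul_of_nonneg_right
      (by linarith : ∑ k, |a k| * (2 * B k * C) ≤ _) (by positivity)))
    rw [Finset.sum_mul]
    refine Finset.sum_le_sum fun k _ => ?_
    have h2 : 0 ≤ θ1 (r k s x) := hε.le.trans (P.low _)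
    have h3 := mul_le_mul (hB k s hs x) (P.up (r k s x)) h2 ((hr0 k s x).trans (hB k s hs x))
    have h4 := hr0 k s x
    rw [abs_mul, abs_of_nonneg (by positivity : 0 ≤ 2 * r k s x * θ1 (r k s x)), mul_assoc |a k|]
    exact mul_le_mul_of_nonneg_left (by linarith) (abs_nonneg _)
  · refine le_trans (Finset.abs_sum_le_sum_abs _ _) (le_trans ?_ (mul_le_mul_of_nonneg_right
      (by linarith : ∑ k, a k ^ 2 * (4 * B k ^ 2 * C + 4 * B k * C) ≤ _) (by positivity)))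
    rw [Finset.sum_mul]
    refine Finset.sum_le_sum fun k _ => ?_
    have h2 : 0 ≤ θ1 (r k s x) := hε.le.trans (P.low _)
    have h4 := hr0 k s x
    have h5 := P.nn (r k s x)
    have hb := hB0 k
    have hy : (1 + ‖x‖) ^ 2 ≤ (1 + ‖x‖) ^ 4 := pow_le_pow_right₀ (by simp) (by norm_num)
    have h3 := mul_le_mul ((hB k s hs x).trans (mul_le_mul_of_nonneg_left hy hb)) (P.up (r k s x))
      h2 (by positivity)
    have h6 := mul_le_mul (P.up2 (r k s x)) (pow_le_pow_left₀ h4 (hB k s hs x) 2) (by positivity) hC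
    rw [abs_of_nonneg (by positivity), mul_assoc (a k ^ 2)]
    exact mul_le_mul_of_nonneg_left (by nlinarith) (sq_nonneg _)
  · have hP : ∀ k, PD (Real.exp (2 * a k * s) • Q k) (Real.exp (2 * a k * s) * l) :=
      fun k => (hQ k).smul (Real.exp_pos _).le
    have hv := var_ineq (fun k x => θ (qf (Real.exp (2 * a k * s) • Q k) x)) a
      (fun k => P.good (hP k) (by positivity)) (c := 2 * ε * (Real.exp (2 * a k0 * s) * l))
      (by positivity) fun x v => le_trans (P.hs_lower (hP k0) (by positivity) x v)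
        (Finset.single_le_sum (f := fun k => v ⬝ᵥ hs (fun x =>
          θ (qf (Real.exp (2 * a k * s) • Q k) x)) x *ᵥ v)
          (fun k _ => (P.good (hP k) (by positivity)).2.2.1 x v) (Finset.mem_univ k0))
    have e : ∀ (M : Mat n) (x : E n), x.ofLp ⬝ᵥ M *ᵥ x.ofLp = qf M x := fun _ _ => rfl
    simp only [P.eu_eq (hP _).1, P.hs_form (hP _).1] at hv
    simp only [e, qf_smul, ← hr] at hv
    exact hv

end Vale.Agent.P227
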