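import Vale.Agent.P227.Linear
import Vale.Agent.P227.AlgVar
import Vale.Agent.P227.AlgMax

/-! Existence of a smooth moment potential. -/

namespace Vale.Agent.P227

open Matrix Filter Topology MeasureTheory

variable {n : ℕ} {U ψ : E n → ℝ}

theorem Nf_zero (G : Mat n) : Nf G 0 = 0 := by simp [Nf]

theorem HM_zero {ρ : ℝ} (hρ : 0 ≤ ρ) : HM (fun _ : E n => (0 : Mat n)) ρ := fun _ _ =>
  (Hn.const _).mono (by simpa using hρ)

theorem HM.neg' {T : E n → Mat n} {a : ℝ} (h : HM T a) : HM (fun x => -T x) a := fun i j => by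
  simpa using (h i j).const_mul (-1)

theorem Good.bdd (hU : Good U) : ∃ K, 0 ≤ K ∧ ∀ x i j, |hs U x i j| ≤ K := by
  obtain ⟨K, hK0, hK⟩ := exists_HM fun i j => (hU.hk 0 i j).hn
  exact ⟨K, hK0, fun x i j => (hK i j).1 x⟩

theorem reg_sol_one (hU : Good U) (h : Sol U ψ) (i j : Fin n) :
    Differentiable ℝ (fun x => hs ψ x i j) ∧ ∀ a, ∃ M, Hn (pd a fun x => hs ψ x i j) M := by
  obtain ⟨⟨M0, hX⟩, ⟨c, hc, hE⟩, b, hb⟩ := h
  have hw := hX.1
  obtain ⟨M, hM0, hM⟩ := exists_HM fun i j => ⟨M0, hX.2.2.2 i j⟩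
  obtain ⟨c', K', hc', hE', hK'⟩ := hE.inv hc hM
  obtain ⟨K, hK0, hK⟩ := exists_HM fun i j => ⟨K', hK' i j⟩
  obtain ⟨lam, Cs, hlam, hCs, hS⟩ := schauder_neg n hc' hK0
  obtain ⟨r0, Cn, hr0, hCn, hN⟩ := Nf_est (n := n) hc hM0
  obtain ⟨-, -, hN⟩ := hN (hs ψ) hE hM
  obtain ⟨KU, hKU0, hKU⟩ := hU.bdd
  have hbd : ∀ x i j, |hs ψ x i j| ≤ M := fun x i j => (hM i j).1 x
  set δ := min (r0 / (M + 1)) (1 / (4 * Cs * Cn * (M + 1))) with hδ
  have hδ0 : 0 < δ := lt_min (by positivity) (by positivity)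
  set C1 := n * (n * M) + (1 + lam) * (n * (n * M)) + n * (n * KU) with hC1
  refine hk1_of_diff (hM i j).continuous (r := δ ^ 2) (N := 2 * (Cs * C1)) (by positivity)
    (by positivity) fun v hv => ?_
  have hsq : √‖v‖ ≤ δ := Real.sqrt_le_iff.2 ⟨hδ0.le, hv⟩
  have hs0 := Real.sqrt_nonneg ‖v‖
  have hr1 : M * √‖v‖ ≤ r0 := by
    have h1 := hsq.trans (min_le_left _ _)
    rw [le_div_iff₀ (by positivity)] at h1
    nlinarith
  have hr2 : 4 * Cs * Cn * (M * √‖v‖) ≤ 1 := by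
    have h1 := hsq.trans (min_le_right _ _)
    rw [le_div_iff₀ (by positivity)] at h1
    have : 0 ≤ 4 * Cs * Cn * √‖v‖ := by positivity
    nlinarith
  have hC2 : C2 fun x => ψ (x + v) - ψ x := (hw.shift v).sub hw
  have ehs : hs (fun x => ψ (x + v) - ψ x) = fun x => hs ψ (x + v) - hs ψ x := by
    rw [hs_sub (hw.shift v) hw, hs_shift]
  have hex : ∃ M, HM (fun x => hs ψ (x + v) - hs ψ x) M :=
    ⟨_, HM.sub' (fun i j => (hM i j).shift v) hM⟩
  have e : Lop (fun x => (hs ψ x)⁻¹) (-lam) (fun x => ψ (x + v) - ψ x) = fun x =>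
      -1 * (Nf (hs ψ x) (-(hs ψ (x + v) - hs ψ x)) - Nf (hs ψ x) 0) +
      (∑ i, v i * pd i ψ (x + v) + -(1 + lam) * (ψ (x + v) - ψ x) + -1 * (U (x + v) - U x)) := by
    funext x
    have e1 : hs ψ x - -(hs ψ (x + v) - hs ψ x) = hs ψ (x + v) := by abel
    rw [Lop_sub _ _ (hw.shift v) hw, Nf_zero]
    simp only [Lop, hs_shift, eu_shift, Nf, e1, hb, Matrix.neg_apply, Matrix.sub_apply, mul_neg,
      mul_sub, Finset.sum_neg_distrib, Finset.sum_sub_distrib]
    ring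
  have t2 := ((mo_dir hw hM0 hbd v).add ((mo_diff hw hM0 hbd v).const_mul (-(1 + lam)))).add
    ((mo_diff hU.c2 hKU0 hKU v).const_mul (-1))
  have key := HM.absorb hex (a := Cs * C1 * ‖v‖) (by positivity) fun M' hM' hT => by
    have hb1 : ∀ x i j, |(-(hs ψ (x + v) - hs ψ x)) i j| ≤ M * √‖v‖ := fun x i j => by
      simpa [abs_sub_comm] using (hM i j).2 (x + v) x
    have t1 := (hN (fun x => -(hs ψ (x + v) - hs ψ x)) (fun _ => 0) (M * √‖v‖) M' (M * √‖v‖) M'
      (by positivity) hr1 hM' (by positivity) hM'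
      (fun x => ((hw.hs_symm _).sub (hw.hs_symm _)).neg) (fun _ => isSymm_zero) hb1
      (fun x i j => by simpa using (by positivity : 0 ≤ M * √‖v‖)) hT.neg' (HM_zero hM')
      (fun x i j => by simpa using hb1 x i j) (by simpa using hT.neg')).mo.const_mul (-1)
    have h1 := hS _ _ (-lam) _ hE' hK le_rfl hC2 (by rw [ehs]; exact hex)
      (by rw [e]; exact (t1.add t2).yn (by positivity))
    rw [ehs] at h1
    refine h1.mono ?_
    simp only [abs_neg, abs_one]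
    rw [abs_of_pos (by positivity : 0 < 1 + lam)]
    have h2 := mul_le_mul_of_nonneg_right hr2 hM'
    rw [hC1]
    nlinarith
  exact (key i j).mono (le_of_eq (by ring))

theorem reg_sol (hU : Good U) (h : Sol U ψ) (k : ℕ) (i j : Fin n) :
    Hk k fun x => hs ψ x i j := by
  have h1 := reg_sol_one hU h
  obtain ⟨⟨M, hX⟩, ⟨c, hc, hE⟩, b, hb⟩ := h
  have hw := hX.1
  have h3 : ∀ j, C2 (pd j ψ) := fun j => ⟨hw.2 j, fun i => (h1 i j).1⟩
  obtain ⟨M', hM0, hM⟩ := exists_HM fun i j => ⟨M, hX.2.2.2 i j⟩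
  obtain ⟨c', K', hc', hE', -⟩ := hE.inv hc hM
  have heq : ∀ e x, Lop (fun x => (hs ψ x)⁻¹) 0 (pd e ψ) x = -1 * pd e U x := by
    intro e x
    obtain ⟨-, hp⟩ := logdet_diff (hE.posDef hc) fun i j => (h1 i j).1
    have d4 : Differentiable ℝ (eu ψ) :=
      Differentiable.fun_sum fun l _ => (differentiable_coord l).mul (hw.2 l)
    have d5 : Differentiable ℝ fun x => eu ψ x - ψ x := d4.sub hw.1
    have d6 : Differentiable ℝ fun x => eu ψ x - ψ x - U x := d5.sub hU.c2.1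
    have h2 := congrFun (hp e) x
    rw [funext hb, pd_add d6 (differentiable_const b), pd_sub d5 hU.c2.1, pd_sub d4 hw.1, pd_eu hw,
      pd_const] at h2
    have e1 : ∀ i j, pd e (fun x => hs ψ x i j) x = hs (pd e ψ) x i j := fun i j => by
      change pd e (pd i (pd j ψ)) x = pd i (pd j (pd e ψ)) x
      rw [pd_comm (h3 j) e i, pd_comm hw e j]
    simp only [e1, pd_comm hw e] at h2
    simp only [Lop, eu]
    linarith
  induction k generalizing i j with
  | zero => exact ⟨M, hX.2.2.2 i j⟩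
  | succ k ih =>
    refine ⟨⟨M, hX.2.2.2 i j⟩, (h1 i j).1, fun a => ?_⟩
    refine reg_lin k hc' hE' (Hk.inv hE hc ih)
      ((Mk.of_pd (hU.c2.2 j) (fun k i => hU.hk k i j) k).const_mul (-1)) (h3 j) ?_ (heq j) a i
    obtain ⟨M, -, hM'⟩ := exists_HM (A := hs (pd j ψ)) fun p q => (h1 q j).2 p
    exact ⟨M, hM'⟩

theorem Good.sm (hU : Good U) (k : ℕ) : Sm k U := Sm.of_hs hU.c2 hU.hk k

theorem Sol.setup {c : ℝ} (hU : Good U) (hc : 0 < c) (hE : Ell (hs U) c) (h : Sol U ψ) :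
    ∃ S : Setup n (Sc n) (E n), (∀ i F, (S.d i F).1 = pd i F.1) ∧
      (∀ i, (S.x i).1 = fun x => x i) ∧ S.ψ.1 = ψ ∧ S.U.1 = U ∧
      (∀ i j, (S.H i j).1 = fun x => (hs ψ x)⁻¹ i j) ∧ (∀ p F, S.ev p F = F.1 p) ∧
      (∀ F, S.Ex F = ∫ x, F.1 x * Real.exp (-U x)) ∧
      ∀ F p, (S.L F).1 p = Lop (fun x => (hs ψ x)⁻¹) 0 F.1 p :=
  exists_setup (half_pos hc) hU.sm (hU.lower fun x => (hE x).2) h (reg_sol hU h)

theorem q3_abs_le {H : Mat n} {A : Fin n → Fin n → Fin n → ℝ} {a b : ℝ} (ha : 0 ≤ a) (hb : 0 ≤ b)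
    (hH : ∀ i j, |H i j| ≤ a) (hA : ∀ i j l, |A i j l| ≤ b) :
    q3 H A A ≤ n ^ 6 * (a ^ 3 * b ^ 2) := by
  have h1 : ∀ i j k p q r, H i p * H j q * H k r * A i j k * A p q r ≤ a ^ 3 * b ^ 2 := by
    intro i j k p q r
    refine (le_abs_self _).trans ?_
    simp only [abs_mul]
    calc _ ≤ a * a * a * b * b := by
          gcongr
          exacts [hH _ _, hH _ _, hH _ _, hA _ _ _, hA _ _ _]
      _ = _ := by ring
  calc q3 H A A ≤ ∑ _i : Fin n, ∑ _j : Fin n, ∑ _k : Fin n, ∑ _p : Fin n, ∑ _q : Fin n,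
        ∑ _r : Fin n, a ^ 3 * b ^ 2 := by
        exact Finset.sum_le_sum fun i _ => Finset.sum_le_sum fun j _ => Finset.sum_le_sum fun k _ =>
          Finset.sum_le_sum fun p _ => Finset.sum_le_sum fun q _ => Finset.sum_le_sum fun r _ =>
            h1 i j k p q r
    _ = _ := by simp; ring

theorem sum_smul_quad (v : Fin n → ℝ) (G : Mat n) :
    ∑ i, ∑ j, (v i * v j) * G i j = v ⬝ᵥ G *ᵥ v := by
  simp only [dotProduct, mulVec, Finset.mul_sum]
  exact Finset.sum_congr rfl fun i _ => Finset.sum_congr rfl fun j _ => by ring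

theorem le_sum3 (A : Fin n → Fin n → Fin n → ℝ) (i j l : Fin n) :
    A i j l ^ 2 ≤ ∑ i, ∑ j, ∑ l, A i j l ^ 2 :=
  ((Finset.single_le_sum (f := fun l => A i j l ^ 2) (fun _ _ => sq_nonneg _)
    (Finset.mem_univ l)).trans (Finset.single_le_sum (f := fun j => ∑ l, A i j l ^ 2)
      (fun _ _ => Finset.sum_nonneg fun _ _ => sq_nonneg _) (Finset.mem_univ j))).trans
    (Finset.single_le_sum (f := fun i => ∑ j, ∑ l, A i j l ^ 2)
      (fun _ _ => Finset.sum_nonneg fun _ _ => Finset.sum_nonneg fun _ _ => sq_nonneg _)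
      (Finset.mem_univ i))

/-- uniform a priori bounds, and decay of the third derivatives -/
theorem apriori (n : ℕ) {c K R B : ℝ} (hc : 0 < c) : ∃ c' M : ℝ, 0 < c' ∧
    ∀ U ψ : E n → ℝ, Good U → Ell (hs U) c → (∀ x i j, |hs U x i j| ≤ K) →
      (∀ x i j l, |pd i (pd j (pd l U)) x| ≤ B ∧ (R ≤ ‖x‖ → pd i (pd j (pd l U)) x = 0)) →
      Sol U ψ → Xn ψ M ∧ Ell (hs ψ) c' ∧
        ∀ ε : ℝ, 0 < ε → ∃ ρ : ℝ, ∀ x i j l, ρ ≤ ‖x‖ → |pd i (pd j (pd l ψ)) x| ≤ ε := by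
  obtain ⟨β, hβC, hβ1, hβ2, hβ3, hβL⟩ := exists_barrier (n := n) c⁻¹
  obtain ⟨m, hm, hβm⟩ := hβ3 R
  set K1 : ℝ := n * |K| + 1 with hK1
  have hK10 : 0 < K1 := by positivity
  set Bq : ℝ := n ^ 6 * (c⁻¹ ^ 3 * |B| ^ 2) with hBq
  have hBq0 : 0 ≤ Bq := by positivity
  set K2 : ℝ := K1 ^ 3 * (16 * Bq / m) with hK2
  have hK20 : 0 ≤ K2 := by positivity
  refine ⟨c, 2 * K1 + n * √K2, hc, fun U ψ hU hEU hKU hBU h => ?_⟩
  obtain ⟨S, hd, -, hψ, hUe, hH, hev, -, hL⟩ := h.setup hU hc hEU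
  have hreg := reg_sol hU h
  obtain ⟨⟨M0, hX⟩, ⟨c0, hc0, hE⟩, -⟩ := h
  obtain ⟨M, hM0, hM⟩ := exists_HM fun i j => ⟨M0, hX.2.2.2 i j⟩
  obtain ⟨c1, KH, hc1, hE1, hKH⟩ := hE.inv hc0 hM
  have hPD := hE.posDef hc0
  have hA : ∀ x, ((hs ψ x)⁻¹).PosSemidef := fun x => (hPD x).inv.posSemidef
  have hAK : ∀ x i j, |(hs ψ x)⁻¹ i j| ≤ KH := fun x i j => (hKH i j).1 x
  have eD2ψ : ∀ p i j, S.ev p (S.D2 S.ψ i j) = hs ψ p i j := fun p i j => by
    rw [hev, Setup.D2, hd, hd, hψ]; rfl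
  have eD2U : ∀ p i j, S.ev p (S.D2 S.U i j) = hs U p i j := fun p i j => by
    rw [hev, Setup.D2, hd, hd, hUe]; rfl
  have eH : ∀ p i j, S.ev p (S.H i j) = (hs ψ p)⁻¹ i j := fun p i j => by rw [hev, hH]
  have eD3ψ : ∀ p i j l, S.ev p (S.D3 S.ψ i j l) = pd i (pd j (pd l ψ)) p := fun p i j l => by
    rw [hev, Setup.D3, hd, hd, hd, hψ]
  have eD3U : ∀ p i j l, S.ev p (S.D3 S.U i j l) = pd i (pd j (pd l U)) p := fun p i j l => by
    rw [hev, Setup.D3, hd, hd, hd, hUe]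
  have hvv : ∀ v : Fin n → ℝ, 0 ≤ v ⬝ᵥ v := fun v => Finset.sum_nonneg fun i _ => mul_self_nonneg _
  have b1 : ∀ x (v : Fin n → ℝ), v ⬝ᵥ hs ψ x *ᵥ v ≤ K1 * (v ⬝ᵥ v) := by
    intro x v
    set F := ∑ i, ∑ j, (v i * v j) • S.D2 S.ψ i j with hF
    have e1 : ∀ p, F.1 p = v ⬝ᵥ hs ψ p *ᵥ v := fun p => by
      rw [← hev, hF]
      simp only [map_sum, map_smul, smul_eq_mul, eD2ψ, sum_smul_quad]
    have h1 := max_principle (a := 1) (b := n * |K| * (v ⬝ᵥ v)) (B := n * M * (v ⬝ᵥ v)) hA hAK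
      (Sc.c2 F) (fun p => by
        rw [e1]; exact (le_abs_self _).trans (quad_le (fun i j => (hM i j).1 p) v)) one_pos
      (fun p => by
        have h2 := S.L_G p v
        rw [← hF, hev, hev p (S.L F), hL] at h2
        simp only [map_sum, map_smul, smul_eq_mul, eD2U, sum_smul_quad] at h2
        have h3 := (le_abs_self _).trans
          (quad_le (fun i j => (hKU p i j).trans (le_abs_self K)) v)
        linarith) x
    rw [e1, div_one] at h1
    have := hvv v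
    rw [hK1]
    linarith
  have b2 : ∀ x (v : Fin n → ℝ), v ⬝ᵥ (hs ψ x)⁻¹ *ᵥ v ≤ c⁻¹ * (v ⬝ᵥ v) := by
    intro x v
    set F := ∑ i, ∑ j, (v i * v j) • S.H i j with hF
    have e1 : ∀ p, F.1 p = v ⬝ᵥ (hs ψ p)⁻¹ *ᵥ v := fun p => by
      rw [← hev, hF]
      simp only [map_sum, map_smul, smul_eq_mul, eH, sum_smul_quad]
    have h1 := max_principle (a := 1) (b := c⁻¹ * (v ⬝ᵥ v)) (B := n * KH * (v ⬝ᵥ v)) hA hAK
      (Sc.c2 F) (fun p => by
        rw [e1]; exact (le_abs_self _).trans (quad_le (hAK p) v)) one_pos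
      (fun p => by
        have h2 := S.L_H p v
        have e2 : S.H.map (S.ev p) = (hs ψ p)⁻¹ := by ext i j; exact eH p i j
        have e3 : (Matrix.of fun i j => S.ev p (S.D2 S.U i j)) = hs U p := by
          ext i j; exact eD2U p i j
        rw [← hF, e2, e3, hev, hev p (S.L F), hL] at h2
        have h3 := (hEU p).2 ((hs ψ p)⁻¹ *ᵥ v)
        set y := (hs ψ p)⁻¹ *ᵥ v with hy
        have h4 : 2 * (v ⬝ᵥ y) - c⁻¹ * (v ⬝ᵥ v) ≤ c * (y ⬝ᵥ y) := by
          have h5 := mul_nonneg (inv_pos.2 hc).le (hvv (c • y - v))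
          simp only [sub_dotProduct, dotProduct_sub, smul_dotProduct, dotProduct_smul, smul_eq_mul,
            dotProduct_comm y v] at h5
          have h6 : c⁻¹ * (c * (c * (y ⬝ᵥ y)) - c * (v ⬝ᵥ y) - (c * (v ⬝ᵥ y) - v ⬝ᵥ v)) =
              c * (y ⬝ᵥ y) - 2 * (v ⬝ᵥ y) + c⁻¹ * (v ⬝ᵥ v) := by field_simp; ring
          linarith
        have h7 := e1 p
        rw [← hy] at h7
        linarith) x
    rwa [e1, div_one] at h1
  have hEc : Ell (hs ψ) c := fun x => ⟨(hE x).1, fun v => by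
    have := inv_lower (hPD x).inv (inv_pos.2 hc) (b2 x) v
    rwa [inv_inv, Matrix.nonsing_inv_nonsing_inv _ (hPD x).det_pos.ne'.isUnit] at this⟩
  have hHc : ∀ x i j, |(hs ψ x)⁻¹ i j| ≤ c⁻¹ := fun x => entry_le (hA x) (b2 x)
  have hGK : ∀ x i j, |hs ψ x i j| ≤ K1 := fun x => entry_le (hPD x).posSemidef (b1 x)
  have b3 : ∀ x i j l, pd i (pd j (pd l ψ)) x ^ 2 ≤ K2 * β x := by
    intro x i j l
    set F := q3 S.H (S.D3 S.ψ) (S.D3 S.ψ) with hF
    have e1 : ∀ p, F.1 p = q3 (hs ψ p)⁻¹ (fun i j l => pd i (pd j (pd l ψ)) p)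
        (fun i j l => pd i (pd j (pd l ψ)) p) := fun p => by
      rw [← hev, hF]
      simp only [q3, map_sum, map_mul, eH, eD3ψ]
    have e2 : ∀ p, S.ev p (q3 S.H (S.D3 S.U) (S.D3 S.U)) = q3 (hs ψ p)⁻¹
        (fun i j l => pd i (pd j (pd l U)) p) (fun i j l => pd i (pd j (pd l U)) p) := fun p => by
      simp only [q3, map_sum, map_mul, eH, eD3U]
    choose N3 hN3 using fun t : Fin n × Fin n × Fin n => ((hreg 1 t.2.1 t.2.2).2.2 t.1).hn
    have hN30 : 0 ≤ ∑ t, N3 t := Finset.sum_nonneg fun t _ => (hN3 t).nonneg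
    have h1 := max_principle (a := 1 / 2) (b := 0) (B := n ^ 6 * (c⁻¹ ^ 3 * (∑ t, N3 t) ^ 2))
      (f := fun p => F.1 p - 16 * Bq / m * β p) hA hAK
      ((Sc.c2 F).sub (hβC.const_mul _)) (fun p => by
        have h2 : F.1 p ≤ n ^ 6 * (c⁻¹ ^ 3 * (∑ t, N3 t) ^ 2) := by
          rw [e1]
          exact q3_abs_le (inv_pos.2 hc).le hN30 (hHc p) fun i j l =>
            ((hN3 (i, j, l)).1 p).trans
              (Finset.single_le_sum (fun t _ => (hN3 t).nonneg) (Finset.mem_univ _))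
        have h3 : 0 ≤ 16 * Bq / m * β p := mul_nonneg (by positivity) (hβ1 p).1.le
        linarith) (by norm_num)
      (fun p => by
        have e3 : (Matrix.of fun i j => S.ev p (S.D2 S.U i j)) = hs U p := by
          ext i j; exact eD2U p i j
        have h2 := S.calabi p (by rw [e3]; exact (hEU.posDef hc p).posSemidef)
        rw [← hF, hev, hev p (S.L F), hL, e2] at h2
        rw [Lop_sub _ _ (Sc.c2 F) (hβC.const_mul _), Lop_const_mul]
        have h3 := mul_le_mul_of_nonneg_left (hβL _ hA hHc p) (by positivity : 0 ≤ 16 * Bq / m)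
        have h4 : 16 * q3 (hs ψ p)⁻¹ (fun i j l => pd i (pd j (pd l U)) p)
            (fun i j l => pd i (pd j (pd l U)) p) ≤ 16 * Bq / m * β p := by
          rcases le_total R ‖p‖ with hp | hp
          · have : ∀ i j l, pd i (pd j (pd l U)) p = 0 := fun i j l => (hBU p i j l).2 hp
            simp only [q3, this, mul_zero, Finset.sum_const_zero]
            exact mul_nonneg (by positivity) (hβ1 p).1.le
          · have h5 := q3_abs_le (inv_pos.2 hc).le (abs_nonneg B) (hHc p)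
              fun i j l => (hBU p i j l).1.trans (le_abs_self B)
            have h6 := mul_le_mul_of_nonneg_left (hβm p hp) (by positivity : 0 ≤ 16 * Bq / m)
            rw [div_mul_cancel₀ _ hm.ne'] at h6
            linarith
        linarith) x
    have h2 := q3_lower (hE1 x).1 (inv_pos.2 hK10).le (inv_lower (hPD x) hK10 (b1 x))
      (fun i j l => pd i (pd j (pd l ψ)) x)
    rw [← e1] at h2
    have h3 := le_sum3 (fun i j l => pd i (pd j (pd l ψ)) x) i j l
    have h4 : K1⁻¹ ^ 3 * pd i (pd j (pd l ψ)) x ^ 2 ≤ 16 * Bq / m * β x := by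
      have := mul_le_mul_of_nonneg_left h3 (by positivity : 0 ≤ K1⁻¹ ^ 3)
      simp only [zero_div] at h1
      linarith
    rw [inv_pow, inv_mul_le_iff₀ (by positivity)] at h4
    rw [hK2, mul_assoc]
    exact h4
  refine ⟨⟨hX.1, hX.2.1, hX.2.2.1, fun i j => ?_⟩, hEc, fun ε hε => ?_⟩
  · refine Hn.of_lip (fun x => hGK x i j) (fun x y => ?_) (by positivity)
    have := mvt (x := y) (y := x - y) (b := √K2) (hreg 1 i j).2.1 fun a ξ _ =>
      Real.abs_le_sqrt ((b3 _ a i j).trans (mul_le_of_le_one_right hK20 (hβ1 _).2))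
    simpa using this
  · obtain ⟨ρ, hρ⟩ := hβ2 (ε ^ 2 / (K2 + 1)) (by positivity)
    refine ⟨ρ, fun x i j l hx => abs_le_of_sq_le_sq' ?_ hε.le |> abs_le.2⟩
    have h1 := hρ x hx
    rw [le_div_iff₀ (by positivity)] at h1
    have h2 := b3 x i j l
    have h3 := (hβ1 x).1
    nlinarith

theorem le_sum2 (A : Fin n → Fin n → ℝ) (i j : Fin n) : A i j ^ 2 ≤ ∑ i, ∑ j, A i j ^ 2 :=
  (Finset.single_le_sum (f := fun j => A i j ^ 2) (fun _ _ => sq_nonneg _)
    (Finset.mem_univ j)).trans (Finset.single_le_sum (f := fun i => ∑ j, A i j ^ 2)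
      (fun _ _ => Finset.sum_nonneg fun _ _ => sq_nonneg _) (Finset.mem_univ i))

theorem Sol.solv {c : ℝ} (hU : Good U) (hc : 0 < c) (hE : Ell (hs U) c) (h : Sol U ψ) :
    Solv (fun x => (hs ψ x)⁻¹) 0 ∧ Solv (fun x => (hs ψ x)⁻¹) 1 ∧
      ∃ C, 0 < C ∧ AP (fun x => (hs ψ x)⁻¹) 1 C := by
  obtain ⟨KU, -, hKU⟩ := hU.bdd
  obtain ⟨R, B, -, hB⟩ := hU.third
  obtain ⟨c', M0, hc', hap⟩ := apriori n (K := KU) (R := R) (B := B) hc
  obtain ⟨hX, hEψ, hdec⟩ := hap U ψ hU hE hKU hB h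
  obtain ⟨S, hd, -, -, -, hH, hev, hEx, hL⟩ := h.setup hU hc hE
  have hreg := reg_sol hU h
  obtain ⟨c1, K0, hc1, hE1, hK0⟩ := hEψ.inv hc' hX.2.2.2
  obtain ⟨K, hKn, hK⟩ := exists_HM fun i j => ⟨K0, hK0 i j⟩
  have hb : ∀ x i j, |(hs ψ x)⁻¹ i j| ≤ K := fun x i j => (hK i j).1 x
  refine solv_main hc1 hE1 (fun k => Hk.inv hEψ hc' (hreg k))
    (fun x => by rw [hX.2.1.hs_even]) (fun ε hε => ?_) fun w κ b hκ hw hwk he x => ?_
  · obtain ⟨ρ, hρ⟩ := hdec (ε / (n * (n * (n * (K * K))) + 1)) (by positivity)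
    refine ⟨2 * |ρ| + 4 * K / ε, fun p v i j hp => ?_⟩
    have hKε : 0 ≤ 4 * K / ε := by positivity
    have hρ0 := abs_nonneg ρ
    refine le_trans ?_ (mul_le_mul_of_nonneg_left (le_md _) hε.le)
    rcases le_total ‖v‖ (‖p‖ / 2) with hv | hv
    · obtain ⟨hdi, hpi⟩ := inv_diff (hEψ.posDef hc') (fun i j => (hreg 1 i j).2.1) i j
      set δ := ε / (n * (n * (n * (K * K))) + 1) with hδ
      have hδ0 : 0 < δ := by positivity
      have h1 := mvt (x := p) (y := v) (b := n * (n * (K * δ * K))) hdi fun a ξ hξ => by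
        have h2 : ρ ≤ ‖p + ξ‖ := by
          have h3 := norm_sub_le (p + ξ) ξ
          rw [add_sub_cancel_right] at h3
          have := le_abs_self ρ
          linarith
        rw [hpi a, abs_neg]
        refine (Finset.abs_sum_le_sum_abs _ _).trans ?_
        calc _ ≤ ∑ _k : Fin n, n * (K * δ * K) := Finset.sum_le_sum fun k _ => by
              refine (Finset.abs_sum_le_sum_abs _ _).trans ?_
              calc _ ≤ ∑ _l : Fin n, K * δ * K := Finset.sum_le_sum fun l _ => by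
                    simp only [abs_mul]
                    gcongr
                    exacts [hb _ _ _, hρ _ a k l h2, hb _ _ _]
                _ = _ := by simp
          _ = _ := by simp
      refine h1.trans (mul_le_mul_of_nonneg_right ?_ (norm_nonneg _))
      have h4 : δ * (n * (n * (n * (K * K))) + 1) = ε := by rw [hδ]; field_simp
      nlinarith
    · have h1 := hb (p + v) i j
      have h2 := hb p i j
      have h3 : 4 * K / ε ≤ 2 * ‖v‖ := by linarith
      rw [div_le_iff₀ hε] at h3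
      have h4 := abs_sub ((hs ψ (p + v))⁻¹ i j) ((hs ψ p)⁻¹ i j)
      linarith
  · let W : Sc n := ⟨w, Sm.of_hs hw hwk⟩
    have h1 := S.kernel W hκ (c := b) (Subtype.ext (funext fun p => by
      change (S.L W).1 p + κ * w p = b
      rw [hL, ← he p]
      simp [Lop, W]))
    set F := q2 S.H (S.D2 W) (S.D2 W) with hF
    have e1 : ∀ p, F.1 p = q2 (hs ψ p)⁻¹ (hs w p) (hs w p) := fun p => by
      have e2 : ∀ i j, S.ev p (S.D2 W i j) = hs w p i j := fun i j => by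
        rw [hev, Setup.D2, hd, hd]; rfl
      have e3 : ∀ i j, S.ev p (S.H i j) = (hs ψ p)⁻¹ i j := fun i j => by rw [hev, hH]
      rw [← hev, hF]
      simp only [q2, map_sum, map_mul, e2, e3]
    have h2 : ∀ p, c1 ^ 2 * ∑ i, ∑ j, hs w p i j ^ 2 ≤ F.1 p := fun p => by
      rw [e1]; exact q2_lower (hE1 p).1 hc1.le (hE1 p).2 _
    have h3 : ∀ p, 0 ≤ F.1 p * Real.exp (-U p) := fun p =>
      mul_nonneg (le_trans (by positivity) (h2 p)) (Real.exp_pos _).le
    rw [hEx] at h1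
    have h4 := (integral_eq_zero_iff_of_nonneg h3 (PG.integrable (half_pos hc) hU.c2.1.continuous
      (hU.lower fun x => (hE x).2) (F.2 0).1 (F.2 0).2)).1 (le_antisymm h1 (integral_nonneg h3))
    have h5 := congrFun ((Continuous.ae_eq_iff_eq volume ((F.2 0).1.mul
      (Real.continuous_exp.comp hU.c2.1.continuous.neg)) continuous_zero).1 h4) x
    have h6 : F.1 x = 0 := (mul_eq_zero.1 h5).resolve_right (Real.exp_pos _).ne'
    ext i j
    have h7 := mul_le_mul_of_nonneg_left (le_sum2 (hs w x) i j) (sq_nonneg c1)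
    have h8 := h2 x
    have h9 : c1 ^ 2 * hs w x i j ^ 2 ≤ 0 := by linarith
    have h10 : hs w x i j ^ 2 ≤ 0 := le_of_mul_le_mul_left (by simpa using h9) (pow_pos hc1 2)
    simpa using pow_eq_zero_iff two_ne_zero |>.1 (le_antisymm h10 (sq_nonneg _))

theorem Sol.perturb {c : ℝ} (hU : Good U) (hc : 0 < c) (hE : Ell (hs U) c) (h : Sol U ψ)
    {D : E n → ℝ} {K : ℝ} (hD : C2 D) (eD : Ev D) (hK0 : 0 ≤ K) (hK : ∀ x i j, |hs D x i j| ≤ K) :
    ∃ δ, 0 < δ ∧ ∀ t, 0 ≤ t → t ≤ δ → ∃ ψ', Sol (fun x => U x + t * D x) ψ' := by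
  obtain ⟨-, hS, C, hC, hAP⟩ := h.solv hU hc hE
  obtain ⟨⟨M0, hX⟩, ⟨c0, hc0, hE0⟩, b, hb⟩ := h
  obtain ⟨M, hM0, hM⟩ := exists_HM fun i j => ⟨M0, hX.2.2.2 i j⟩
  obtain ⟨r0, Cn, hr0, hCn, hN⟩ := Nf_est (n := n) hc0 hM0
  obtain ⟨hN1, hN2, hN3⟩ := hN (hs ψ) hE0 hM
  set r := min r0 (1 / (4 * Cn * C)) with hr
  have hr0' : 0 < r := lt_min hr0 (by positivity)
  have hr1 : r ≤ r0 := min_le_left _ _
  have hr2 : ∀ s, 0 ≤ s → Cn * (r * s + r * s) ≤ s / (2 * C) := fun s hs => by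
    have h1 : r ≤ 1 / (4 * Cn * C) := min_le_right _ _
    rw [le_div_iff₀ (by positivity)] at h1 ⊢
    nlinarith [mul_le_mul_of_nonneg_right h1 hs]
  refine ⟨r / (2 * C * (n ^ 2 * K + 1)), by positivity, fun t ht0 ht => ?_⟩
  obtain ⟨w, b', hw, he⟩ := fixed_point hS hAP hC hr0'.le (fun x _ T => t * D x + Nf (hs ψ x) T)
    (fun x => continuousOn_const.add ((hN2 x).comp continuous_snd.continuousOn
      fun p hp => ⟨hp.1, fun i j => (hp.2 i j).trans hr1⟩))
    (fun w hw x => by simp only [eD x, hX.2.1.hs_even x, hw.2.1.hs_even x])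
    (fun w hw => by
      have t1 := (hN3 (hs w) (fun _ => 0) r r r r hr0'.le hr1 hr0'.le hr0'.le hr0'.le
        hw.1.hs_symm (fun _ => isSymm_zero) (fun x => (hw.symm_bdd x).2)
        (fun x i j => by simpa using hr0'.le) hw.2.2.2 (HM_zero hr0'.le)
        (fun x i j => by simpa using (hw.symm_bdd x).2 i j)
        (by simpa using hw.2.2.2)).mo.yn (by positivity)
      simp only [Nf_zero, sub_zero] at t1
      refine (((hD.yn hK0 hK).const_mul t).add t1).mono ?_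
      have h1 := hr2 r hr0'.le
      have h2 : |t| * (n ^ 2 * K) ≤ r / (2 * C) := by
        rw [abs_of_nonneg ht0, le_div_iff₀ (by positivity)]
        rw [le_div_iff₀ (by positivity)] at ht
        have : 0 ≤ t * (2 * C) := by positivity
        nlinarith
      have h3 : r / C = r / (2 * C) + r / (2 * C) := by field_simp; ring
      linarith)
    (fun w u s hs0 hw hu hd => by
      have t1 := (hN3 (hs w) (hs u) r r s s hr0'.le hr1 hr0'.le hs0 hs0
        hw.1.hs_symm hu.1.hs_symm (fun x => (hw.symm_bdd x).2) (fun x => (hu.symm_bdd x).2)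
        hw.2.2.2 hu.2.2.2 (fun x i j => (hd i j).1 x) hd).mo.yn (by positivity)
      simp only [add_sub_add_left_eq_sub]
      exact t1.mono (hr2 s hs0))
  refine ⟨fun x => ψ x - w x, ⟨_, hX.sub hw⟩, ⟨c0 / 2, half_pos hc0, ?_⟩, b - b', fun x => ?_⟩
  · rw [hs_sub hX.1 hw.1]
    exact hN1 (hs w) hw.1.hs_symm fun x i j => ((hw.symm_bdd x).2 i j).trans hr1
  · have h1 := he x
    have h2 := hb x
    have h3 : eu (fun x => ψ x - w x) x = eu ψ x - eu w x := by
      simp only [eu, pd_sub hX.1.1 hw.1.1, mul_sub, Finset.sum_sub_distrib]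
    rw [hs_sub hX.1 hw.1, h3]
    simp only [Lop, Nf] at h1
    linarith

theorem exists_sol {c : ℝ} (hU : Good U) (hc : 0 < c) (hE : Ell (hs U) c) : ∃ ψ, Sol U ψ := by
  obtain ⟨K, hK0, hK⟩ := hU.bdd
  obtain ⟨R, B, hB0, hB⟩ := hU.third
  let V : ℝ → E n → ℝ := fun s x => (1 - s) * (‖x‖ ^ 2 / 2) + s * U x
  have hVg : ∀ s, 0 ≤ s → s ≤ 1 → Good (V s) := fun s h0 h1 =>
    (Good.sq.const_mul (sub_nonneg.2 h1)).add (hU.const_mul h0)
  have hVh : ∀ s, hs (V s) = fun x => (1 - s) • (1 : Mat n) + s • hs U x := fun s => by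
    simp only [V]
    rw [hs_add (C2_sq.const_mul _) (hU.c2.const_mul _), hs_const_mul, hs_const_mul, hs_sq]
  have hc1 : 0 < min c 1 := lt_min hc one_pos
  have hVE : ∀ s, 0 ≤ s → s ≤ 1 → Ell (hs (V s)) (min c 1) := fun s h0 h1 => by
    rw [hVh]
    exact (Ell_one.mono (min_le_right _ _)).comb (hE.mono (min_le_left _ _)) h0 h1
  have hone : ∀ i j, |(1 : Mat n) i j| ≤ 1 := fun i j => (HM_one i j).1 0
  have hVK : ∀ s, 0 ≤ s → s ≤ 1 → ∀ x i j, |hs (V s) x i j| ≤ 1 + K := fun s h0 h1 x i j => by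
    rw [hVh]
    simp only [Matrix.add_apply, Matrix.smul_apply, smul_eq_mul]
    refine (abs_add_le _ _).trans (add_le_add ?_ ?_)
    · rw [abs_mul, abs_of_nonneg (sub_nonneg.2 h1)]
      nlinarith [hone i j, abs_nonneg ((1 : Mat n) i j)]
    · rw [abs_mul, abs_of_nonneg h0]
      nlinarith [hK x i j, abs_nonneg (hs U x i j)]
  have hV3 : ∀ s i j l x, pd i (pd j (pd l (V s))) x = s * pd i (pd j (pd l U)) x := by
    intro s i j l x
    have e : pd j (pd l (V s)) = fun x => (1 - s) * (1 : Mat n) j l + s * pd j (pd l U) x := by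
      funext x
      exact congrFun (congrFun (congrFun (hVh s) x) j) l
    have hd : Differentiable ℝ fun x => s * pd j (pd l U) x := ((hU.hk 1 j l).2.1).const_mul s
    rw [e, pd_add (differentiable_const _) hd, pd_const, pd_const_mul]
    simp only [zero_add]
  obtain ⟨c', M, hc', hap⟩ := apriori n (K := 1 + K) (R := R) (B := B) hc1
  have hap' : ∀ s, 0 ≤ s → s ≤ 1 → ∀ ψ, Sol (V s) ψ → Xn ψ M ∧ Ell (hs ψ) c' :=
    fun s h0 h1 ψ h => by
      have := hap _ ψ (hVg s h0 h1) (hVE s h0 h1) (hVK s h0 h1) (fun x i j l => by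
        rw [hV3]
        refine ⟨?_, fun hx => by rw [(hB x i j l).2 hx, mul_zero]⟩
        rw [abs_mul, abs_of_nonneg h0]
        nlinarith [(hB x i j l).1, abs_nonneg (pd i (pd j (pd l U)) x)]) h
      exact ⟨this.1, this.2.1⟩
  have key : (1 : ℝ) ∈ {s : ℝ | ∃ ψ, Sol (V s) ψ} := by
    refine IsClosed.mem_of_ge_of_forall_exists_gt (a := 0) (IsSeqClosed.isClosed ?_) ?_
      zero_le_one ?_
    · intro s t hs' ht
      have htI : t ∈ Set.Icc (0 : ℝ) 1 :=
        isClosed_Icc.mem_of_tendsto ht (Eventually.of_forall fun k => (hs' k).2)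
      refine ⟨?_, htI⟩
      choose W hW using fun k => (hs' k).1
      have h1 := fun k => hap' _ (hs' k).2.1 (hs' k).2.2 _ (hW k)
      choose b hb using fun k => (hW k).2.2
      obtain ⟨u, hu, hlim⟩ := compactness fun k => (h1 k).1
      have hm : ∀ x, Tendsto (fun k => hs (W k) x) UF (𝓝 (hs u x)) := fun x =>
        tendsto_pi_nhds.2 fun i => tendsto_pi_nhds.2 fun j => (hlim x).2.2 i j
      have hEu : Ell (hs u) c' := fun x => ⟨hu.1.hs_symm x, fun v => by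
        have hcont : Continuous fun G : Mat n => v ⬝ᵥ G *ᵥ v := by fun_prop
        exact ge_of_tendsto' ((hcont.tendsto _).comp (hm x)) fun k => ((h1 k).2 x).2 v⟩
      have hT : ∀ x, Tendsto (fun k => Real.log (hs (W k) x).det - eu (W k) x + W k x + V (s k) x)
          UF (𝓝 (Real.log (hs u x).det - eu u x + u x + V t x)) := fun x => by
        have t1 : Tendsto (fun k => Real.log (hs (W k) x).det) UF (𝓝 (Real.log (hs u x).det)) :=
          (((continuous_id.matrix_det).tendsto _).comp (hm x)).log (hEu.posDef hc' x).det_pos.ne'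
        have t2 : Tendsto (fun k => eu (W k) x) UF (𝓝 (eu u x)) :=
          tendsto_finsetSum _ fun i _ => ((hlim x).2.1 i).const_mul _
        have t3 : Tendsto (fun k => V (s k) x) UF (𝓝 (V t x)) :=
          (((ht.mono_left UF_le).const_sub 1).mul_const _).add ((ht.mono_left UF_le).mul_const _)
        exact ((t1.sub t2).add (hlim x).1).add t3
      refine ⟨u, ⟨M, hu⟩, ⟨c', hc', hEu⟩,
        Real.log (hs u 0).det - eu u 0 + u 0 + V t 0, fun x => ?_⟩
      have h2 := tendsto_nhds_unique (hT x) ((hT 0).congr fun k => by rw [hb, hb]; ring)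
      linarith
    · refine ⟨fun x => ‖x‖ ^ 2 / 2, ⟨1, C2_sq, fun x => by simp, by simp, ?_⟩,
        ⟨1, one_pos, ?_⟩, 0, fun x => ?_⟩
      · rw [hs_sq]; exact HM_one
      · rw [hs_sq]; exact Ell_one
      · have h1 : eu (fun x : E n => ‖x‖ ^ 2 / 2) x = ‖x‖ ^ 2 := by
          simp only [eu, pd_sq]
          exact dot_self_eq x
        rw [hs_sq, h1]
        simp only [det_one, Real.log_one, V]
        ring
    · rintro s ⟨⟨ψ, hψ⟩, h0, h1⟩
      obtain ⟨δ, hδ, hp⟩ := hψ.perturb (hVg s h0 h1.le) hc1 (hVE s h0 h1.le)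
        (D := fun x => U x - ‖x‖ ^ 2 / 2) (K := K + 1) (hU.c2.sub C2_sq)
        (fun x => by simp [hU.2.1 x]) (by positivity) (fun x i j => by
          rw [hs_sub hU.c2 C2_sq, hs_sq]
          exact (abs_sub _ _).trans (add_le_add (hK x i j) (hone i j)))
      have ht : 0 < min δ (1 - s) := lt_min hδ (by linarith)
      obtain ⟨ψ', hψ'⟩ := hp _ ht.le (min_le_left _ _)
      refine ⟨s + min δ (1 - s), ⟨ψ', ?_⟩, by linarith, by linarith [min_le_right δ (1 - s)]⟩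
      have e : V (s + min δ (1 - s)) = fun x => V s x + min δ (1 - s) * (U x - ‖x‖ ^ 2 / 2) := by
        funext x
        simp only [V]
        ring
      rw [e]
      exact hψ'
  obtain ⟨ψ, hψ⟩ := key
  refine ⟨ψ, ?_⟩
  have e : V 1 = U := by funext x; simp [V]
  rwa [e] at hψ

end Vale.Agent.P227
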